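import Vale.Agent.P032.H824.Prt
import Vale.Agent.P032.H961.DHa

/-!
# P032, helper824: a corner `K` between two vertices with the same plain letter

World of at most two points with four colours on each of the two circles.  `V` two-pair with the pairs
`ab | cd`, `y` at distance one with the pairs `ac | df`; no end with the three colours `abf`, `cdf` on
`S(V)`, none with `acb`, `dfb` on `S(y)`.  `x ∈ S(V)` and its partner `w = x + y - V ∈ S(y)`:
`S1`: `x` in the closure of the exact `ab`-points or `w` in that of the `df`-points; `S2`: `x` in the closure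
of the `cd`-points or with the colour `f`, or `w` in the closure of the `ac`-points or with the colour `b`.
Both are closed, they cover, and they are disjoint where `x`, `w` have at most three colours
(`KC824.disj`).  So they switch only at the second points with four colours, `S1` is in a half circle
between them, and on an arc longer than three the circle `S(V)` has only the letters `e, f, cd` :
impossible.  `KC824.main`.
-/

open Set Filter Topology Metric

noncomputable section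

namespace Vale.Agent.P032.Six

open Vale.Agent.P032.S5.H767 Vale.Agent.P032.H961

variable {U : Fin 6 → Set ℂ} {T : ℂ → Set (Fin 6)} {V y z x w : ℂ} {a b c d e f : Fin 6}

/-! ### Tools -/

/-- near a point with one letter the circle has the colours of the letter -/
theorem only_near824 (C : Ctr U T z a b c d e f) {l : Fin 4}
    (only : ∀ m, x ∈ Lt T z a b c d e f m → m = l) :
    ∀ᶠ q in 𝓝[sphere z 1] x, col a b c d e f l ⊆ T q := by
  have h2 : ∀ m, m ≠ l → ∀ᶠ q in 𝓝 x, q ∉ Lt T z a b c d e f m := by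
    intro m hm
    exact (Lt_closed C.irr m).isOpen_compl.mem_nhds fun h3 => hm (only m h3)
  have h3 : ∀ᶠ q in 𝓝 x, ∀ m, m ≠ l → q ∉ Lt T z a b c d e f m := by
    rw [eventually_all]
    intro m
    by_cases hm : m = l
    · exact Eventually.of_forall fun q h4 => absurd hm h4
    · filter_upwards [h2 m hm] with q hq _
      exact hq
  filter_upwards [mem_nhdsWithin_of_mem_nhds h3, self_mem_nhdsWithin] with q hq hqz
  obtain ⟨m, hm⟩ := C.cover (y := q) hqz
  by_cases hml : m = l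
  · rw [← hml]; exact Lt_col C.irr hm
  · exact absurd hm (hq m hml)

/-- a colour of a letter of `x` at the partner: there is another letter at `x` -/
theorem other824 (C : Ctr U T z a b c d e f) {l : Fin 4} {i : Fin 6} (hx : dist x z = 1)
    (hy : dist y z = 1) (h1 : x ≠ y) (h2 : x + y ≠ 2 * z) (hi : i ∈ col a b c d e f l)
    (hiw : i ∈ T (x + y - z)) : ∃ m, m ≠ l ∧ x ∈ Lt T z a b c d e f m := by
  by_contra hcon
  push Not at hcon
  have hn := only_near824 C fun m hm => by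
    by_contra h3
    exact hcon m h3 hm
  refine line_free C.irr hx (t := i) (hn.mono fun q hq => hq hi) (v := x + y - z) ?_ ?_ ?_
    (C.irr.sub _ hiw)
  · rw [dist_eq_norm, show x - (x + y - z) = -(y - z) by ring, norm_neg, ← dist_eq_norm]
    exact hy
  · intro h3
    exact h2 (by linear_combination h3)
  · intro h3
    exact h1 (by linear_combination -h3)

theorem three_eq824 {s : Set (Fin 6)} (h3 : s.ncard ≤ 3) {i j k : Fin 6} (hi : i ∈ s) (hj : j ∈ s)
    (hk : k ∈ s) (hij : i ≠ j) (hik : i ≠ k) (hjk : j ≠ k) : s = {i, j, k} := by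
  symm
  refine Set.eq_of_subset_of_ncard_le ?_ ?_ (Set.toFinite _)
  · rintro m (rfl | rfl | rfl) <;> assumption
  · have : ({i, j, k} : Set (Fin 6)).ncard = 3 :=
      Set.ncard_eq_three.2 ⟨i, j, k, hij, hik, hjk, rfl⟩
    omega

/-- the parametrization is a local homeomorphism -/
theorem circ_ev824 {P : ℝ → ℂ} (C : Circ V P) {u0 : ℝ} {p : ℂ → Prop}
    (h : ∀ᶠ u in 𝓝 u0, p (P u)) : ∀ᶠ q in 𝓝[sphere V 1] (P u0), p q := by
  obtain ⟨ε, hε, hb⟩ := Metric.eventually_nhds_iff.1 h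
  set K : Set ℂ := P '' (Icc (u0 - 3) (u0 - min ε 1) ∪ Icc (u0 + min ε 1) (u0 + 3)) with hK
  have hm : 0 < min ε 1 := lt_min hε one_pos
  have hm1 : min ε 1 ≤ 1 := min_le_right _ _
  have hKc : IsClosed K :=
    ((isCompact_Icc.union isCompact_Icc).image C.cont).isClosed
  have hnot : P u0 ∉ K := by
    rintro ⟨v, hv | hv, hPv⟩
    · exact C.inj v u0 (by linarith [hv.2]) (by linarith [hv.1]) hPv
    · exact C.inj u0 v (by linarith [hv.1]) (by linarith [hv.2]) hPv.symm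
  filter_upwards [mem_nhdsWithin_of_mem_nhds (hKc.isOpen_compl.mem_nhds hnot),
    self_mem_nhdsWithin] with q hq hqs
  obtain ⟨v, hv, rfl⟩ := C.surj q hqs u0
  refine hb ?_
  rw [Real.dist_eq, abs_lt]
  have hmε : min ε 1 ≤ ε := min_le_left _ _
  constructor
  · by_contra hcon
    exact hq ⟨v, Or.inl ⟨hv.1, by linarith⟩, rfl⟩
  · by_contra hcon
    exact hq ⟨v, Or.inr ⟨by linarith, hv.2⟩, rfl⟩

theorem circ_ne824 {P : ℝ → ℂ} (C : Circ V P) (u0 : ℝ) (q : ℂ) :
    ∀ᶠ u in 𝓝[≠] u0, P u ≠ q := by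
  by_cases hq : q = P u0
  · have h1 : ∀ᶠ u in 𝓝[≠] u0, u ∈ Ioo (u0 - 1) (u0 + 1) :=
      mem_nhdsWithin_of_mem_nhds (Ioo_mem_nhds (by linarith) (by linarith))
    filter_upwards [h1, self_mem_nhdsWithin] with u hu hu2
    rw [hq]
    rcases lt_or_gt_of_ne hu2 with h2 | h2
    · exact C.inj u u0 h2 (by linarith [hu.1])
    · exact (C.inj u0 u h2 (by linarith [hu.2])).symm
  · have h1 : ∀ᶠ u in 𝓝 u0, P u ≠ q :=
      (C.cont.continuousAt (x := u0)).eventually (isOpen_ne.mem_nhds (Ne.symm hq))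
    exact mem_nhdsWithin_of_mem_nhds h1

theorem circ_three824 {P : ℝ → ℂ} (C : Circ V P) (u : ℝ) : P (u + 3) = 2 * V - P u := by
  have h1 := C.sum u
  have h2 := C.sum (u + 1)
  rw [show u + 1 + 2 = u + 3 by ring, show u + 1 + 1 = u + 2 by ring] at h2
  linear_combination h1 + h2

/-! ### The data -/

/-- a corner `K` between two vertices with the plain letter `e` -/
structure KC824 (U : Fin 6 → Set ℂ) (T : ℂ → Set (Fin 6)) (V y : ℂ) (a b c d e f : Fin 6) :
    Prop where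
  irr : Irr U T
  nd : [a, b, c, d, e, f].Nodup
  hV : DPt T V a b c d
  hy : DPt T y a c d f
  one : dist y V = 1
  mA : ∀ x ∈ closure (Ex T V {a, b}), (T x).ncard ≤ 3 → f ∉ T x
  mC : ∀ x ∈ closure (Ex T V {c, d}), (T x).ncard ≤ 3 → f ∉ T x
  mP : ∀ w ∈ closure (Ex T y {a, c}), (T w).ncard ≤ 3 → b ∉ T w
  mQ : ∀ w ∈ closure (Ex T y {d, f}), (T w).ncard ≤ 3 → b ∉ T w

namespace KC824

variable (K : KC824 U T V y a b c d e f)

include K

theorem C1 : Ctr U T V a b c d e f := ctr_of_dpt K.irr K.hV K.nd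

theorem C2 : Ctr U T y a c d f b e := by
  refine ctr_of_dpt K.irr K.hy ?_
  have hn := K.nd
  simp only [List.nodup_cons, List.mem_cons, List.not_mem_nil, or_false, not_or, List.nodup_nil,
    and_true, not_false_eq_true] at hn ⊢
  obtain ⟨⟨ab, ac, ad, ae, af⟩, ⟨bc, bd, be, bf⟩, ⟨cd, ce, cf⟩, ⟨de, df⟩, ef⟩ := hn
  exact ⟨⟨ac, ad, af, ab, ae⟩, ⟨cd, cf, Ne.symm bc, ce⟩, ⟨df, Ne.symm bd, de⟩,
    ⟨Ne.symm bf, Ne.symm ef⟩, be⟩

theorem four1 (hw : dist w V = 1) (h1 : w ≠ y) (h2 : w + y ≠ 2 * V) {p q r : Fin 6}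
    (hT : T w = {p, q, r}) (hp : p ∈ T (w + y - V)) (hq : q ∈ T (w + y - V)) (hr : r ∈ T V)
    (h3 : (T (w + y - V)).ncard ≤ 3) : False := by
  have := four_of_two824 K.irr K.one hw h1 h2 hT.le hp hq hr
  omega

/-- **the two classes are disjoint** -/
theorem disj (hx : dist x V = 1) (h1 : x ≠ y) (h2 : x + y ≠ 2 * V) (h3 : (T x).ncard ≤ 3)
    (h3' : (T (x + y - V)).ncard ≤ 3)
    (hS1 : x ∈ closure (Ex T V {a, b}) ∨ x + y - V ∈ closure (Ex T y {d, f}))
    (hS2 : x ∈ closure (Ex T V {c, d}) ∨ f ∈ T x ∨ x + y - V ∈ closure (Ex T y {a, c}) ∨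
      b ∈ T (x + y - V)) : False := by
  have C1 := K.C1
  have C2 := K.C2
  have h := K.irr
  have hn := K.nd
  simp only [List.nodup_cons, List.mem_cons, List.not_mem_nil, or_false, not_or, List.nodup_nil,
    and_true, not_false_eq_true] at hn
  obtain ⟨⟨ab, ac, ad, ae, af⟩, ⟨bc, bd, be, bf⟩, ⟨cd, ce, cf⟩, ⟨de, df⟩, ef⟩ := hn
  have hVy : dist V y = 1 := by rw [dist_comm]; exact K.one
  set w := x + y - V with hw
  have hwy : dist w y = 1 := by
    rw [dist_eq_norm, show w - y = x - V by rw [hw]; ring, ← dist_eq_norm]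
    exact hx
  have hback : w + V - y = x := by rw [hw]; ring
  have k1 : w ≠ V := fun h4 => h2 (by rw [hw] at h4; linear_combination h4)
  have k2 : w + V ≠ 2 * y := fun h4 => h1 (by rw [hw] at h4; linear_combination h4)
  have hxw : dist x w = 1 := by
    rw [dist_eq_norm, show x - w = -(y - V) by rw [hw]; ring, norm_neg, ← dist_eq_norm]
    exact K.one
  have aV : a ∈ T V := by rw [K.hV.pal]; simp
  have bV : b ∈ T V := by rw [K.hV.pal]; simp
  have cV : c ∈ T V := by rw [K.hV.pal]; simp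
  have dy : d ∈ T y := by rw [K.hy.pal]; simp
  have nAC : x ∈ closure (Ex T V {a, b}) → x ∉ closure (Ex T V {c, d}) := fun k3 k4 =>
    C1.noAC h3 k3 k4
  have nAf : x ∈ closure (Ex T V {a, b}) → f ∉ T x := fun k3 => K.mA x k3 h3
  have nCf : x ∈ closure (Ex T V {c, d}) → f ∉ T x := fun k3 => K.mC x k3 h3
  have nPQ : w ∈ closure (Ex T y {a, c}) → w ∉ closure (Ex T y {d, f}) := fun k3 k4 =>
    C2.noAC h3' k3 k4
  have nPb : w ∈ closure (Ex T y {a, c}) → b ∉ T w := fun k3 => K.mP w k3 h3'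
  have nQb : w ∈ closure (Ex T y {d, f}) → b ∉ T w := fun k3 => K.mQ w k3 h3'
  have eA : x ∈ closure (Ex T V {a, b}) → (∃ i ∈ ({a, b} : Set (Fin 6)), i ∈ T w) → e ∈ T x := by
    rintro k3 ⟨i, hi, hiw⟩
    obtain ⟨m, hm, hm'⟩ := other824 C1 (l := 2) hx K.one h1 h2 hi hiw
    fin_cases m
    · exact hm'.2
    · exact absurd hm'.2 (nAf k3)
    · exact absurd rfl hm
    · exact absurd hm' (nAC k3)
  have eC : x ∈ closure (Ex T V {c, d}) → (∃ i ∈ ({c, d} : Set (Fin 6)), i ∈ T w) → e ∈ T x := by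
    rintro k3 ⟨i, hi, hiw⟩
    obtain ⟨m, hm, hm'⟩ := other824 C1 (l := 3) hx K.one h1 h2 hi hiw
    fin_cases m
    · exact hm'.2
    · exact absurd hm'.2 (nCf k3)
    · exact absurd k3 (nAC hm')
    · exact absurd rfl hm
  have ef' : f ∈ T x → f ∈ T w → e ∈ T x := by
    intro k3 k4
    obtain ⟨m, hm, hm'⟩ := other824 C1 (l := 1) hx K.one h1 h2 (i := f) rfl k4
    fin_cases m
    · exact hm'.2
    · exact absurd rfl hm
    · exact absurd k3 (nAf hm')
    · exact absurd k3 (nCf hm')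
  have eP : w ∈ closure (Ex T y {a, c}) → (∃ i ∈ ({a, c} : Set (Fin 6)), i ∈ T x) → e ∈ T w := by
    rintro k3 ⟨i, hi, hix⟩
    obtain ⟨m, hm, hm'⟩ := other824 C2 (l := 2) hwy hVy k1 k2 hi (by rw [hback]; exact hix)
    fin_cases m
    · exact absurd hm'.2 (nPb k3)
    · exact hm'.2
    · exact absurd rfl hm
    · exact absurd hm' (nPQ k3)
  have eQ : w ∈ closure (Ex T y {d, f}) → (∃ i ∈ ({d, f} : Set (Fin 6)), i ∈ T x) → e ∈ T w := by
    rintro k3 ⟨i, hi, hix⟩
    obtain ⟨m, hm, hm'⟩ := other824 C2 (l := 3) hwy hVy k1 k2 hi (by rw [hback]; exact hix)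
    fin_cases m
    · exact absurd hm'.2 (nQb k3)
    · exact hm'.2
    · exact absurd k3 (nPQ hm')
    · exact absurd rfl hm
  have eb : b ∈ T w → b ∈ T x → e ∈ T w := by
    intro k3 k4
    obtain ⟨m, hm, hm'⟩ := other824 C2 (l := 0) hwy hVy k1 k2 (i := b) rfl
      (by rw [hback]; exact k4)
    fin_cases m
    · exact absurd rfl hm
    · exact hm'.2
    · exact absurd k3 (nPb hm')
    · exact absurd k3 (nQb hm')
  rcases hS1 with hA | hQ
  · have k5 := sub_of_closure h hA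
    have ax : a ∈ T x := k5 (by simp)
    have bx : b ∈ T x := k5 (by simp)
    rcases hS2 with hC | hf | hP | hb
    · exact nAC hA hC
    · exact nAf hA hf
    · have k6 := sub_of_closure h hP
      have aw : a ∈ T w := k6 (by simp)
      have ex := eA hA ⟨a, by simp, aw⟩
      have ew := eP hP ⟨a, by simp, ax⟩
      exact K.four1 hx h1 h2 (three_eq824 h3 ax ex bx ae ab (Ne.symm be)) aw ew bV h3'
    · have ex := eA hA ⟨b, by simp, hb⟩
      have ew := eb hb bx
      exact K.four1 hx h1 h2 (three_eq824 h3 bx ex ax be (Ne.symm ab) (Ne.symm ae)) hb ew aV h3'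
  · have k5 := sub_of_closure h hQ
    have dw : d ∈ T w := k5 (by simp)
    have fw : f ∈ T w := k5 (by simp)
    rcases hS2 with hC | hf | hP | hb
    · have k6 := sub_of_closure h hC
      have cx : c ∈ T x := k6 (by simp)
      have dx : d ∈ T x := k6 (by simp)
      have ew := eQ hQ ⟨d, by simp, dx⟩
      have ex := eC hC ⟨d, by simp, dw⟩
      exact K.four1 hx h1 h2 (three_eq824 h3 dx ex cx de (Ne.symm cd) (Ne.symm ce)) dw ew cV h3'
    · have ew := eQ hQ ⟨f, by simp, hf⟩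
      have ex := ef' hf fw
      have := four_of_two824 h hVy hwy k1 k2
        (three_eq824 h3' fw ew dw (Ne.symm ef) (Ne.symm df) (Ne.symm de)).le
        (by rw [hback]; exact hf) (by rw [hback]; exact ex) dy
      rw [hback] at this
      omega
    · exact nPQ hP hQ
    · exact nQb hQ hb

/-- **the two classes cover** -/
theorem cov (hx : dist x V = 1) (h1 : x ≠ y) (h2 : x + y ≠ 2 * V) :
    (x ∈ closure (Ex T V {a, b}) ∨ x + y - V ∈ closure (Ex T y {d, f})) ∨
    (x ∈ closure (Ex T V {c, d}) ∨ f ∈ T x ∨ x + y - V ∈ closure (Ex T y {a, c}) ∨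
      b ∈ T (x + y - V)) := by
  by_contra hcon
  push Not at hcon
  obtain ⟨⟨hA, hQ⟩, hC, hf, hP, hb⟩ := hcon
  have C1 := K.C1
  have C2 := K.C2
  have hwy : dist (x + y - V) y = 1 := by
    rw [dist_eq_norm, show x + y - V - y = x - V by ring, ← dist_eq_norm]
    exact hx
  have hew : e ∈ T (x + y - V) := by
    obtain ⟨m, hm⟩ := C2.cover hwy
    fin_cases m
    · exact absurd hm.2 hb
    · exact hm.2
    · exact absurd hm hP
    · exact absurd hm hQ
  obtain ⟨m, hm, hm'⟩ := other824 C1 (l := 0) hx K.one h1 h2 (i := e) rfl hew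
  fin_cases m
  · exact absurd rfl hm
  · exact absurd hm'.2 hf
  · exact absurd hm' hA
  · exact absurd hm' hC

omit K in
/-- generic directions: near any direction, off it, both points have at most three colours -/
theorem gen {P : ℝ → ℂ} (C : Circ V P) {y1 y2 : ℂ}
    (o1 : ∀ x, dist x V = 1 → 4 ≤ (T x).ncard → x = y ∨ x = y2)
    (o2 : ∀ x, dist x y = 1 → 4 ≤ (T x).ncard → x = V ∨ x = y1) (u0 : ℝ) :
    ∀ᶠ u in 𝓝[≠] u0, P u ≠ y ∧ P u + y ≠ 2 * V ∧ (T (P u)).ncard ≤ 3 ∧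
      (T (P u + y - V)).ncard ≤ 3 := by
  filter_upwards [circ_ne824 C u0 y, circ_ne824 C u0 y2, circ_ne824 C u0 (2 * V - y),
    circ_ne824 C u0 (y1 - y + V)] with u h1 h2 h3 h4
  refine ⟨h1, fun h5 => h3 (by linear_combination h5), ?_, ?_⟩
  · by_contra hcon
    rcases o1 _ (C.dst u) (by omega) with h5 | h5
    · exact h1 h5
    · exact h2 h5
  · by_contra hcon
    have hd : dist (P u + y - V) y = 1 := by
      rw [dist_eq_norm, show P u + y - V - y = P u - V by ring, ← dist_eq_norm]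
      exact C.dst u
    rcases o2 _ hd (by omega) with h5 | h5
    · exact h3 (by linear_combination h5)
    · exact h4 (by linear_combination h5)

/-- the first class -/
def S1 (T : ℂ → Set (Fin 6)) (V y : ℂ) (a b d f : Fin 6) (P : ℝ → ℂ) : Set ℝ :=
  {u | P u ∈ closure (Ex T V {a, b}) ∨ P u + y - V ∈ closure (Ex T y {d, f})}

omit K in
theorem S1_closed {P : ℝ → ℂ} (C : Circ V P) : IsClosed (S1 T V y a b d f P) := by
  have h1 : Continuous fun u => P u + y - V := by
    have := C.cont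
    fun_prop
  exact (isClosed_closure.preimage C.cont).union (isClosed_closure.preimage h1)

/-- the second class -/
def S2 (T : ℂ → Set (Fin 6)) (V y : ℂ) (a b c d f : Fin 6) (P : ℝ → ℂ) : Set ℝ :=
  {u | P u ∈ closure (Ex T V {c, d}) ∨ f ∈ T (P u) ∨ P u + y - V ∈ closure (Ex T y {a, c}) ∨
    b ∈ T (P u + y - V)}

theorem S2_closed {P : ℝ → ℂ} (C : Circ V P) : IsClosed (S2 T V y a b c d f P) := by
  have h1 : Continuous fun u => P u + y - V := by
    have := C.cont
    fun_prop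
  exact (isClosed_closure.preimage C.cont).union (((K.irr.closed f).preimage C.cont).union
    ((isClosed_closure.preimage h1).union ((K.irr.closed b).preimage h1)))

/-- near the direction of `y` only the second class -/
theorem near_y {P : ℝ → ℂ} (C : Circ V P) {y1 y2 : ℂ}
    (o1 : ∀ x, dist x V = 1 → 4 ≤ (T x).ncard → x = y ∨ x = y2)
    (o2 : ∀ x, dist x y = 1 → 4 ≤ (T x).ncard → x = V ∨ x = y1) {u0 : ℝ} (h0 : P u0 = y) :
    ∀ᶠ u in 𝓝[≠] u0, u ∉ S1 T V y a b d f P := by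
  have hn := K.nd
  simp only [List.nodup_cons, List.mem_cons, List.not_mem_nil, or_false, not_or, List.nodup_nil,
    and_true, not_false_eq_true] at hn
  obtain ⟨⟨ab, ac, ad, ae, af⟩, ⟨bc, bd, be, bf⟩, ⟨cd, ce, cf⟩, ⟨de, df⟩, ef⟩ := hn
  have h1 : ∀ᶠ u in 𝓝 u0, T (P u) ⊆ T y := by
    have := (C.cont.tendsto u0).eventually (K.irr.nhd (P u0))
    rw [h0] at this
    exact this
  filter_upwards [gen C o1 o2 u0, mem_nhdsWithin_of_mem_nhds h1] with u hu hT hS
  obtain ⟨g1, g2, g3, g4⟩ := hu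
  refine K.disj (C.dst u) g1 g2 g3 g4 hS ?_
  obtain ⟨m, hm⟩ := K.C1.cover (C.dst u)
  have hyT : ∀ i ∈ T (P u), i = a ∨ i = c ∨ i = d ∨ i = f := by
    intro i hi
    have := hT hi
    rw [K.hy.pal] at this
    simpa using this
  fin_cases m
  · rcases hyT e hm.2 with h2 | h2 | h2 | h2
    · exact absurd h2.symm ae
    · exact absurd h2.symm ce
    · exact absurd h2.symm de
    · exact absurd h2 ef
  · exact Or.inr (Or.inl hm.2)
  · have h3 := sub_of_closure K.irr hm
    rcases hyT b (h3 (by simp)) with h2 | h2 | h2 | h2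
    · exact absurd h2.symm ab
    · exact absurd h2 bc
    · exact absurd h2 bd
    · exact absurd h2 bf
  · exact Or.inl hm

/-- near the direction of `V` from `y` only the second class -/
theorem near_V {P : ℝ → ℂ} (C : Circ V P) {y1 y2 : ℂ}
    (o1 : ∀ x, dist x V = 1 → 4 ≤ (T x).ncard → x = y ∨ x = y2)
    (o2 : ∀ x, dist x y = 1 → 4 ≤ (T x).ncard → x = V ∨ x = y1) {u0 : ℝ}
    (h0 : P u0 + y - V = V) : ∀ᶠ u in 𝓝[≠] u0, u ∉ S1 T V y a b d f P := by
  have hn := K.nd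
  simp only [List.nodup_cons, List.mem_cons, List.not_mem_nil, or_false, not_or, List.nodup_nil,
    and_true, not_false_eq_true] at hn
  obtain ⟨⟨ab, ac, ad, ae, af⟩, ⟨bc, bd, be, bf⟩, ⟨cd, ce, cf⟩, ⟨de, df⟩, ef⟩ := hn
  have hc : Continuous fun u => P u + y - V := by
    have := C.cont
    fun_prop
  have h1 : ∀ᶠ u in 𝓝 u0, T (P u + y - V) ⊆ T V := by
    have := (hc.tendsto u0).eventually (K.irr.nhd (P u0 + y - V))
    rw [h0] at this
    exact this
  filter_upwards [gen C o1 o2 u0, mem_nhdsWithin_of_mem_nhds h1] with u hu hT hS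
  obtain ⟨g1, g2, g3, g4⟩ := hu
  refine K.disj (C.dst u) g1 g2 g3 g4 hS ?_
  have hd : dist (P u + y - V) y = 1 := by
    rw [dist_eq_norm, show P u + y - V - y = P u - V by ring, ← dist_eq_norm]
    exact C.dst u
  obtain ⟨m, hm⟩ := K.C2.cover hd
  have hyT : ∀ i ∈ T (P u + y - V), i = a ∨ i = b ∨ i = c ∨ i = d := by
    intro i hi
    have := hT hi
    rw [K.hV.pal] at this
    simpa using this
  fin_cases m
  · exact Or.inr (Or.inr (Or.inr hm.2))
  · rcases hyT e hm.2 with h2 | h2 | h2 | h2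
    · exact absurd h2.symm ae
    · exact absurd h2.symm be
    · exact absurd h2.symm ce
    · exact absurd h2.symm de
  · exact Or.inr (Or.inr (Or.inl hm))
  · have h3 := sub_of_closure K.irr hm
    rcases hyT f (h3 (by simp)) with h2 | h2 | h2 | h2
    · exact absurd h2.symm af
    · exact absurd h2.symm bf
    · exact absurd h2.symm cf
    · exact absurd h2.symm df

/-- **the letters `e, f, cd` on an arc longer than three** -/
theorem path {P : ℝ → ℂ} (C : Circ V P) {q r : ℝ} (hqr : q + 3 < r)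
    (h3 : ∀ t ∈ Ioo q r, (T (P t)).ncard ≤ 3)
    (hA : ∀ t ∈ Ioo q r, P t ∉ closure (Ex T V {a, b})) : False := by
  have C1 := K.C1
  have hcl1 : Continuous fun t : ℝ => P (t + 1) := C.cont.comp (by fun_prop)
  set Up : Set ℝ := {t | f ∈ T (P t) ∨ P (t + 1) ∈ closure (Ex T V {c, d})} with hUp
  set Dn : Set ℝ := {t | P t ∈ closure (Ex T V {c, d}) ∨ f ∈ T (P (t + 1))} with hDn
  have cUp : IsClosed Up :=
    ((K.irr.closed f).preimage C.cont).union (isClosed_closure.preimage hcl1)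
  have cDn : IsClosed Dn :=
    (isClosed_closure.preimage C.cont).union ((K.irr.closed f).preimage hcl1)
  have hin : ∀ t ∈ Ioo q (r - 1), t ∈ Ioo q r ∧ t + 1 ∈ Ioo q r := fun t ht =>
    ⟨⟨ht.1, by linarith [ht.2]⟩, ⟨by linarith [ht.1], by linarith [ht.2]⟩⟩
  have hcov : ∀ t ∈ Ioo q (r - 1), t ∈ Up ∨ t ∈ Dn := by
    intro t ht
    obtain ⟨i1, i2⟩ := hin t ht
    by_contra hcon
    simp only [hUp, hDn, mem_ofPred_eq, not_or] at hcon
    obtain ⟨⟨k1, k2⟩, k3, k4⟩ := hcon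
    have only0 : ∀ s ∈ Ioo q r, f ∉ T (P s) → P s ∉ closure (Ex T V {c, d}) →
        ∀ m, P s ∈ Lt T V a b c d e f m → m = 0 := by
      intro s hs j1 j2 m hm
      fin_cases m
      · rfl
      · exact absurd hm.2 j1
      · exact absurd hm (hA s hs)
      · exact absurd hm j2
    obtain ⟨m, hm⟩ := C1.cover (C.dst (t + 1))
    have hm0 := only0 (t + 1) i2 k4 k2 m hm
    subst hm0
    exact C1.int (C.dst t) (only0 t i1 k1 k3) (C.dst (t + 1)) (C.one t) hm
  have other : ∀ s ∈ Ioo q r, ∀ s' , (s' = s + 1 ∨ s = s' + 1) → ∀ l : Fin 4, (l = 1 ∨ l = 3) →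
      P s ∈ Lt T V a b c d e f l → P s' ∈ Lt T V a b c d e f l →
      P s ∈ Lt T V a b c d e f 0 := by
    intro s hs s' hss l hl h1 h2
    have hd : dist (P s) (P s') = 1 := by
      rcases hss with rfl | rfl
      · exact C.one s
      · rw [dist_comm]; exact C.one s'
    by_contra hcon
    refine C1.int (C.dst s) (l := l) (fun m hm => ?_) (C.dst s') hd h2
    have n1 : m ≠ 0 := fun h4 => hcon (h4 ▸ hm)
    have n2 : m ≠ 2 := fun h4 => by subst h4; exact hA s hs hm
    have n3 : ¬ (P s ∈ Lt T V a b c d e f 1 ∧ P s ∈ Lt T V a b c d e f 3) := fun h5 =>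
      K.mC _ h5.2 (h3 s hs) h5.1.2
    rcases hl with rfl | rfl
    · by_contra h6
      have : m = 3 := by
        revert n1 n2 h6; fin_cases m <;> decide
      subst this
      exact n3 ⟨h1, hm⟩
    · by_contra h6
      have : m = 1 := by
        revert n1 n2 h6; fin_cases m <;> decide
      subst this
      exact n3 ⟨hm, h1⟩
  have hdis : ∀ t ∈ Ioo q (r - 1), t ∈ Up → t ∈ Dn → False := by
    intro t ht hu hd
    obtain ⟨i1, i2⟩ := hin t ht
    rcases hu with k1 | k1 <;> rcases hd with k2 | k2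
    · exact K.mC _ k2 (h3 t i1) k1
    · have f1 : P t ∈ Lt T V a b c d e f 1 := ⟨C.dst t, k1⟩
      have f2 : P (t + 1) ∈ Lt T V a b c d e f 1 := ⟨C.dst (t + 1), k2⟩
      exact C1.noswap (l := 0) (m := 1) (by decide) (C.one t) (h3 t i1) (h3 _ i2)
        (other t i1 (t + 1) (Or.inl rfl) 1 (Or.inl rfl) f1 f2) f1
        (other (t + 1) i2 t (Or.inr rfl) 1 (Or.inl rfl) f2 f1) f2
    · have f1 : P t ∈ Lt T V a b c d e f 3 := k2
      have f2 : P (t + 1) ∈ Lt T V a b c d e f 3 := k1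
      exact C1.noswap (l := 0) (m := 3) (by decide) (C.one t) (h3 t i1) (h3 _ i2)
        (other t i1 (t + 1) (Or.inl rfl) 3 (Or.inr rfl) f1 f2) f1
        (other (t + 1) i2 t (Or.inr rfl) 3 (Or.inr rfl) f2 f1) f2
    · exact K.mC _ k1 (h3 _ i2) k2
  have hpre : IsPreconnected (Ioo q (r - 1)) := isPreconnected_Ioo
  have hall : (∀ t ∈ Ioo q (r - 1), t ∈ Up) ∨ ∀ t ∈ Ioo q (r - 1), t ∈ Dn := by
    by_contra hcon
    push Not at hcon
    obtain ⟨⟨t1, ht1, n1⟩, t2, ht2, n2⟩ := hcon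
    have m1 : t1 ∈ Dn := (hcov t1 ht1).resolve_left n1
    have m2 : t2 ∈ Up := (hcov t2 ht2).resolve_right n2
    obtain ⟨t, ht, hh⟩ := isPreconnected_closed_iff.1 hpre Up Dn cUp cDn (fun t ht => hcov t ht)
      ⟨t2, ht2, m2⟩ ⟨t1, ht1, m1⟩
    exact hdis t ht hh.1 hh.2
  obtain ⟨t, ht⟩ : ∃ t, t = (q + (r - 3)) / 2 := ⟨_, rfl⟩
  have j0 : t ∈ Ioo q (r - 1) := ⟨by linarith, by linarith⟩
  have j1 : t + 1 ∈ Ioo q (r - 1) := ⟨by linarith, by linarith⟩
  have j2 : t + 1 + 1 ∈ Ioo q (r - 1) := ⟨by linarith, by linarith⟩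
  rcases hall with hU | hD
  · rcases hU (t + 1) j1 with k1 | k1
    · exact hdis t j0 (hU t j0) (Or.inr k1)
    · exact hdis (t + 1 + 1) j2 (hU _ j2) (Or.inl k1)
  · rcases hD (t + 1) j1 with k1 | k1
    · exact hdis t j0 (Or.inr k1) (hD t j0)
    · exact hdis (t + 1 + 1) j2 (Or.inl k1) (hD _ j2)

omit K in
/-- the first and the last point of a closed set in an interval -/
theorem ends824 {S : Set ℝ} (hS : IsClosed S) {l r u1 : ℝ} (hl : ∀ᶠ u in 𝓝[≠] l, u ∉ S)
    (hr : ∀ᶠ u in 𝓝[≠] r, u ∉ S) (h1 : u1 ∈ Ioo l r) (hu : u1 ∈ S) :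
    ∃ p q, p ∈ S ∧ q ∈ S ∧ l < p ∧ p ≤ u1 ∧ u1 ≤ q ∧ q < r ∧ (∀ u ∈ Ioo l p, u ∉ S) ∧
      ∀ u ∈ Ioo q r, u ∉ S := by
  rw [eventually_nhdsWithin_iff, Metric.eventually_nhds_iff] at hl hr
  obtain ⟨ε, hε, hl⟩ := hl
  obtain ⟨δ, hδ, hr⟩ := hr
  set A : Set ℝ := S ∩ Ioo l r with hA
  have hne : A.Nonempty := ⟨u1, hu, h1⟩
  have hlo : ∀ u ∈ A, l + ε ≤ u := by
    intro u hu
    by_contra hcon
    refine hl (y := u) ?_ (ne_of_gt hu.2.1) hu.1
    rw [Real.dist_eq, abs_lt]
    constructor <;> linarith [hu.2.1]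
  have hhi : ∀ u ∈ A, u ≤ r - δ := by
    intro u hu
    by_contra hcon
    refine hr (y := u) ?_ (ne_of_lt hu.2.2) hu.1
    rw [Real.dist_eq, abs_lt]
    constructor <;> linarith [hu.2.2]
  have hb : BddBelow A := ⟨_, hlo⟩
  have ha : BddAbove A := ⟨_, hhi⟩
  have hcl : closure A ⊆ S := closure_minimal inter_subset_left hS
  have k1 := csInf_mem_closure hne hb
  have k2 := csSup_mem_closure hne ha
  have p1 : l + ε ≤ sInf A := le_csInf hne hlo
  have p2 : sSup A ≤ r - δ := csSup_le hne hhi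
  have p3 : sInf A ≤ u1 := csInf_le hb ⟨hu, h1⟩
  have p4 : u1 ≤ sSup A := le_csSup ha ⟨hu, h1⟩
  refine ⟨sInf A, sSup A, hcl k1, hcl k2, by linarith, p3, p4, by linarith, ?_, ?_⟩
  · intro u hu' hu2
    have := csInf_le hb (show u ∈ A from ⟨hu2, hu'.1, by linarith [hu'.2, h1.2]⟩)
    linarith [hu'.2]
  · intro u hu' hu2
    have := le_csSup ha (show u ∈ A from ⟨hu2, by linarith [hu'.1, h1.1], hu'.2⟩)
    linarith [hu'.1]

theorem main' {P : ℝ → ℂ} (C : Circ V P) {y1 y2 : ℂ}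
    (o1 : ∀ x, dist x V = 1 → 4 ≤ (T x).ncard → x = y ∨ x = y2)
    (o2 : ∀ x, dist x y = 1 → 4 ≤ (T x).ncard → x = V ∨ x = y1) (h0 : P 0 = y) {u1 : ℝ}
    (hu1 : u1 ∈ Ioo (0 : ℝ) 3) (hE : P u1 ∈ Ex T V {a, b}) : False := by
  have h3 : P 3 = 2 * V - y := by
    have := circ_three824 C 0
    rw [zero_add, h0] at this
    exact this
  have h6 : P 6 = y := by
    have := C.six 0
    rw [zero_add, h0] at this
    exact this
  have hV3 : P 3 + y - V = V := by rw [h3]; ring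
  have n0 := K.near_y C o1 o2 h0
  have n6 := K.near_y C o1 o2 h6
  have n3 := K.near_V C o1 o2 hV3
  set S : Set ℝ := S1 T V y a b d f P with hS
  have cS : IsClosed S := S1_closed C
  have cS2 := K.S2_closed C
  have hu1S : u1 ∈ S := Or.inl (subset_closure hE)
  have hne : ∀ u ∈ Ioo (0 : ℝ) 6, P u ≠ y := by
    intro u hu h4
    exact C.inj 0 u hu.1 (by linarith [hu.2]) (by rw [h0, h4])
  have hne3 : ∀ u ∈ Ioo (0 : ℝ) 6, u ≠ 3 → P u + y ≠ 2 * V := by
    intro u hu hu3 h4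
    have h5 : P u = P 3 := by rw [h3]; linear_combination h4
    rcases lt_or_gt_of_ne hu3 with h7 | h7
    · exact C.inj u 3 h7 (by linarith [hu.1]) h5
    · exact C.inj 3 u h7 (by linarith [hu.2]) h5.symm
  have hcov : ∀ u ∈ Ioo (0 : ℝ) 6, u ≠ 3 → u ∉ S → u ∈ S2 T V y a b c d f P := fun u hu hu3 hn =>
    (K.cov (C.dst u) (hne u hu) (hne3 u hu hu3)).resolve_left hn
  have hexc : ∀ u ∈ Ioo (0 : ℝ) 6, u ≠ 3 → u ∈ S → u ∈ S2 T V y a b c d f P →
      P u = y2 ∨ P u + y - V = y1 := by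
    intro u hu hu3 k1 k2
    by_contra hcon
    push Not at hcon
    refine K.disj (C.dst u) (hne u hu) (hne3 u hu hu3) ?_ ?_ k1 k2
    · by_contra h4
      rcases o1 _ (C.dst u) (by omega) with h5 | h5
      · exact hne u hu h5
      · exact hcon.1 h5
    · by_contra h4
      have hd : dist (P u + y - V) y = 1 := by
        rw [dist_eq_norm, show P u + y - V - y = P u - V by ring, ← dist_eq_norm]
        exact C.dst u
      rcases o2 _ hd (by omega) with h5 | h5
      · exact hne3 u hu hu3 (by linear_combination h5)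
      · exact hcon.2 h5
  obtain ⟨p, q, hp, hq, lp, pu, uq, qr, hpl, hqr⟩ := ends824 cS n0 n3 hu1 hu1S
  -- `p < q`
  have hop : ∀ᶠ u in 𝓝 u1, P u ∈ Ex T V {a, b} := by
    have h4 : Tendsto P (𝓝 u1) (𝓝[sphere V 1] (P u1)) :=
      tendsto_nhdsWithin_iff.2 ⟨C.cont.tendsto u1, Eventually.of_forall fun u => C.dst u⟩
    exact h4.eventually (ex_open hE)
  have hpq : p < q := by
    rcases lt_or_eq_of_le pu with h4 | h4
    · linarith
    · exfalso
      have h5 : ∀ᶠ u in 𝓝[<] u1, P u ∈ Ex T V {a, b} := mem_nhdsWithin_of_mem_nhds hop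
      have h7 : ∀ᶠ u in 𝓝[<] u1, u ∈ Ioo 0 u1 := Ioo_mem_nhdsLT hu1.1
      obtain ⟨u, k1, k2⟩ := (h5.and h7).exists
      exact hpl u (by rw [h4]; exact k2) (Or.inl (subset_closure k1))
  have p06 : p ∈ Ioo (0 : ℝ) 6 := ⟨lp, by linarith [hu1.2]⟩
  have q06 : q ∈ Ioo (0 : ℝ) 6 := ⟨by linarith [hu1.1], by linarith⟩
  have p3 : p ≠ 3 := by have := hu1.2; intro h4; linarith
  have q3 : q ≠ 3 := ne_of_lt qr
  have hp2 : p ∈ S2 T V y a b c d f P := by
    refine closure_minimal (fun u hu => ?_) cS2 (show p ∈ closure (Ioo 0 p) by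
      rw [closure_Ioo (ne_of_lt lp)]; exact ⟨lp.le, le_rfl⟩)
    exact hcov u ⟨hu.1, by linarith [hu.2, hu1.2]⟩ (by intro h4; linarith [hu.2, hu1.2])
      (hpl u hu)
  have hq2 : q ∈ S2 T V y a b c d f P := by
    refine closure_minimal (fun u hu => ?_) cS2 (show q ∈ closure (Ioo q 3) by
      rw [closure_Ioo (ne_of_lt qr)]; exact ⟨le_rfl, qr.le⟩)
    exact hcov u ⟨by linarith [hu.1, hu1.1], by linarith [hu.2]⟩ (ne_of_lt hu.2) (hqr u hu)
  have ep := hexc p p06 p3 hp hp2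
  have eq := hexc q q06 q3 hq hq2
  have inj : ∀ u v, u ∈ Ioo (0 : ℝ) 6 → v ∈ Ioo (0 : ℝ) 6 → P u = P v → u = v := by
    intro u v hu hv h4
    rcases lt_trichotomy u v with h5 | h5 | h5
    · exact absurd h4 (C.inj u v h5 (by linarith [hu.1, hv.2]))
    · exact h5
    · exact absurd h4.symm (C.inj v u h5 (by linarith [hv.1, hu.2]))
  obtain ⟨α, β, hα, hβ, eα, eβ⟩ : ∃ α β, (α = p ∨ α = q) ∧ (β = p ∨ β = q) ∧ P α = y2 ∧
      P β + y - V = y1 := by
    rcases ep with e1 | e1 <;> rcases eq with e2 | e2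
    · exact absurd (inj p q p06 q06 (e1.trans e2.symm)) (ne_of_lt hpq)
    · exact ⟨p, q, Or.inl rfl, Or.inr rfl, e1, e2⟩
    · exact ⟨q, p, Or.inr rfl, Or.inl rfl, e2, e1⟩
    · exact absurd (inj p q p06 q06 (by linear_combination e1 - e2)) (ne_of_lt hpq)
  have α06 : α ∈ Ioo (0 : ℝ) 6 := by rcases hα with rfl | rfl; exacts [p06, q06]
  have β06 : β ∈ Ioo (0 : ℝ) 6 := by rcases hβ with rfl | rfl; exacts [p06, q06]
  have αq : α ≤ q := by rcases hα with rfl | rfl; exacts [hpq.le, le_rfl]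
  have βq : β ≤ q := by rcases hβ with rfl | rfl; exacts [hpq.le, le_rfl]
  have hfree : ∀ u ∈ Ioo q 6, P u ≠ y2 ∧ P u + y - V ≠ y1 := by
    intro u hu
    have hu6 : u ∈ Ioo (0 : ℝ) 6 := ⟨by linarith [hu.1, q06.1], hu.2⟩
    refine ⟨fun h4 => ?_, fun h4 => ?_⟩
    · have := inj u α hu6 α06 (by rw [h4, eα])
      linarith [hu.1]
    · have := inj u β hu6 β06 (by linear_combination h4 - eβ)
      linarith [hu.1]
  -- no first class on `(q, 6)`
  have hno : ∀ u ∈ Ioo q 6, u ≠ 3 → u ∉ S := by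
    intro u hu hu3 huS
    rcases lt_or_gt_of_ne hu3 with h4 | h4
    · exact hqr u ⟨hu.1, h4⟩ huS
    · obtain ⟨p', q', hp', -, lp', pu', -, -, hpl', -⟩ := ends824 cS n3 n6 ⟨h4, hu.2⟩ huS
      have p'06 : p' ∈ Ioo (0 : ℝ) 6 := ⟨by linarith, by linarith [hu.2]⟩
      have hp2' : p' ∈ S2 T V y a b c d f P := by
        refine closure_minimal (fun v hv => ?_) cS2 (show p' ∈ closure (Ioo 3 p') by
          rw [closure_Ioo (ne_of_lt lp')]; exact ⟨lp'.le, le_rfl⟩)
        exact hcov v ⟨by linarith [hv.1], by linarith [hv.2, hu.2]⟩ (ne_of_gt hv.1) (hpl' v hv)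
      have hf := hfree p' ⟨by linarith, by linarith [hu.2]⟩
      rcases hexc p' p'06 (ne_of_gt lp') hp' hp2' with h5 | h5
      · exact hf.1 h5
      · exact hf.2 h5
  have hno3 : P 3 ∉ closure (Ex T V {a, b}) := by
    intro hcl
    have n3' : ∀ᶠ u in 𝓝 (3 : ℝ), P u ≠ P 3 → P u ∉ closure (Ex T V {a, b}) := by
      rw [eventually_nhdsWithin_iff] at n3
      filter_upwards [n3] with u hu hne hcl'
      exact hu (fun h4 => hne (by rw [show u = 3 from h4])) (Or.inl hcl')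
    have hc := circ_ev824 C (p := fun x => x ≠ P 3 → x ∉ closure (Ex T V {a, b})) n3'
    have hf : ∃ᶠ x in 𝓝[sphere V 1] (P 3), x ∈ Ex T V {a, b} := by
      rw [frequently_nhdsWithin_iff]
      exact (mem_closure_iff_frequently.1 hcl).mono fun x hx => ⟨hx, hx.1⟩
    obtain ⟨x, hx, hx'⟩ := (hf.and_eventually hc).exists
    have hx3 : x = P 3 := by
      by_contra hne
      exact hx' hne (subset_closure hx)
    rw [hx3] at hx
    have h4 : Tendsto P (𝓝 3) (𝓝[sphere V 1] (P 3)) :=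
      tendsto_nhdsWithin_iff.2 ⟨C.cont.tendsto 3, Eventually.of_forall fun u => C.dst u⟩
    have h5 : ∀ᶠ u in 𝓝[≠] (3 : ℝ), P u ∈ Ex T V {a, b} :=
      mem_nhdsWithin_of_mem_nhds (h4.eventually (ex_open hx))
    obtain ⟨u, k1, k2⟩ := (h5.and n3).exists
    exact k2 (Or.inl (subset_closure k1))
  refine K.path C (q := q) (r := 6) (by linarith) (fun t ht => ?_) fun t ht => ?_
  · by_contra hcon
    rcases o1 _ (C.dst t) (by omega) with h5 | h5
    · exact hne t ⟨by linarith [ht.1, q06.1], ht.2⟩ h5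
    · exact (hfree t ht).1 h5
  · by_cases ht3 : t = 3
    · rw [ht3]; exact hno3
    · exact fun h4 => hno t ht ht3 (Or.inl h4)

/-- **A corner `K` between two vertices with the same plain letter is impossible** if each of the two
circles has at most two points with four colours. -/
theorem main {y1 y2 : ℂ} (o1 : ∀ x, dist x V = 1 → 4 ≤ (T x).ncard → x = y ∨ x = y2)
    (o2 : ∀ x, dist x y = 1 → 4 ≤ (T x).ncard → x = V ∨ x = y1) : False := by
  obtain ⟨p0, hp0⟩ := K.hV.arc1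
  have hp0E : p0 ∈ Ex T V {a, b} := ⟨hp0.1, hp0.2⟩
  obtain ⟨p, hpE, hpn⟩ : ∃ p ∈ Ex T V {a, b}, p ≠ 2 * V - y := by
    by_contra hcon
    push Not at hcon
    have h1 := ex_not_iso hp0E
    rw [mem_closure_iff_frequently] at h1
    obtain ⟨x, hx⟩ := h1.exists
    exact hx.2 ((hcon x hx.1).trans (hcon p0 hp0E).symm)
  have hpy : p ≠ y := by
    intro h1
    have h2 := ex_self hpE
    rw [h1] at h2
    have hc : c ∈ T y := by rw [K.hy.pal]; simp
    rw [h2] at hc
    rcases hc with hc | hc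
    · exact K.hV.ac hc.symm
    · rw [mem_singleton_iff] at hc
      exact K.hV.bc hc.symm
  obtain ⟨φ, -, hφ⟩ := exists_pt K.one 0
  obtain ⟨s, hs, hps⟩ := exists_pt hpE.1 φ
  have e3 : pt V (φ + 3) = 2 * V - y := by rw [pt_three, ← hφ]
  have e3' : pt V (φ - 3) = 2 * V - y := by
    rw [← e3, show φ + 3 = φ - 3 + 6 by ring, pt_six]
  have s1 : s ≠ φ := fun h1 => hpy (by rw [hps, h1, ← hφ])
  have s2 : s ≠ φ + 3 := fun h1 => hpn (by rw [hps, h1, e3])
  have s3 : s ≠ φ - 3 := fun h1 => hpn (by rw [hps, h1, e3'])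
  rcases lt_or_gt_of_ne s1 with h1 | h1
  · refine K.main' (circ_pt V φ (o := -1) (Or.inr rfl)) o1 o2 (by simp [← hφ]) (u1 := φ - s)
      ⟨by linarith, ?_⟩ ?_
    · rcases lt_or_eq_of_le hs.1 with h2 | h2
      · linarith
      · exact absurd h2.symm s3
    · have : φ + -1 * (φ - s) = s := by ring
      simp only [this, ← hps]
      exact hpE
  · refine K.main' (circ_pt V φ (o := 1) (Or.inl rfl)) o1 o2 (by simp [← hφ]) (u1 := s - φ)
      ⟨by linarith, ?_⟩ ?_
    · rcases lt_or_eq_of_le hs.2 with h2 | h2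
      · linarith
      · exact absurd h2 s2
    · have : φ + 1 * (s - φ) = s := by ring
      simp only [this, ← hps]
      exact hpE

end KC824

/-- **row (K4)**: `V` with the pairs `ab | cd`, `y` with the pairs `ac | df` at distance one, ends with at
most three colours only with the letter `e`, at most two points with four colours on each circle -/
theorem k4_824 (h : Irr U T) (nd : [a, b, c, d, e, f].Nodup) (hV : DPt T V a b c d)
    (hy : DPt T y a c d f) (hyV : dist y V = 1)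
    (mA : ∀ x ∈ closure (Ex T V {a, b}), (T x).ncard ≤ 3 → f ∉ T x)
    (mC : ∀ x ∈ closure (Ex T V {c, d}), (T x).ncard ≤ 3 → f ∉ T x)
    (mP : ∀ x ∈ closure (Ex T y {a, c}), (T x).ncard ≤ 3 → b ∉ T x)
    (mQ : ∀ x ∈ closure (Ex T y {d, f}), (T x).ncard ≤ 3 → b ∉ T x) {y1 y2 : ℂ}
    (o1 : ∀ x, dist x V = 1 → 4 ≤ (T x).ncard → x = y ∨ x = y2)
    (o2 : ∀ x, dist x y = 1 → 4 ≤ (T x).ncard → x = V ∨ x = y1) : False :=
  (⟨h, nd, hV, hy, hyV, mA, mC, mP, mQ⟩ : KC824 U T V y a b c d e f).main o1 o2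

/-- the same with the names `y = (ac | bf)` -/
theorem km_824 (h : Irr U T) (nd : [a, b, c, d, e, f].Nodup) (hV : DPt T V a b c d)
    (hy : DPt T y a c b f) (hyV : dist y V = 1)
    (mA : ∀ x ∈ closure (Ex T V {a, b}), (T x).ncard ≤ 3 → f ∉ T x)
    (mC : ∀ x ∈ closure (Ex T V {c, d}), (T x).ncard ≤ 3 → f ∉ T x)
    (mP : ∀ x ∈ closure (Ex T y {a, c}), (T x).ncard ≤ 3 → d ∉ T x)
    (mQ : ∀ x ∈ closure (Ex T y {b, f}), (T x).ncard ≤ 3 → d ∉ T x) {y1 y2 : ℂ}
    (o1 : ∀ x, dist x V = 1 → 4 ≤ (T x).ncard → x = y ∨ x = y2)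
    (o2 : ∀ x, dist x y = 1 → 4 ≤ (T x).ncard → x = V ∨ x = y1) : False := by
  have nd' : [c, d, a, b, e, f].Nodup := by
    simp only [List.nodup_cons, List.mem_cons, List.not_mem_nil, or_false, not_or, List.nodup_nil,
      and_true, not_false_eq_true] at nd ⊢
    obtain ⟨⟨ab, ac, ad, ae, af⟩, ⟨bc, bd, be, bf⟩, ⟨cd, ce, cf⟩, ⟨de, df⟩, ef⟩ := nd
    exact ⟨⟨cd, Ne.symm ac, Ne.symm bc, ce, cf⟩, ⟨Ne.symm ad, Ne.symm bd, de, df⟩,
      ⟨ab, ae, af⟩, ⟨be, bf⟩, ef⟩
  exact k4_824 h nd' hV.swap hy.swap12 hyV mC mA (by rw [Set.pair_comm]; exact mP) mQ o1 o2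

end Vale.Agent.P032.Six
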