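import Vale.Agent.P032.H492.TwoJ
import Vale.Agent.P032.H780.Special

/-!
# P032: two J-points of `S(z)` are never 60 degrees apart (727 #13638 (4))

`z` a two-pair point, `y`, `y'` on `S(z)` with `T y = T y' = T z` and `|y - y'| = 1`:
contradiction, if the fourth point `y + y' - z` has at most four colours (`Irr.no_JJ824`).
No condition on the other points of the three circles.
-/

open Set Filter Topology Metric

noncomputable section

namespace Vale.Agent.P032.Six

open Vale.Agent.P032.S5.H767 Vale.Agent.P032.S5.H122 Vale.Agent.P032.Sweep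
open Vale.Agent.P032.H780

variable {U : Fin 6 → Set ℂ} {T : ℂ → Set (Fin 6)} {z v y y' : ℂ} {a b c d : Fin 6}

/-- the pairs of a J-partner cross the pairs of `z` -/
theorem Irr.dpt_cross824 (h : Irr U T) (hz : DPt T z a b c d) (hv : dist v z = 1)
    (hT : T v = T z) : DPt T v a c b d ∨ DPt T v a d b c := by
  have hzv : dist z v = 1 := by rw [dist_comm]; exact hv
  have key : ∀ x y x' y' : Fin 6, T z = {x, y, x', y'} → x ≠ x' → x ≠ y' → y ≠ x' → y ≠ y' →
      x ≠ y → x' ≠ y' → Gm T v z x y x' y' → DPt T v x y x' y' := by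
    intro x y x' y' hP h1 h2 h3 h4 h5 h6 hG
    have hx : x ∈ Pal U v := h.sub v (by rw [hT, hP]; simp)
    have hy : y ∈ Pal U v := h.sub v (by rw [hT, hP]; simp)
    have hx' : x' ∈ Pal U v := h.sub v (by rw [hT, hP]; simp)
    have hy' : y' ∈ Pal U v := h.sub v (by rw [hT, hP]; simp)
    obtain ⟨q, hq, hqT⟩ := hb_exists hzv (h.hb_exact hzv hG.1 hx hy)
    obtain ⟨q', hq', hqT'⟩ := hb_exists hzv (h.hb_exact hzv hG.2 hx' hy')
    exact ⟨by rw [hT, hP], h1, h2, h3, h4, h5, h6,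
      ⟨q, h.arc_of_eq h5 (by rw [hT, hP]; simp) (by rw [hT, hP]; simp) hq hqT⟩,
      ⟨q', h.arc_of_eq h6 (by rw [hT, hP]; simp) (by rw [hT, hP]; simp) hq' hqT'⟩⟩
  have hp := hz.pal
  rcases h.germ_branch hz hzv with hG | hG | hG | hG
  · refine Or.inl (key a c b d ?_ hz.ab hz.ad hz.bc.symm hz.cd hz.ac hz.bd hG)
    rw [hp]; ext x; simp only [mem_insert_iff, mem_singleton_iff]; tauto
  · refine Or.inr (key a d b c ?_ hz.ab hz.ac hz.bd.symm hz.cd.symm hz.ad hz.bc hG)
    rw [hp]; ext x; simp only [mem_insert_iff, mem_singleton_iff]; tauto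
  · refine Or.inr (key b c a d ?_ hz.ab.symm hz.bd hz.ac.symm hz.cd hz.bc hz.ad hG).swap
    rw [hp]; ext x; simp only [mem_insert_iff, mem_singleton_iff]; tauto
  · refine Or.inl (key b d a c ?_ hz.ab.symm hz.bc hz.ad.symm hz.cd.symm hz.bd hz.ac hG).swap
    rw [hp]; ext x; simp only [mem_insert_iff, mem_singleton_iff]; tauto

/-- a constant palette of `S(z)` which lies in the palette of the antipode of a J-point has a
colour missing at `z` -/
theorem Irr.opp_out824 (h : Irr U T) (hz : DPt T z a b c d) {w : ℝ} (hw : w ∈ Lc T z)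
    (hy : dist y z = 1) (e1 : T y = T z) (hsub : T (pt z w) ⊆ T (2 * z - y)) :
    ∃ i ∈ T (pt z w), i ∉ T z := by
  by_contra hcon
  push Not at hcon
  have hV : dist (2 * z - y) z = 1 := by
    rw [dist_eq_norm, show 2 * z - y - z = -(y - z) by ring, norm_neg, ← dist_eq_norm]; exact hy
  have e2 : 2 * z - (2 * z - y) = y := by ring
  have hT : ∀ i ∈ T z, i ∈ Pal U (2 * z - (2 * z - y)) := fun i hi => by
    rw [e2]; exact h.sub y (by rw [e1]; exact hi)
  have hin : ∀ i, i ∈ ({a, b, c, d} : Set (Fin 6)) → i ∈ T z := fun i hi => by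
    rw [hz.pal]; exact hi
  rcases h.twoPairs hz _ (dist_pt z w) (Lc_circle hw) hcon with h1 | h1
  · exact h.anti hz hV (h.sub _ (hsub (by rw [h1]; simp))) (h.sub _ (hsub (by rw [h1]; simp)))
      (hT c (hin c (by simp))) (hT d (hin d (by simp)))
  · exact h.anti hz.swap hV (h.sub _ (hsub (by rw [h1]; simp)))
      (h.sub _ (hsub (by rw [h1]; simp))) (hT a (hin a (by simp))) (hT b (hin b (by simp)))

/-- the letters of `S(z)` next to a J-point -/
theorem Irr.near_J824 (h : Irr U T) (hz : DPt T z a b c d) {s : ℝ} (hs : T (pt z s) = T z) :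
    ∀ᶠ w in 𝓝[≠] s, w ∈ Lc T z → T (pt z w) = {a, b} ∨ T (pt z w) = {c, d} := by
  have key : ∀ᶠ w in 𝓝[≠] s, T (pt z w) ⊆ {a, b} ∨ T (pt z w) ⊆ {c, d} := by
    obtain ⟨τ, hτ, h1, h2⟩ := h.j_sides hz (dist_pt z s) hs
    have b1 : Br T z (pt z s) τ {a, b} := h1.mono fun t ht => ht.subset
    have b2 : Br T z (pt z s) (-τ) {c, d} := h2.mono fun t ht => ht.subset
    rw [← nhdsLT_sup_nhdsGT, eventually_sup]
    rcases hτ with rfl | rfl
    · exact ⟨(br_left b2).mono fun w hw => Or.inr hw, (br_right b1).mono fun w hw => Or.inl hw⟩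
    · rw [neg_neg] at b2
      exact ⟨(br_left b1).mono fun w hw => Or.inl hw, (br_right b2).mono fun w hw => Or.inr hw⟩
  filter_upwards [key] with w hw hL
  refine h.twoPairs hz _ (dist_pt z w) (Lc_circle hL) ?_
  rw [hz.pal]
  rcases hw with hw | hw
  · exact hw.trans fun i hi => by
      simp only [mem_insert_iff, mem_singleton_iff] at hi ⊢; tauto
  · exact hw.trans fun i hi => by
      simp only [mem_insert_iff, mem_singleton_iff] at hi ⊢; tauto

/-- a palette disjoint from a crossing pair is not a pair of `z` -/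
theorem Irr.cross_out824 (h : Irr U T) (hz : DPt T z a b c d) {p q r s : Fin 6}
    (hpq : (p = a ∧ q = c ∧ r = b ∧ s = d) ∨ (p = a ∧ q = d ∧ r = b ∧ s = c)) {w : ℝ}
    (hw : w ∈ Lc T z) {Q : Set (Fin 6)} (hQ : Q = {p, q} ∨ Q = {r, s})
    (hdis : Disjoint (T (pt z w)) Q) : ∃ i ∈ T (pt z w), i ∉ T z := by
  by_contra hcon
  push Not at hcon
  have hd := Set.disjoint_left.1 hdis
  rcases h.twoPairs hz _ (dist_pt z w) (Lc_circle hw) hcon with h1 | h1 <;> rw [h1] at hd <;>
    rcases hQ with rfl | rfl <;> rcases hpq with ⟨rfl, rfl, rfl, rfl⟩ | ⟨rfl, rfl, rfl, rfl⟩ <;>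
    (have k1 := @hd p
     have k2 := @hd q
     have k3 := @hd r
     have k4 := @hd s
     simp only [mem_insert_iff, mem_singleton_iff, true_or, or_true, not_true, forall_const,
       not_or] at k1 k2 k3 k4
     try tauto)

/-- the chain of letters -/
theorem chain824 {M : Set (Fin 6)} {e f : Fin 6} (hM : ∀ i, i ∉ M → i = e ∨ i = f)
    {P2 P3 P4 P5 Q5 Q0 R2 R1 Q1 : Set (Fin 6)} (o2 : ∃ i ∈ P2, i ∉ M) (o3 : ∃ i ∈ P3, i ∉ M)
    (o4 : ∃ i ∈ P4, i ∉ M) (o5 : ∃ i ∈ P5, i ∉ M) (q5 : ∃ i ∈ Q5, i ∉ M) (q0 : ∃ i ∈ Q0, i ∉ M)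
    (r2 : ∃ i ∈ R2, i ∉ M) (r1 : ∃ i ∈ R1, i ∉ M) (d23 : Disjoint P2 P3) (d34 : Disjoint P3 P4)
    (d45 : Disjoint P4 P5) (dq5 : Disjoint P5 Q5) (dq0 : Disjoint Q5 Q0) (dr2 : Disjoint P2 R2)
    (dr1 : Disjoint R1 R2) (e1 : Disjoint Q0 Q1) (e2 : Disjoint Q1 R1) : Q1 ⊆ M := by
  have mem : ∀ {P : Set (Fin 6)}, (∃ i ∈ P, i ∉ M) → e ∈ P ∨ f ∈ P := by
    rintro P ⟨i, hi, hiM⟩
    rcases hM i hiM with rfl | rfl
    · exact Or.inl hi
    · exact Or.inr hi
  have step : ∀ {P Q : Set (Fin 6)}, Disjoint P Q → (∃ i ∈ Q, i ∉ M) →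
      (e ∈ P → f ∈ Q) ∧ (f ∈ P → e ∈ Q) := by
    intro P Q hd ho
    refine ⟨fun h1 => (mem ho).resolve_left fun h2 => Set.disjoint_left.1 hd h1 h2,
      fun h1 => (mem ho).resolve_right fun h2 => Set.disjoint_left.1 hd h1 h2⟩
  intro i hi
  by_contra hiM
  have hne0 : i ∉ Q0 := fun h1 => Set.disjoint_left.1 e1 h1 hi
  have hne1 : i ∉ R1 := fun h1 => Set.disjoint_left.1 e2 hi h1
  rcases mem o2 with h2 | h2
  · have h3 := (step d23 o3).1 h2
    have h4 := (step d34 o4).2 h3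
    have h5 := (step d45 o5).1 h4
    have h6 := (step dq5 q5).2 h5
    have h7 := (step dq0 q0).1 h6
    have h8 := (step dr2 r2).1 h2
    have h9 := (step dr1.symm r1).2 h8
    rcases hM i hiM with rfl | rfl
    · exact hne1 h9
    · exact hne0 h7
  · have h3 := (step d23 o3).2 h2
    have h4 := (step d34 o4).1 h3
    have h5 := (step d45 o5).2 h4
    have h6 := (step dq5 q5).1 h5
    have h7 := (step dq0 q0).2 h6
    have h8 := (step dr2 r2).2 h2
    have h9 := (step dr1.symm r1).1 h8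
    rcases hM i hiM with rfl | rfl
    · exact hne0 h7
    · exact hne1 h9

theorem pt_shift824 (z y : ℂ) (s : ℝ) : pt y s = y + (pt z s - z) := by
  unfold pt; ring

/-- the core: `y = pt z φ`, `y' = pt z (φ + 1)` -/
theorem Irr.JJ_near824 (h : Irr U T) (hz : DPt T z a b c d) {φ : ℝ} (ey : T (pt z φ) = T z)
    (ey' : T (pt z (φ + 1)) = T z) :
    ∀ᶠ u in 𝓝[≠] (0 : ℝ), u ∈ Lall T ![z, pt z φ, pt z (φ + 1)] φ →
      u ∈ Sweep.Dir ![z, pt z φ, pt z (φ + 1)] φ →
      T (pt (pt z φ) (φ + u + 1)) ⊆ T z := by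
  set y := pt z φ with hy
  set y' := pt z (φ + 1) with hy'
  have hyz : dist y z = 1 := dist_pt z φ
  have hy'z : dist y' z = 1 := dist_pt z _
  have hyy' : dist y y' = 1 := dist_pt_one z φ
  have hzy : dist z y = 1 := by rw [dist_comm]; exact hyz
  have hzy' : dist z y' = 1 := by rw [dist_comm]; exact hy'z
  have hy'y : dist y' y = 1 := by rw [dist_comm]; exact hyy'
  set zz : Fin 3 → ℂ := ![z, y, y'] with hzz
  -- positions
  have p2 : pt z (φ + 2) = z + y' - y := by
    have := pt_sum z φ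
    rw [← hy, ← hy'] at this
    linear_combination this
  have p3 : pt z (φ + 3) = 2 * z - y := pt_three z φ
  have p4 : pt z (φ + 4) = 2 * z - y' := by
    have := pt_three z (φ + 1)
    rw [show φ + 1 + 3 = φ + 4 by ring] at this
    exact this
  have p5 : pt z (φ + 5) = z + y - y' := by
    have := pt_three z (φ + 2)
    rw [show φ + 2 + 3 = φ + 5 by ring, p2] at this
    rw [this]; ring
  have q2 : pt y (φ + 2) = y' := by rw [pt_shift824 z y, p2]; ring
  have q5 : pt y (φ + 5) = 2 * y - y' := by rw [pt_shift824 z y, p5]; ring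
  have q0 : pt y φ = 2 * y - z := by rw [pt_shift824 z y, ← hy]; ring
  have r5 : pt y' (φ + 5) = y := by rw [pt_shift824 z y', p5]; ring
  have r2 : pt y' (φ + 2) = 2 * y' - y := by rw [pt_shift824 z y', p2]; ring
  have r1 : pt y' (φ + 1) = 2 * y' - z := by rw [pt_shift824 z y', ← hy']; ring
  -- the two-pair structure of `y`, `y'`
  obtain ⟨p, q, r, s, hD, hpq⟩ : ∃ p q r s, DPt T y p q r s ∧
      ((p = a ∧ q = c ∧ r = b ∧ s = d) ∨ (p = a ∧ q = d ∧ r = b ∧ s = c)) := by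
    rcases h.dpt_cross824 hz hyz ey with h1 | h1
    · exact ⟨a, c, b, d, h1, Or.inl ⟨rfl, rfl, rfl, rfl⟩⟩
    · exact ⟨a, d, b, c, h1, Or.inr ⟨rfl, rfl, rfl, rfl⟩⟩
  obtain ⟨p', q', r', s', hD', hpq'⟩ : ∃ p q r s, DPt T y' p q r s ∧
      ((p = a ∧ q = c ∧ r = b ∧ s = d) ∨ (p = a ∧ q = d ∧ r = b ∧ s = c)) := by
    rcases h.dpt_cross824 hz hy'z ey' with h1 | h1
    · exact ⟨a, c, b, d, h1, Or.inl ⟨rfl, rfl, rfl, rfl⟩⟩
    · exact ⟨a, d, b, c, h1, Or.inr ⟨rfl, rfl, rfl, rfl⟩⟩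
  -- the two missing colours
  obtain ⟨e, f, hM⟩ : ∃ e f : Fin 6, ∀ i, i ∉ T z → i = e ∨ i = f := by
    have h4 : (T z).ncard = 4 := by
      have e0 : T z = (({a, b, c, d} : Finset (Fin 6)) : Set (Fin 6)) := by rw [hz.pal]; simp
      rw [e0, Set.ncard_coe_finset, Finset.card_insert_of_notMem (by simp [hz.ab, hz.ac, hz.ad]),
        Finset.card_insert_of_notMem (by simp [hz.bc, hz.bd]),
        Finset.card_insert_of_notMem (by simp [hz.cd]), Finset.card_singleton]
    have h2 : ((T z)ᶜ).ncard = 2 := by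
      have := Set.ncard_add_ncard_compl (T z)
      rw [h4, Nat.card_eq_fintype_card, Fintype.card_fin] at this
      omega
    obtain ⟨e, f, -, hef⟩ := Set.ncard_eq_two.1 h2
    refine ⟨e, f, fun i hi => ?_⟩
    have : i ∈ (T z)ᶜ := hi
    rw [hef] at this
    exact this
  -- palettes near the time 0
  have hnear : ∀ k : Fin 3, ∀ m : ℝ, ∀ᶠ u in 𝓝[≠] (0 : ℝ),
      T (pt (zz k) (φ + u + m)) ⊆ T (pt (zz k) (φ + m)) := by
    intro k m
    have hc : Continuous fun u : ℝ => pt (zz k) (φ + u + m) :=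
      (continuous_pt (zz k)).comp (by fun_prop)
    have h1 := hc.tendsto 0
    rw [add_zero] at h1
    exact mem_nhdsWithin_of_mem_nhds (h1.eventually (h.nhd _))
  have hJ : ∀ (x : ℂ) (m : ℝ) {p q r s : Fin 6}, DPt T x p q r s → T (pt x (φ + m)) = T x →
      ∀ᶠ u in 𝓝[≠] (0 : ℝ), φ + u + m ∈ Lc T x →
        T (pt x (φ + u + m)) = {p, q} ∨ T (pt x (φ + u + m)) = {r, s} := by
    intro x m p q r s hx hT
    have h1 := h.near_J824 hx hT
    have h2 : Tendsto (fun u : ℝ => φ + u + m) (𝓝[≠] 0) (𝓝[≠] (φ + m)) := by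
      refine tendsto_nhdsWithin_iff.2 ⟨?_, ?_⟩
      · have hc : Continuous fun u : ℝ => φ + u + m := by fun_prop
        have := hc.tendsto 0
        rw [add_zero] at this
        exact this.mono_left nhdsWithin_le_nhds
      · filter_upwards [self_mem_nhdsWithin] with u hu h3
        have h3 : φ + u + m = φ + m := h3
        exact hu (by show u = 0; linarith)
    exact h2.eventually h1
  have hJy := hJ y 2 hD (by rw [q2, ey', ey])
  have hJy' := hJ y' 5 hD' (by rw [r5, ey, ey'])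
  filter_upwards [hnear 0 3, hnear 0 4, hnear 1 5, hnear 1 0, hnear 2 2, hnear 2 1, hJy, hJy']
    with u n3 n4 m5 m0 k2 k1 jy jy' hL hDir
  have B := bas_of h hL hDir
  have n3 : T (pt z (φ + u + 3)) ⊆ T (2 * z - y) := by rw [← p3]; exact n3
  have n4 : T (pt z (φ + u + 4)) ⊆ T (2 * z - y') := by rw [← p4]; exact n4
  have m5 : T (pt y (φ + u + 5)) ⊆ T (2 * y - y') := by rw [← q5]; exact m5
  have m0 : T (pt y (φ + u + 0)) ⊆ T (2 * y - z) := by
    rw [← q0]
    have e0 : φ + 0 = φ := add_zero φ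
    rw [e0] at m0
    exact m0
  have k2 : T (pt y' (φ + u + 2)) ⊆ T (2 * y' - y) := by rw [← r2]; exact k2
  have k1 : T (pt y' (φ + u + 1)) ⊆ T (2 * y' - z) := by rw [← r1]; exact k1
  -- angles
  have l0 : ∀ j : Fin 6, φ + u + (j.val : ℝ) ∈ Lc T z := fun j => hL (0, j)
  have l1 : ∀ j : Fin 6, φ + u + (j.val : ℝ) ∈ Lc T y := fun j => hL (1, j)
  have l2 : ∀ j : Fin 6, φ + u + (j.val : ℝ) ∈ Lc T y' := fun j => hL (2, j)
  have v0 : (((0 : Fin 6).val : ℕ) : ℝ) = 0 := by norm_num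
  have v1 : (((1 : Fin 6).val : ℕ) : ℝ) = 1 := by norm_num
  have v2 : (((2 : Fin 6).val : ℕ) : ℝ) = 2 := by norm_num
  have v3 : (((3 : Fin 6).val : ℕ) : ℝ) = 3 := by norm_num
  have v4 : (((4 : Fin 6).val : ℕ) : ℝ) = 4 := by norm_num
  have v5 : (((5 : Fin 6).val : ℕ) : ℝ) = 5 := by norm_num
  have a2 := l0 2; have a3 := l0 3; have a4 := l0 4; have a5 := l0 5
  have b0 := l1 0; have b2 := l1 2; have b5 := l1 5
  have c1 := l2 1; have c2 := l2 2; have c5 := l2 5
  rw [v2] at a2; rw [v3] at a3; rw [v4] at a4; rw [v5] at a5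
  rw [v0] at b0; rw [v2] at b2; rw [v5] at b5
  rw [v1] at c1; rw [v2] at c2; rw [v5] at c5
  -- disjointness
  have d23 : Disjoint (T (pt z (φ + u + 2))) (T (pt z (φ + u + 3))) := by
    have := B.sixty 0 2
    simp only [pals] at this
    have e3 : ((2 : Fin 6) + 1) = 3 := by decide
    rw [e3, v2, v3] at this
    exact this
  have d34 : Disjoint (T (pt z (φ + u + 3))) (T (pt z (φ + u + 4))) := by
    have := B.sixty 0 3
    simp only [pals] at this
    have e3 : ((3 : Fin 6) + 1) = 4 := by decide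
    rw [e3, v3, v4] at this
    exact this
  have d45 : Disjoint (T (pt z (φ + u + 4))) (T (pt z (φ + u + 5))) := by
    have := B.sixty 0 4
    simp only [pals] at this
    have e3 : ((4 : Fin 6) + 1) = 5 := by decide
    rw [e3, v4, v5] at this
    exact this
  have dq0 : Disjoint (T (pt y (φ + u + 5))) (T (pt y (φ + u + 0))) := by
    have := B.sixty 1 5
    simp only [pals] at this
    have e3 : ((5 : Fin 6) + 1) = 0 := by decide
    rw [e3, v5, v0] at this
    exact this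
  have e01 : Disjoint (T (pt y (φ + u + 0))) (T (pt y (φ + u + 1))) := by
    have := B.sixty 1 0
    simp only [pals] at this
    have e3 : ((0 : Fin 6) + 1) = 1 := by decide
    rw [e3, v0, v1] at this
    exact this
  have dr1 : Disjoint (T (pt y' (φ + u + 1))) (T (pt y' (φ + u + 2))) := by
    have := B.sixty 2 1
    simp only [pals] at this
    have e3 : ((1 : Fin 6) + 1) = 2 := by decide
    rw [e3, v1, v2] at this
    exact this
  have x2 : Disjoint (T (pt z (φ + u + 2))) (T (pt y (φ + u + 2))) := by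
    have := B.prod 0 1 hzy 2
    simp only [pals] at this
    rw [v2] at this
    exact this
  have x5 : Disjoint (T (pt z (φ + u + 5))) (T (pt y (φ + u + 5))) := by
    have := B.prod 0 1 hzy 5
    simp only [pals] at this
    rw [v5] at this
    exact this
  have x5' : Disjoint (T (pt z (φ + u + 5))) (T (pt y' (φ + u + 5))) := by
    have := B.prod 0 2 hzy' 5
    simp only [pals] at this
    rw [v5] at this
    exact this
  have x2' : Disjoint (T (pt z (φ + u + 2))) (T (pt y' (φ + u + 2))) := by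
    have := B.prod 0 2 hzy' 2
    simp only [pals] at this
    rw [v2] at this
    exact this
  have x1 : Disjoint (T (pt y (φ + u + 1))) (T (pt y' (φ + u + 1))) := by
    have := B.prod 1 2 hyy' 1
    simp only [pals] at this
    rw [v1] at this
    exact this
  refine chain824 hM (P2 := T (pt z (φ + u + 2))) (P3 := T (pt z (φ + u + 3)))
    (P4 := T (pt z (φ + u + 4))) (P5 := T (pt z (φ + u + 5))) (Q5 := T (pt y (φ + u + 5)))
    (Q0 := T (pt y (φ + u + 0))) (R2 := T (pt y' (φ + u + 2))) (R1 := T (pt y' (φ + u + 1)))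
    ?_ ?_ ?_ ?_ ?_ ?_ ?_ ?_ d23 d34 d45 x5 dq0 x2' dr1 e01 x1
  · exact h.cross_out824 hz hpq a2 (jy b2) x2
  · exact h.opp_out824 hz a3 hyz ey n3
  · exact h.opp_out824 hz a4 hy'z ey' n4
  · exact h.cross_out824 hz hpq' a5 (jy' c5) x5'
  · obtain ⟨i, hi, hi'⟩ := h.opp_out824 hD b5 hy'y (ey'.trans ey.symm) m5
    exact ⟨i, hi, by rwa [ey] at hi'⟩
  · obtain ⟨i, hi, hi'⟩ := h.opp_out824 hD b0 hzy ey.symm m0
    exact ⟨i, hi, by rwa [ey] at hi'⟩
  · obtain ⟨i, hi, hi'⟩ := h.opp_out824 hD' c2 hyy' (ey.trans ey'.symm) k2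
    exact ⟨i, hi, by rwa [ey'] at hi'⟩
  · obtain ⟨i, hi, hi'⟩ := h.opp_out824 hD' c1 hzy' ey'.symm k1
    exact ⟨i, hi, by rwa [ey'] at hi'⟩

/-- the times near `0` are dense: from generic times to angles of `Lc` -/
theorem Irr.JJ_Lc824 (h : Irr U T) (hz : DPt T z a b c d) {φ : ℝ} (ey : T (pt z φ) = T z)
    (ey' : T (pt z (φ + 1)) = T z) :
    ∀ᶠ w in 𝓝[≠] (φ + 1), w ∈ Lc T (pt z φ) → T (pt (pt z φ) w) ⊆ T z := by
  set y := pt z φ with hy
  have h1 := h.JJ_near824 hz ey ey'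
  rw [← hy] at h1
  obtain ⟨N, hN, hNo, h0N⟩ := _root_.mem_nhds_iff.1 (eventually_nhdsWithin_iff.1 h1)
  have h2 : Tendsto (fun w : ℝ => w - φ - 1) (𝓝 (φ + 1)) (𝓝 0) := by
    have hc : Continuous fun w : ℝ => w - φ - 1 := by fun_prop
    have := hc.tendsto (φ + 1)
    rwa [show φ + 1 - φ - 1 = (0 : ℝ) by ring] at this
  have h3 : ∀ᶠ w in 𝓝 (φ + 1), w - φ - 1 ∈ N := h2.eventually (hNo.mem_nhds h0N)
  filter_upwards [mem_nhdsWithin_of_mem_nhds h3, self_mem_nhdsWithin] with w hw hne hL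
  have hL' : ∀ᶠ v in 𝓝 w, T (pt y v) = T (pt y w) := hL
  have h4 : Tendsto (fun u : ℝ => φ + u + 1) (𝓝 (w - φ - 1)) (𝓝 w) := by
    have hc : Continuous fun u : ℝ => φ + u + 1 := by fun_prop
    have := hc.tendsto (w - φ - 1)
    rwa [show φ + (w - φ - 1) + 1 = w by ring] at this
  have h5 : ∀ᶠ u in 𝓝 (w - φ - 1), u ∈ N ∧ u ≠ 0 ∧ T (pt y (φ + u + 1)) = T (pt y w) := by
    filter_upwards [hNo.mem_nhds hw, h4.eventually hL',
      isOpen_ne.mem_nhds (show w - φ - 1 ≠ (0 : ℝ) from fun h6 => hne (by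
        show w = φ + 1
        linarith))] with u g1 g2 g3
    exact ⟨g1, g3, g2⟩
  obtain ⟨V, hV, hVo, hwV⟩ := _root_.mem_nhds_iff.1 h5
  have hD : Dense (Lall T ![z, y, pt z (φ + 1)] φ ∩ Sweep.Dir ![z, y, pt z (φ + 1)] φ) :=
    (Lall_dense h).inter_of_isOpen_left (Sweep.Dir_dense _ φ) Lall_open
  obtain ⟨u, huV, hu1, hu2⟩ := hD.inter_open_nonempty V hVo ⟨_, hwV⟩
  obtain ⟨g1, g2, g3⟩ := hV huV
  rw [← g3]
  exact hN g1 g2 hu1 hu2

/-- the core: two J-points at the angles `φ`, `φ + 1` -/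
theorem Irr.JJ_core824 (h : Irr U T) (hz : DPt T z a b c d) {φ : ℝ} (ey : T (pt z φ) = T z)
    (ey' : T (pt z (φ + 1)) = T z)
    (hX : (T (pt z φ + pt z (φ + 1) - z)).ncard ≤ 4) : False := by
  set y := pt z φ with hy
  set y' := pt z (φ + 1) with hy'
  have hyz : dist y z = 1 := dist_pt z φ
  have hy'z : dist y' z = 1 := dist_pt z _
  have hyy' : dist y y' = 1 := dist_pt_one z φ
  have hzy : dist z y = 1 := by rw [dist_comm]; exact hyz
  have hy'y : dist y' y = 1 := by rw [dist_comm]; exact hyy'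
  have hne : y' - y ≠ 0 := by
    intro h1
    rw [sub_eq_zero] at h1
    rw [h1, dist_self] at hyy'
    exact zero_ne_one hyy'
  have hsum : y + y' ≠ 2 * z := by
    intro h1
    have h2 : y' - y = 2 * (z - y) := by linear_combination h1
    have h3 : dist y' y = 2 := by
      rw [dist_eq_norm, h2, norm_mul, ← dist_eq_norm, hzy]; simp
    rw [h3] at hy'y
    norm_num at hy'y
  have eX : pt y (φ + 1) = y + y' - z := by rw [pt_shift824 z y, ← hy']; ring
  obtain ⟨p, q, r, s, hD⟩ : ∃ p q r s, DPt T y p q r s := h.dpt_of_eq169 ⟨a, b, c, d, hz⟩ hyz ey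
  -- palettes seen at the fourth point
  have hL := h.JJ_Lc824 hz ey ey'
  rw [← hy] at hL
  have hvX : dist (pt y (φ + 1)) y' = 1 := by
    rw [eX, dist_eq_norm, show y + y' - z - y' = y - z by ring, ← dist_eq_norm]; exact hyz
  have seen : ∀ t : Fin 6, t ∈ T y → ∃ P : Set (Fin 6), t ∉ P ∧ (P = {p, q} ∨ P = {r, s}) ∧
      P ⊆ T (pt y (φ + 1)) := by
    intro t ht
    obtain ⟨P, htP, hP⟩ := third_seen h (z := y) (v := y') (s := φ + 1) (t := t) hvX
      (by rw [ey', ← ey]; exact ht) (fun h1 => hne (by rw [h1]; ring)) (fun h1 => by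
        rw [eX] at h1
        exact hsum (by linear_combination -h1))
    refine ⟨P, htP, ?_, ?_⟩
    · have key : ∃ᶠ w in 𝓝[≠] (φ + 1), w ∈ Lc T y ∧ T (pt y w) = P := by
        rcases hP with hP | hP
        · exact Frequently.filter_mono hP (nhdsWithin_mono _ fun x hx => ne_of_lt hx)
        · exact Frequently.filter_mono hP (nhdsWithin_mono _ fun x hx => ne_of_gt hx)
      obtain ⟨w, ⟨h1, h2⟩, h3⟩ := (key.and_eventually hL).exists
      rw [← h2]
      refine h.twoPairs hD _ (dist_pt y w) (Lc_circle h1) ?_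
      rw [ey]
      exact h3 h1
    · rcases hP with hP | hP
      · exact hP.sub_self h
      · exact hP.sub_self h
  have hmem : ∀ i ∈ ({p, q, r, s} : Set (Fin 6)), i ∈ T y := fun i hi => by rw [hD.pal]; exact hi
  have hsub1 : ({r, s} : Set (Fin 6)) ⊆ T (pt y (φ + 1)) := by
    obtain ⟨P, h1, h2 | h2, h3⟩ := seen p (hmem p (by simp))
    · exact absurd (by rw [h2]; simp) h1
    · rw [← h2]; exact h3
  have hsub2 : ({p, q} : Set (Fin 6)) ⊆ T (pt y (φ + 1)) := by
    obtain ⟨P, h1, h2 | h2, h3⟩ := seen r (hmem r (by simp))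
    · rw [← h2]; exact h3
    · exact absurd (by rw [h2]; simp) h1
  have hall : T y ⊆ T (pt y (φ + 1)) := by
    rw [hD.pal]
    rintro i (rfl | rfl | rfl | hi)
    · exact hsub2 (by simp)
    · exact hsub2 (by simp)
    · exact hsub1 (by simp)
    · rw [mem_singleton_iff] at hi
      rw [hi]
      exact hsub1 (by simp)
  have h4 : (T y).ncard = 4 := by
    have e0 : T y = (({p, q, r, s} : Finset (Fin 6)) : Set (Fin 6)) := by rw [hD.pal]; simp
    rw [e0, Set.ncard_coe_finset, Finset.card_insert_of_notMem (by simp [hD.ab, hD.ac, hD.ad]),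
      Finset.card_insert_of_notMem (by simp [hD.bc, hD.bd]),
      Finset.card_insert_of_notMem (by simp [hD.cd]), Finset.card_singleton]
  have heq : T y = T (pt y (φ + 1)) :=
    Set.eq_of_subset_of_ncard_le hall (by rw [eX, h4]; exact hX) (Set.toFinite _)
  refine h.no_three_J hD (v₁ := z) (v₂ := y') (v₃ := pt y (φ + 1)) hzy hy'y (dist_pt y _) ey.symm
    (ey'.trans ey.symm) heq.symm ?_ ?_ ?_
  · intro h1
    rw [← h1, dist_self] at hy'z
    exact zero_ne_one hy'z
  · intro h1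
    rw [eX] at h1
    exact hsum (by linear_combination -h1)
  · intro h1
    rw [eX] at h1
    have h2 : y = z := by linear_combination -h1
    rw [h2, dist_self] at hyz
    exact zero_ne_one hyz

/-- **Two J-points of `S(z)` are never 60 degrees apart.** -/
theorem Irr.no_JJ824 (h : Irr U T) (hz : DPt T z a b c d) (hy : dist y z = 1)
    (hy' : dist y' z = 1) (hyy' : dist y y' = 1) (e1 : T y = T z) (e2 : T y' = T z)
    (hX : (T (y + y' - z)).ncard ≤ 4) : False := by
  obtain ⟨t, ht⟩ := exists_cis (u := y - z) (by rw [← dist_eq_norm]; exact hy)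
  obtain ⟨φ, hφ⟩ : ∃ φ : ℝ, pt z φ = y := by
    refine ⟨t / (Real.pi / 3), ?_⟩
    have hpi : (Real.pi / 3 : ℝ) ≠ 0 := by positivity
    unfold pt
    rw [div_mul_cancel₀ _ hpi, ← ht]; ring
  -- the two points of `S(z)` at distance one from `y`
  have hcase : y' = pt z (φ + 1) ∨ y = pt z (φ - 1 + 1) ∧ y' = pt z (φ - 1) := by
    have h0 : dist (pt z (φ + 1)) y = 1 := by
      rw [← hφ, dist_comm]; exact dist_pt_one z φ
    have h1 : dist (pt z (φ - 1)) y = 1 := by
      have := dist_pt_one z (φ - 1)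
      rw [sub_add_cancel, hφ] at this
      exact this
    have hzy : z ≠ y := by
      rintro rfl
      rw [dist_self] at hy
      exact zero_ne_one hy
    by_cases hc : y' = pt z (φ + 1)
    · exact Or.inl hc
    · right
      have s1 := second_point (w := z) (w' := y) (m := y') (m' := pt z (φ + 1)) hzy hy'
        (by rw [dist_comm]; exact hyy') (dist_pt z _) h0 hc
      have s2 := pt_sum z (φ - 1)
      rw [show φ - 1 + 2 = φ + 1 by ring, sub_add_cancel, hφ] at s2
      refine ⟨by rw [sub_add_cancel]; exact hφ.symm, ?_⟩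
      linear_combination s1 - s2
  rcases hcase with hc | ⟨hc, hc'⟩
  · refine h.JJ_core824 hz (φ := φ) (by rw [hφ]; exact e1) (by rw [← hc]; exact e2) ?_
    rw [hφ, ← hc]; exact hX
  · refine h.JJ_core824 hz (φ := φ - 1) (by rw [← hc']; exact e2) (by rw [← hc]; exact e1) ?_
    rw [← hc', ← hc, show y' + y - z = y + y' - z by ring]; exact hX

end Vale.Agent.P032.Six
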