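import Vale.Agent.P032.H824.ZoneCol

/-!
# P032: zones in units of 60 degrees, closures of the exact arcs

`ZnP824 U T z a b c d p p' q q'` : `p < p' ≤ q < q' ≤ p + 3`; modulo `3` every angle `u` with
`pt z u ∈ closure (Ex T z {a, b})` is in `[p, p']`, every one of `closure (Ex T z {c, d})` in
`[q, q']`; the inner colour is `a` (`c`) on `[p, q]` (`[q, p + 3]`) and `b` (`d`) at the antipodes.
-/

open Set Filter Topology Metric

noncomputable section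

namespace Vale.Agent.P032.Six

open Vale.Agent.P032.S5.H767 Vale.Agent.P032.S5.H122 Vale.Agent.P032.Sweep
open Vale.Agent.P032.H780

variable {U : Fin 6 → Set ℂ} {T : ℂ → Set (Fin 6)} {z : ℂ} {a b c d : Fin 6}

/-- closures: a closed pair arc has its direction in the closed zone -/
theorem closure_dir824 {P : Set (Fin 6)} {x1 x2 : ℝ}
    (hd : ∀ θ ∈ Dir824 T z P, ∃ n : ℤ, θ + n * Real.pi ∈ Ioo x1 x2) {u : ℝ}
    (hu : pt z u ∈ closure (Ex T z P)) :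
    ∃ n : ℤ, u * (Real.pi / 3) + n * Real.pi ∈ Icc x1 x2 := by
  have hpi := Real.pi_pos
  obtain ⟨n, hn⟩ := exists_int824 (u * (Real.pi / 3)) x1
  refine ⟨n, hn.1, ?_⟩
  by_contra hcon
  push Not at hcon
  have hc : Continuous fun w : ℝ => w * (Real.pi / 3) + n * Real.pi := by fun_prop
  have h1 : ∀ᶠ w in 𝓝 u, w * (Real.pi / 3) + n * Real.pi ∈ Ioo x2 (x1 + Real.pi) :=
    (hc.tendsto u).eventually (Ioo_mem_nhds hcon hn.2)
  have h2 : ∀ᶠ w in 𝓝 u, T (pt z w) ≠ P := by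
    filter_upwards [h1] with w hw hT
    obtain ⟨m, hm⟩ := hd (w * (Real.pi / 3)) (Or.inl hT)
    have h3 : (0 : ℝ) < ((n - m : ℤ) : ℝ) * Real.pi := by
      push_cast; nlinarith [hw.1, hm.2]
    have h4 : ((n - m : ℤ) : ℝ) * Real.pi < 1 * Real.pi := by
      push_cast; nlinarith [hw.2, hm.1]
    have h5 : (0 : ℝ) < ((n - m : ℤ) : ℝ) := by
      by_contra h9
      exact absurd h3 (not_lt.2 (mul_nonpos_of_nonpos_of_nonneg (not_lt.1 h9) hpi.le))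
    have h6 : ((n - m : ℤ) : ℝ) < 1 := lt_of_mul_lt_mul_right h4 hpi.le
    have h7 : (0 : ℤ) < n - m := by exact_mod_cast h5
    have h8 : n - m < (1 : ℤ) := by exact_mod_cast h6
    omega
  have h3 : ∀ᶠ q in 𝓝[sphere z 1] (pt z u), T q ≠ P := ev_circle z (p := fun q => T q ≠ P) h2
  rw [mem_closure_iff_frequently] at hu
  have h4 : ∃ᶠ q in 𝓝[sphere z 1] (pt z u), q ∈ Ex T z P := by
    rw [frequently_nhdsWithin_iff]
    exact hu.mono fun q hq => ⟨hq, hq.1⟩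
  obtain ⟨q, hq1, hq2⟩ := (h4.and_eventually h3).exists
  exact hq2 (ex_self hq1)

/-- zones in units of 60 degrees -/
structure ZnP824 (U : Fin 6 → Set ℂ) (T : ℂ → Set (Fin 6)) (z : ℂ) (a b c d : Fin 6)
    (p p' q q' : ℝ) : Prop where
  dpt : DPt T z a b c d
  pp : p < p'
  pq : p' ≤ q
  qq : q < q'
  qp : q' ≤ p + 3
  A : ∀ u, pt z u ∈ closure (Ex T z {a, b}) → ∃ n : ℤ, u + 3 * n ∈ Icc p p'
  C : ∀ u, pt z u ∈ closure (Ex T z {c, d}) → ∃ n : ℤ, u + 3 * n ∈ Icc q q'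
  A' : ∀ u, T (pt z u) = {a, b} → ∃ n : ℤ, u + 3 * n ∈ Ioo p p'
  C' : ∀ u, T (pt z u) = {c, d} → ∃ n : ℤ, u + 3 * n ∈ Ioo q q'
  inA : ∀ u ∈ Ioo (q - 3) q', Sd U z (pt z u) a b ∧ Sd U z (pt z (u + 3)) b a
  inC : ∀ u ∈ Ioo p (p' + 3), Sd U z (pt z u) c d ∧ Sd U z (pt z (u + 3)) d c
  noC : ∀ u ∈ Ioo p p', c ∉ Pal U (pt z u) ∧ d ∉ Pal U (pt z u) ∧ c ∉ Pal U (pt z (u + 3)) ∧
    d ∉ Pal U (pt z (u + 3))
  noA : ∀ u ∈ Ioo q q', a ∉ Pal U (pt z u) ∧ b ∉ Pal U (pt z u) ∧ a ∉ Pal U (pt z (u + 3)) ∧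
    b ∉ Pal U (pt z (u + 3))

theorem pt_three824 (z : ℂ) (u : ℝ) : pt z (u + 3) = z - cis (u * (Real.pi / 3)) := by
  unfold pt
  rw [show (u + 3) * (Real.pi / 3) = u * (Real.pi / 3) + Real.pi by ring, cis_add_pi824]; ring

theorem Zn824.toP (h : Irr U T) {x1 x2 y1 y2 : ℝ} (Z : Zn824 U T z a b c d x1 x2 y1 y2) :
    ZnP824 U T z a b c d (x1 * (3 / Real.pi)) (x2 * (3 / Real.pi)) (y1 * (3 / Real.pi))
      (y2 * (3 / Real.pi)) := by
  have hpi := Real.pi_pos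
  set κ : ℝ := 3 / Real.pi with hκ
  have hκ0 : 0 < κ := by positivity
  have hκπ : κ * Real.pi = 3 := by rw [hκ]; field_simp
  have e1 : ∀ u : ℝ, u * (Real.pi / 3) * κ = u := by
    intro u
    rw [show u * (Real.pi / 3) * κ = u * (κ * Real.pi) / 3 by ring, hκπ]; ring
  have up : ∀ {x y : ℝ}, x < y → x * κ < y * κ := fun h => mul_lt_mul_of_pos_right h hκ0
  have up' : ∀ {x y : ℝ}, x ≤ y → x * κ ≤ y * κ := fun h => mul_le_mul_of_nonneg_right h hκ0.le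
  -- from units to radians
  have dn : ∀ {u x : ℝ}, x * κ < u → x < u * (Real.pi / 3) := by
    intro u x hu
    have h1 : x * κ < u * (Real.pi / 3) * κ := by rw [e1]; exact hu
    exact lt_of_mul_lt_mul_right h1 hκ0.le
  have dn' : ∀ {u x : ℝ}, u < x * κ → u * (Real.pi / 3) < x := by
    intro u x hu
    have h1 : u * (Real.pi / 3) * κ < x * κ := by rw [e1]; exact hu
    exact lt_of_mul_lt_mul_right h1 hκ0.le
  have sc : ∀ (u : ℝ) (n : ℤ), (u * (Real.pi / 3) + n * Real.pi) * κ = u + 3 * n := by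
    intro u n
    rw [add_mul, e1, mul_assoc, mul_comm Real.pi κ, hκπ]; ring
  refine ⟨Z.dpt, up Z.x12, up' Z.xy, up Z.y12, ?_, fun u hu => ?_, fun u hu => ?_,
    fun u hu => ?_, fun u hu => ?_, fun u hu => ?_, fun u hu => ?_, fun u hu => ?_,
    fun u hu => ?_⟩
  · have := up' Z.yx
    rw [add_mul, mul_comm Real.pi κ, hκπ] at this
    exact this
  · obtain ⟨n, hn⟩ := closure_dir824 Z.dX hu
    exact ⟨n, by rw [← sc]; exact up' hn.1, by rw [← sc]; exact up' hn.2⟩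
  · obtain ⟨n, hn⟩ := closure_dir824 Z.dY hu
    exact ⟨n, by rw [← sc]; exact up' hn.1, by rw [← sc]; exact up' hn.2⟩
  · obtain ⟨n, hn⟩ := Z.dX (u * (Real.pi / 3)) (Or.inl hu)
    exact ⟨n, by rw [← sc]; exact up hn.1, by rw [← sc]; exact up hn.2⟩
  · obtain ⟨n, hn⟩ := Z.dY (u * (Real.pi / 3)) (Or.inl hu)
    exact ⟨n, by rw [← sc]; exact up hn.1, by rw [← sc]; exact up hn.2⟩
  · have e3 : y1 * κ - 3 = (y1 - Real.pi) * κ := by rw [sub_mul, mul_comm Real.pi κ, hκπ]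
    have h1 := Z.sX (u * (Real.pi / 3)) ⟨dn (by rw [← e3]; exact hu.1), dn' hu.2⟩
    rw [pt_three824]
    exact h1
  · have e3 : x2 * κ + 3 = (x2 + Real.pi) * κ := by rw [add_mul, mul_comm Real.pi κ, hκπ]
    have h1 := Z.sY (u * (Real.pi / 3)) ⟨dn hu.1, dn' (by rw [← e3]; exact hu.2)⟩
    rw [pt_three824]
    exact h1
  · rw [pt_three824]
    exact Z.noY h.mx ⟨dn hu.1, dn' hu.2⟩
  · rw [pt_three824]
    exact Z.noX h.mx ⟨dn hu.1, dn' hu.2⟩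

/-- **The zone theorem in units of 60 degrees.** -/
theorem Irr.exists_zonesP824 (h : Irr U T) (hz : DPt T z a b c d) :
    ∃ p p' q q', ZnP824 U T z a b c d p p' q q' ∨ ZnP824 U T z a b d c p p' q q' ∨
      ZnP824 U T z b a c d p p' q q' ∨ ZnP824 U T z b a d c p p' q q' := by
  obtain ⟨x1, x2, y1, y2, h1 | h1 | h1 | h1⟩ := h.exists_zones824 hz
  · exact ⟨_, _, _, _, Or.inl (h1.toP h)⟩
  · exact ⟨_, _, _, _, Or.inr (Or.inl (h1.toP h))⟩
  · exact ⟨_, _, _, _, Or.inr (Or.inr (Or.inl (h1.toP h)))⟩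
  · exact ⟨_, _, _, _, Or.inr (Or.inr (Or.inr (h1.toP h)))⟩

namespace ZnP824

variable {p p' q q' : ℝ}

/-- the two-number form: `A` in `[p, q]`, `C` in `[q, p + 3]`, constant inner colours -/
theorem two (Z : ZnP824 U T z a b c d p p' q q') : p < q ∧ q < p + 3 ∧
    (∀ u, pt z u ∈ closure (Ex T z {a, b}) → ∃ n : ℤ, u + 3 * n ∈ Icc p q) ∧
    (∀ u, pt z u ∈ closure (Ex T z {c, d}) → ∃ n : ℤ, u + 3 * n ∈ Icc q (p + 3)) ∧
    (∀ u ∈ Icc p q, Sd U z (pt z u) a b ∧ Sd U z (pt z (u + 3)) b a) ∧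
    ∀ u ∈ Icc q (p + 3), Sd U z (pt z u) c d ∧ Sd U z (pt z (u + 3)) d c := by
  have h1 := Z.pp
  have h2 := Z.pq
  have h3 := Z.qq
  have h4 := Z.qp
  refine ⟨by linarith, by linarith, fun u hu => ?_, fun u hu => ?_, fun u hu => ?_,
    fun u hu => ?_⟩
  · obtain ⟨n, hn⟩ := Z.A u hu
    exact ⟨n, hn.1, by linarith [hn.2]⟩
  · obtain ⟨n, hn⟩ := Z.C u hu
    exact ⟨n, hn.1, by linarith [hn.2]⟩
  · exact Z.inA u ⟨by linarith [hu.1], by linarith [hu.2]⟩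
  · exact Z.inC u ⟨by linarith [hu.1], by linarith [hu.2]⟩

end ZnP824

end Vale.Agent.P032.Six
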