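import Vale.Agent.P032.S5.H225.Germ

/-!
# P032: the cone rule

`v` any point, `z`, `g` on `S(v)`; `hb z v τ t` is the half branch `τ` of `S(z)` at `v`,
`sg z v g = cr (v - z) (v - g)` (`= sin (θ - φ)` for `z = v + cis φ`, `g = v + cis θ`).

* `Mx.cone_out824`, `Mx.cone_in824` : if the colour `i` is present on a whole small half branch
  `τ` of `S(z)` at `v`, then near EVERY point `g` of `S(v)` with `τ * sg z v g < 0` the colour `i`
  is absent outside `D(v)`, and near every `g` with `0 < τ * sg z v g` it is absent inside;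
* `Irr.excl_out824`, `Irr.excl_in824`, `Irr.excl_col824` : which of these are exclusive;
* `Irr.cone_any_same824`, `Irr.cone_any_diff824` : two centres, any point `v`;
* `Irr.cone_sd824`, `Irr.cone_two_same824`, `Irr.cone_two_diff824` : the same at a two-pair point
  `v` when the colours are only frequently present on the half branches.
-/

open Set Filter Topology Metric

noncomputable section

namespace Vale.Agent.P032.Six

variable {k : ℕ} {U : Fin k → Set ℂ} {T : ℂ → Set (Fin k)}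

theorem cont_hb824 (z v : ℂ) (τ : ℝ) : Continuous (hb z v τ) := by
  unfold hb
  exact continuous_const.add (continuous_const.mul (continuous_cis.comp
    (continuous_const.mul continuous_id)))

theorem hb_zero824 (z v : ℂ) (τ : ℝ) : hb z v τ 0 = v := by
  unfold hb; simp [cis]

/-- a colour which is present on a whole small half branch, closed form -/
theorem hb_closed824 {z v : ℂ} {τ : ℝ} {i : Fin k}
    (hi : ∀ᶠ t : ℝ in 𝓝[>] 0, i ∈ Pal U (hb z v τ t)) :
    ∃ δ > 0, ∀ t ∈ Icc 0 δ, i ∈ Pal U (hb z v τ t) := by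
  obtain ⟨δ, hδ, hd⟩ := mem_nhdsGT_iff_exists_Ioo_subset.1 hi
  have hδ : 0 < δ := hδ
  refine ⟨δ, hδ, ?_⟩
  have hcl : IsClosed {t : ℝ | i ∈ Pal U (hb z v τ t)} :=
    isClosed_closure.preimage (cont_hb824 z v τ)
  have h2 := closure_minimal (show Ioo 0 δ ⊆ {t : ℝ | i ∈ Pal U (hb z v τ t)} from hd) hcl
  rw [closure_Ioo hδ.ne] at h2
  exact h2

/-- crossing of a half branch -/
theorem Mx.branch_cross824 (h : Mx U) {z v x : ℂ} {τ δ : ℝ} {i : Fin k} (hδ : 0 ≤ δ)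
    (hi : ∀ t ∈ Icc 0 δ, i ∈ Pal U (hb z v τ t))
    (hx : (1 < dist x v ∧ dist x (hb z v τ δ) < 1) ∨
      (dist x v < 1 ∧ 1 < dist x (hb z v τ δ))) : i ∉ Pal U x := by
  intro hix
  have hc : ∀ w : ℂ, Continuous fun y : ℂ => dist y w := fun w => continuous_id.dist continuous_const
  have hev : ∀ᶠ g in 𝓝 x, (1 < dist g v ∧ dist g (hb z v τ δ) < 1) ∨
      (dist g v < 1 ∧ 1 < dist g (hb z v τ δ)) := by
    rcases hx with ⟨h1, h2⟩ | ⟨h1, h2⟩
    · filter_upwards [(hc v).continuousAt.eventually (Ioi_mem_nhds h1),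
        (hc (hb z v τ δ)).continuousAt.eventually (Iio_mem_nhds h2)] with g h3 h4
      exact Or.inl ⟨h3, h4⟩
    · filter_upwards [(hc v).continuousAt.eventually (Iio_mem_nhds h1),
        (hc (hb z v τ δ)).continuousAt.eventually (Ioi_mem_nhds h2)] with g h3 h4
      exact Or.inr ⟨h3, h4⟩
  obtain ⟨g, hg, hgU⟩ := mem_closure_iff_nhds.1 hix _ hev
  have hcont : ContinuousOn (fun t : ℝ => dist g (hb z v τ t)) (Icc 0 δ) :=
    (continuous_const.dist (cont_hb824 z v τ)).continuousOn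
  have hmem : ∃ t ∈ Icc 0 δ, dist g (hb z v τ t) = 1 := by
    rcases hg with ⟨h1, h2⟩ | ⟨h1, h2⟩
    · obtain ⟨t, ht, ht1⟩ := intermediate_value_Icc' hδ hcont
        (show (1 : ℝ) ∈ Icc (dist g (hb z v τ δ)) (dist g (hb z v τ 0)) by
          rw [hb_zero824]; exact ⟨h2.le, h1.le⟩)
      exact ⟨t, ht, ht1⟩
    · obtain ⟨t, ht, ht1⟩ := intermediate_value_Icc hδ hcont
        (show (1 : ℝ) ∈ Icc (dist g (hb z v τ 0)) (dist g (hb z v τ δ)) by
          rw [hb_zero824]; exact ⟨h1.le, h2.le⟩)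
      exact ⟨t, ht, ht1⟩
  obtain ⟨t, ht, ht1⟩ := hmem
  exact h.notMem' hgU ht1 (hi t ht)

/-- **Cone rule, any point `v`**, the half circle on the side of the branch: the colour is absent
outside `D(v)` -/
theorem Mx.cone_out824 (h : Mx U) {z v g : ℂ} {τ : ℝ} {i : Fin k} (hg : dist g v = 1)
    (hs : τ * sg z v g < 0) (hi : ∀ᶠ t : ℝ in 𝓝[>] 0, i ∈ Pal U (hb z v τ t)) :
    ∀ᶠ x in 𝓝 g, 1 < dist x v → i ∉ Pal U x := by
  obtain ⟨δ, hδ, hd⟩ := hb_closed824 hi
  obtain ⟨t, ⟨ht1, ht2⟩, ht0⟩ := (((hb_in hg hs).and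
    (mem_nhdsWithin_of_mem_nhds (Iio_mem_nhds hδ))).and self_mem_nhdsWithin).exists
  have ht0 : 0 < t := ht0
  have ht2 : t < δ := ht2
  have e1 : ∀ᶠ x in 𝓝 g, dist x (hb z v τ t) < 1 :=
    (continuous_id.dist continuous_const).continuousAt.eventually
      (Iio_mem_nhds (show dist g (hb z v τ t) < 1 by rw [dist_comm]; exact ht1))
  filter_upwards [e1] with x hx hxv
  exact h.branch_cross824 ht0.le (fun s hs => hd s ⟨hs.1, hs.2.trans ht2.le⟩) (Or.inl ⟨hxv, hx⟩)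

/-- **Cone rule, any point `v`**, the other half circle: the colour is absent inside `D(v)` -/
theorem Mx.cone_in824 (h : Mx U) {z v g : ℂ} {τ : ℝ} {i : Fin k} (hg : dist g v = 1)
    (hs : 0 < τ * sg z v g) (hi : ∀ᶠ t : ℝ in 𝓝[>] 0, i ∈ Pal U (hb z v τ t)) :
    ∀ᶠ x in 𝓝 g, dist x v < 1 → i ∉ Pal U x := by
  obtain ⟨δ, hδ, hd⟩ := hb_closed824 hi
  obtain ⟨t, ⟨ht1, ht2⟩, ht0⟩ := (((hb_out hg hs).and
    (mem_nhdsWithin_of_mem_nhds (Iio_mem_nhds hδ))).and self_mem_nhdsWithin).exists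
  have ht0 : 0 < t := ht0
  have ht2 : t < δ := ht2
  have e1 : ∀ᶠ x in 𝓝 g, 1 < dist x (hb z v τ t) :=
    (continuous_id.dist continuous_const).continuousAt.eventually
      (Ioi_mem_nhds (show 1 < dist g (hb z v τ t) by rw [dist_comm]; exact ht1))
  filter_upwards [e1] with x hx hxv
  exact h.branch_cross824 ht0.le (fun s hs => hd s ⟨hs.1, hs.2.trans ht2.le⟩) (Or.inr ⟨hxv, hx⟩)

/-! ### Exclusivity -/

/-- points on the ray from `v` through a point of `S(v)` -/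
theorem radial824 {v g : ℂ} (hg : dist g v = 1) :
    (∃ᶠ x in 𝓝 g, dist x v < 1) ∧ ∃ᶠ x in 𝓝 g, 1 < dist x v := by
  have hn : ‖g - v‖ = 1 := by rw [← dist_eq_norm]; exact hg
  have hc : Continuous fun r : ℝ => v + (r : ℂ) * (g - v) := by fun_prop
  have ht : Tendsto (fun r : ℝ => v + (r : ℂ) * (g - v)) (𝓝 1) (𝓝 g) := by
    have := hc.tendsto 1
    simpa using this
  have hd : ∀ r : ℝ, 0 < r → dist (v + (r : ℂ) * (g - v)) v = r := by
    intro r hr
    rw [dist_eq_norm, add_sub_cancel_left, norm_mul, hn, mul_one, Complex.norm_real,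
      Real.norm_of_nonneg hr.le]
  constructor
  · have ht' : Tendsto (fun r : ℝ => v + (r : ℂ) * (g - v)) (𝓝[<] 1) (𝓝 g) :=
      ht.mono_left nhdsWithin_le_nhds
    refine ht'.frequently (Eventually.frequently ?_)
    filter_upwards [nhdsWithin_le_nhds (Ioi_mem_nhds (by norm_num : (0 : ℝ) < 1)),
      self_mem_nhdsWithin] with r hr hr1
    rw [hd r hr]; exact hr1
  · have ht' : Tendsto (fun r : ℝ => v + (r : ℂ) * (g - v)) (𝓝[>] 1) (𝓝 g) :=
      ht.mono_left nhdsWithin_le_nhds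
    refine ht'.frequently (Eventually.frequently ?_)
    filter_upwards [self_mem_nhdsWithin] with r hr1
    have hr1 : 1 < r := hr1
    rw [hd r (by linarith)]; exact hr1

/-- the two colours of `g` are not both absent outside -/
theorem Irr.excl_out824 (h : Irr U T) {v g : ℂ} {i j : Fin k} (hg : dist g v = 1)
    (hT : T g ⊆ {i, j}) (hi : ∀ᶠ x in 𝓝 g, 1 < dist x v → i ∉ Pal U x)
    (hj : ∀ᶠ x in 𝓝 g, 1 < dist x v → j ∉ Pal U x) : False := by
  obtain ⟨x, hxv, hx1, hx2, hx3⟩ :=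
    ((radial824 hg).2.and_eventually (hi.and (hj.and (h.nhd g)))).exists
  obtain ⟨m, hm⟩ := h.ne x
  rcases hT (hx3 hm) with rfl | h1
  · exact hx1 hxv (h.sub x hm)
  · rw [mem_singleton_iff] at h1; subst h1
    exact hx2 hxv (h.sub x hm)

/-- the two colours of `g` are not both absent inside -/
theorem Irr.excl_in824 (h : Irr U T) {v g : ℂ} {i j : Fin k} (hg : dist g v = 1)
    (hT : T g ⊆ {i, j}) (hi : ∀ᶠ x in 𝓝 g, dist x v < 1 → i ∉ Pal U x)
    (hj : ∀ᶠ x in 𝓝 g, dist x v < 1 → j ∉ Pal U x) : False := by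
  obtain ⟨x, hxv, hx1, hx2, hx3⟩ :=
    ((radial824 hg).1.and_eventually (hi.and (hj.and (h.nhd g)))).exists
  obtain ⟨m, hm⟩ := h.ne x
  rcases hT (hx3 hm) with rfl | h1
  · exact hx1 hxv (h.sub x hm)
  · rw [mem_singleton_iff] at h1; subst h1
    exact hx2 hxv (h.sub x hm)

/-- a colour in the closed palette of `g` is not absent on both sides -/
theorem Mx.excl_col824 (h : Mx U) {v g : ℂ} {i : Fin k} (hi : i ∈ Pal U g)
    (h1 : ∀ᶠ x in 𝓝 g, 1 < dist x v → i ∉ Pal U x)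
    (h2 : ∀ᶠ x in 𝓝 g, dist x v < 1 → i ∉ Pal U x) : False := by
  obtain ⟨x, ⟨hx1, hx2, hx3⟩, hne⟩ := exists_off (h.isOpen i) (z := v) hi (h1.and h2)
  rcases lt_or_gt_of_ne hne with h4 | h4
  · exact hx3 h4 (subset_closure hx1)
  · exact hx2 h4 (subset_closure hx1)

/-! ### Two centres, any point -/

/-- two centres `z`, `w` and the same colour of `g` -/
theorem Mx.cone_any_same824 (h : Mx U) {z w v g : ℂ} {τ σ : ℝ} {i : Fin k}
    (hg : dist g v = 1) (hig : i ∈ Pal U g)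
    (hi : ∀ᶠ t : ℝ in 𝓝[>] 0, i ∈ Pal U (hb z v τ t))
    (hi' : ∀ᶠ t : ℝ in 𝓝[>] 0, i ∈ Pal U (hb w v σ t)) :
    0 ≤ (τ * sg z v g) * (σ * sg w v g) := by
  by_contra hcon
  push Not at hcon
  rcases mul_neg_iff.1 hcon with ⟨h1, h2⟩ | ⟨h1, h2⟩
  · exact h.excl_col824 hig (h.cone_out824 hg h2 hi') (h.cone_in824 hg h1 hi)
  · exact h.excl_col824 hig (h.cone_out824 hg h1 hi) (h.cone_in824 hg h2 hi')

/-- two centres `z`, `w` and the two colours of `g` -/
theorem Irr.cone_any_diff824 (h : Irr U T) {z w v g : ℂ} {τ σ : ℝ} {i j : Fin k}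
    (hg : dist g v = 1) (hT : T g ⊆ {i, j})
    (hi : ∀ᶠ t : ℝ in 𝓝[>] 0, i ∈ Pal U (hb z v τ t))
    (hj : ∀ᶠ t : ℝ in 𝓝[>] 0, j ∈ Pal U (hb w v σ t)) :
    (τ * sg z v g) * (σ * sg w v g) ≤ 0 := by
  by_contra hcon
  push Not at hcon
  rcases mul_pos_iff.1 hcon with ⟨h1, h2⟩ | ⟨h1, h2⟩
  · exact h.excl_in824 hg hT (h.mx.cone_in824 hg h1 hi) (h.mx.cone_in824 hg h2 hj)
  · exact h.excl_out824 hg hT (h.mx.cone_out824 hg h1 hi) (h.mx.cone_out824 hg h2 hj)

/-! ### Two-pair points, colours which are only frequently present -/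

/-- the inner colour of an exact arc, from the colour of a half branch -/
theorem Irr.cone_sd824 (h : Irr U T) {z v g : ℂ} {a b c d : Fin k} {τ : ℝ} (hv : DPt T v a b c d)
    (hg : dist g v = 1) (hT : T g = {a, b})
    (hfr : ∃ᶠ t : ℝ in 𝓝[>] 0, a ∈ Pal U (hb z v τ t)) :
    (τ * sg z v g < 0 → Sd U v g a b) ∧ (0 < τ * sg z v g → Sd U v g b a) := by
  have hA : Arc T v g {a, b} :=
    h.arc_of_eq hv.ab (by rw [hv.pal]; simp) (by rw [hv.pal]; simp) hg hT
  constructor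
  · intro hs
    rcases h.sides hv hg with h1 | h1
    · exact h1
    · obtain ⟨t, ht1, ht2⟩ := (hfr.and_eventually
        ((h.germ_sd (z := z) (by rw [pair_comm]; exact hA) h1).1 τ hs)).exists
      exact absurd ht1 ht2
  · intro hs
    rcases h.sides hv hg with h1 | h1
    · obtain ⟨t, ht1, ht2⟩ := (hfr.and_eventually ((h.germ_sd (z := z) hA h1).2 τ hs)).exists
      exact absurd ht1 ht2
    · exact h1

/-- two centres `z`, `w` and the same colour of a pair of the two-pair point `v` -/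
theorem Irr.cone_two_same824 (h : Irr U T) {z w v g : ℂ} {a b c d : Fin k} {τ σ : ℝ}
    (hv : DPt T v a b c d) (hg : dist g v = 1) (hT : T g = {a, b})
    (h1 : ∃ᶠ t : ℝ in 𝓝[>] 0, a ∈ Pal U (hb z v τ t))
    (h2 : ∃ᶠ t : ℝ in 𝓝[>] 0, a ∈ Pal U (hb w v σ t)) :
    0 ≤ (τ * sg z v g) * (σ * sg w v g) := by
  have ha : a ∈ T g := by rw [hT]; simp
  have k1 := h.cone_sd824 hv hg hT h1
  have k2 := h.cone_sd824 hv hg hT h2
  by_contra hcon
  push Not at hcon
  rcases mul_neg_iff.1 hcon with ⟨h3, h4⟩ | ⟨h3, h4⟩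
  · exact h.sd_unique ha (k2.1 h4) (k1.2 h3)
  · exact h.sd_unique ha (k1.1 h3) (k2.2 h4)

/-- two centres `z`, `w` and the two colours of a pair of the two-pair point `v` -/
theorem Irr.cone_two_diff824 (h : Irr U T) {z w v g : ℂ} {a b c d : Fin k} {τ σ : ℝ}
    (hv : DPt T v a b c d) (hg : dist g v = 1) (hT : T g = {a, b})
    (h1 : ∃ᶠ t : ℝ in 𝓝[>] 0, a ∈ Pal U (hb z v τ t))
    (h2 : ∃ᶠ t : ℝ in 𝓝[>] 0, b ∈ Pal U (hb w v σ t)) :
    (τ * sg z v g) * (σ * sg w v g) ≤ 0 := by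
  have ha : a ∈ T g := by rw [hT]; simp
  have k1 := h.cone_sd824 hv hg hT h1
  have k2 := h.cone_sd824 hv.swap12 hg (by rw [hT, pair_comm]) h2
  by_contra hcon
  push Not at hcon
  rcases mul_pos_iff.1 hcon with ⟨h3, h4⟩ | ⟨h3, h4⟩
  · exact h.sd_unique ha (k2.2 h4) (k1.2 h3)
  · exact h.sd_unique ha (k1.1 h3) (k2.1 h4)

end Vale.Agent.P032.Six
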