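import Vale.Agent.P032.H383.Loc
import Vale.Agent.P032.S5.H585.Pinch

/-!
# P032, helper824: the partner of a plain end of `S(V)` on the circle about a harmless point

`V` any point, `y` a harmless point at distance one, `w` a point of `S(V)`, `w ≠ y`, `w + y ≠ 2 V`;
`x = w + y - V` is the fourth corner of the rhombus `V, w, x, y`, a point of `S(y)`.

* `part_set824` : for `w` in the closure of the exact `P`-points of `S(V)` the palette of `x` contains a
  nonempty set `S` without colours of `P` which is not inside `T y` or contains the arc pair of `y`;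
* `four_of_two824` : if `T w = {p, q, r}`, `p, q` in `T x` and `r` in `T V`, then `4 ≤ |T x|`;
* `Irr.partner_i824`, `Irr.partner_ii824` : `T w = {c, d, l}`, `w` a limit of exact `{c, d}`-points and of
  `{l}`-points of `S(V)`: `4 ≤ |T x|`.
-/

open Set Filter Topology Metric

noncomputable section

namespace Vale.Agent.P032.Six

open Vale.Agent.P032.S5.H767 Vale.Agent.P032.H383

variable {U : Fin 6 → Set ℂ} {T : ℂ → Set (Fin 6)} {V y w : ℂ} {a b c d l p q r : Fin 6}
  {A P : Set (Fin 6)}

/-- the points of a circle with one colour are near such a point all points -/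
theorem ex_single824 (h : Irr U T) (hw : dist w V = 1) (hT : T w = {l}) : w ∈ Ex T V {l} := by
  refine ⟨hw, mem_nhdsWithin_of_mem_nhds ?_⟩
  filter_upwards [h.nhd w] with x hx
  rw [hT] at hx
  obtain ⟨i, hi⟩ := h.ne x
  have h1 : i = l := hx hi
  exact Subset.antisymm hx (by rintro j rfl; exact h1 ▸ hi)

/-- the exact points of a pair of a two-pair point are an open set of the circle -/
theorem ex_pair824 (h : Irr U T) (hV : DPt T V a b c d) (hw : dist w V = 1) (hT : T w = {c, d}) :
    w ∈ Ex T V {c, d} := by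
  refine ⟨hw, ?_⟩
  have h1 := XA_open h hV.swap (x := w) ⟨hw, hT⟩
  filter_upwards [mem_nhdsWithin_of_mem_nhds h1, self_mem_nhdsWithin] with x hx hx'
  exact (hx hx').2

/-- closures of exact points, single colour -/
theorem cl_single824 (h : Irr U T) (hw : w ∈ closure {x | dist x V = 1 ∧ T x = {l}}) :
    w ∈ closure (Ex T V {l}) :=
  closure_mono (fun _ hx => ex_single824 h hx.1 hx.2) hw

/-- closures of exact points, pair of a two-pair point -/
theorem cl_pair824 (h : Irr U T) (hV : DPt T V a b c d)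
    (hw : w ∈ closure {x | dist x V = 1 ∧ T x = {c, d}}) : w ∈ closure (Ex T V {c, d}) :=
  closure_mono (fun _ hx => ex_pair824 h hV hx.1 hx.2) hw

/-- **product rule** at an exact point -/
theorem part_free824 (h : Irr U T) (hyV : dist y V = 1) (hw : w ∈ Ex T V P) (h1 : w ≠ y)
    (h2 : w + y ≠ 2 * V) : ∀ i ∈ P, i ∉ T (w + y - V) := by
  intro i hi hi'
  refine line_free h (v := w + y - V) hw.1 ?_ ?_ ?_ ?_ (h.sub _ hi')
  · filter_upwards [hw.2] with x hx
    rw [hx]; exact hi
  · rw [dist_eq_norm, show w - (w + y - V) = -(y - V) by ring, norm_neg, ← dist_eq_norm]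
    exact hyV
  · intro h3
    exact h2 (by linear_combination h3)
  · intro h3
    exact h1 (by linear_combination -h3)

/-- the partners of the exact points near a limit point -/
theorem part_set824 (h : Irr U T) (hy : Harm T y A) (hyV : dist y V = 1)
    (hw : w ∈ closure (Ex T V P)) (h1 : w ≠ y) (h2 : w + y ≠ 2 * V) :
    ∃ S ⊆ T (w + y - V), S.Nonempty ∧ (∀ i ∈ P, i ∉ S) ∧ (S ⊆ T y → A ⊆ S) := by
  have hc : Continuous fun x : ℂ => x + y - V := by fun_prop
  have e1 : ∀ᶠ x in 𝓝 w, T (x + y - V) ⊆ T (w + y - V) := (hc.tendsto w).eventually (h.nhd _)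
  have e2 : ∀ᶠ x in 𝓝 w, x ≠ y := isOpen_ne.mem_nhds h1
  have e3 : ∀ᶠ x in 𝓝 w, x + y ≠ 2 * V :=
    (isOpen_ne_fun (by fun_prop) (by fun_prop)).mem_nhds h2
  obtain ⟨x, hx, k1, k2, k3⟩ :=
    ((mem_closure_iff_frequently.1 hw).and_eventually (e1.and (e2.and e3))).exists
  refine ⟨T (x + y - V), k1, h.ne _, part_free824 h hyV hx k2 k3, fun hS => ?_⟩
  refine hy.h1 _ ?_ hS
  rw [dist_eq_norm, show x + y - V - y = x - V by ring, ← dist_eq_norm]
  exact hx.1

/-- two common colours, the third colour at the centre: four colours -/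
theorem four_of_two824 (h : Irr U T) (hyV : dist y V = 1) (hwV : dist w V = 1) (h1 : w ≠ y)
    (h2 : w + y ≠ 2 * V) (hT : T w ⊆ {p, q, r}) (hp : p ∈ T (w + y - V)) (hq : q ∈ T (w + y - V))
    (hr : r ∈ T V) : 4 ≤ (T (w + y - V)).ncard := by
  by_contra hcon
  have h3 : T w ⊆ insert r (T (w + y - V)) := by
    intro i hi
    rcases hT hi with rfl | rfl | hi'
    · exact Or.inr hp
    · exact Or.inr hq
    · rw [mem_singleton_iff] at hi'
      exact Or.inl hi'
  have h4 : dist w (w + y - V) = 1 := by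
    rw [dist_eq_norm, show w - (w + y - V) = -(y - V) by ring, norm_neg, ← dist_eq_norm]
    exact hyV
  rcases h.lemmaX (v := V) h4 (by omega) h3 hwV (h.sub _ hr) with h5 | h5
  · exact h2 (by linear_combination -h5)
  · exact h1 (by linear_combination -h5)

/-- **The partner of an end, case (i)**: the arc pair of `y` contains `c`, the free colours of `y` are
`d` and `l` -/
theorem Irr.partner_i824 (h : Irr U T) (hy : Harm T y A) (hyV : dist y V = 1) (hc : c ∈ A)
    (hTy : ∀ i, i ∉ T y → i = d ∨ i = l) (hcV : c ∈ T V) (hdV : d ∈ T V)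
    (hw : T w ⊆ {c, d, l}) (hw1 : w ∈ closure (Ex T V {c, d})) (hw2 : w ∈ closure (Ex T V {l}))
    (h1 : w ≠ y) (h2 : w + y ≠ 2 * V) : 4 ≤ (T (w + y - V)).ncard := by
  have hwV := dist_of_closure hw1
  obtain ⟨S, s1, s2, s3, s4⟩ := part_set824 h hy hyV hw1 h1 h2
  obtain ⟨S', r1, r2, r3, r4⟩ := part_set824 h hy hyV hw2 h1 h2
  have hl : l ∈ T (w + y - V) := by
    have k1 : ¬ S ⊆ T y := fun hS => s3 c (by simp) (s4 hS hc)
    obtain ⟨i, hi, hi'⟩ := not_subset.1 k1
    rcases hTy i hi' with rfl | rfl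
    · exact absurd hi (s3 i (by simp))
    · exact s1 hi
  by_cases hS : S' ⊆ T y
  · have hc' : c ∈ T (w + y - V) := r1 (r4 hS hc)
    refine four_of_two824 h hyV hwV h1 h2 (p := c) (q := l) (r := d) ?_ hc' hl hdV
    intro i hi
    rcases hw hi with rfl | rfl | hi'
    · simp
    · simp
    · rw [mem_singleton_iff] at hi'
      simp [hi']
  · obtain ⟨i, hi, hi'⟩ := not_subset.1 hS
    rcases hTy i hi' with rfl | rfl
    · refine four_of_two824 h hyV hwV h1 h2 (p := i) (q := l) (r := c) ?_ (r1 hi) hl hcV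
      intro j hj
      rcases hw hj with rfl | rfl | hj'
      · simp
      · simp
      · rw [mem_singleton_iff] at hj'
        simp [hj']
    · exact absurd hi (r3 i rfl)

/-- **The partner of an end, cases (ii), (iii)**: the free colours of `y` are `c` and `d`, the colour
`l` is in the arc pair of `y` -/
theorem Irr.partner_ii824 (h : Irr U T) (hy : Harm T y A) (hyV : dist y V = 1) (hl : l ∈ A)
    (hTy : ∀ i, i ∉ T y → i = c ∨ i = d) (hcV : c ∈ T V) (hdV : d ∈ T V)
    (hw : T w ⊆ {c, d, l}) (hw1 : w ∈ closure (Ex T V {c, d})) (hw2 : w ∈ closure (Ex T V {l}))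
    (h1 : w ≠ y) (h2 : w + y ≠ 2 * V) : 4 ≤ (T (w + y - V)).ncard := by
  have hwV := dist_of_closure hw1
  obtain ⟨S, s1, s2, s3, s4⟩ := part_set824 h hy hyV hw1 h1 h2
  obtain ⟨S', r1, r2, r3, r4⟩ := part_set824 h hy hyV hw2 h1 h2
  have hl' : l ∈ T (w + y - V) := by
    have k1 : S ⊆ T y := by
      intro i hi
      by_contra hcon
      rcases hTy i hcon with rfl | rfl
      · exact s3 i (by simp) hi
      · exact s3 i (by simp) hi
    exact s1 (s4 k1 hl)
  have k2 : ¬ S' ⊆ T y := fun hS => r3 l rfl (r4 hS hl)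
  obtain ⟨i, hi, hi'⟩ := not_subset.1 k2
  rcases hTy i hi' with rfl | rfl
  · refine four_of_two824 h hyV hwV h1 h2 (p := i) (q := l) (r := d) ?_ (r1 hi) hl' hdV
    intro j hj
    rcases hw hj with rfl | rfl | hj'
    · simp
    · simp
    · rw [mem_singleton_iff] at hj'
      simp [hj']
  · refine four_of_two824 h hyV hwV h1 h2 (p := i) (q := l) (r := c) ?_ (r1 hi) hl' hcV
    intro j hj
    rcases hw hj with rfl | rfl | hj'
    · simp
    · simp
    · rw [mem_singleton_iff] at hj'
      simp [hj']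

end Vale.Agent.P032.Six
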