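import Vale.Agent.P032.H273.TriNorm
import Vale.Agent.P032.H703.Mix
import Vale.Agent.P032.H492.Mix2
import Vale.Agent.P032.H353.HM

/-!
# P032, row T of row M: unit triangles

A unit triangle of three two-pair points, one of them an `Md98` point.  By `tri_norm273` all three are
`Md98` points with the palettes `P + Q`, `P + R`, `Q + R`.  A vertex is pure if its pairs are its two
common pairs with the others, otherwise mixed.  Two pure vertices: `h_apex`, `HS353.false`
(`Tri824.link`).  One pure vertex: `two492`.  No pure vertex: `mix703`.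
-/

open Set Filter Topology Metric

noncomputable section

namespace Vale.Agent.P032.H824

open Vale.Agent.P032.Six Vale.Agent.P032.S5.H767 Vale.Agent.P032.H383 Vale.Agent.P032.H800
open Vale.Agent.P032.H98 Vale.Agent.P032.H273

variable {U : Fin 6 → Set ℂ} {T : ℂ → Set (Fin 6)} {V z y1 y2 : ℂ}
  {a b c d e f p q r s x y u v : Fin 6}

/-- six different colours, as inequalities -/
def Six824 (a b c d e f : Fin 6) : Prop :=
  ((a ≠ b ∧ a ≠ c ∧ a ≠ d ∧ a ≠ e ∧ a ≠ f) ∧ (b ≠ c ∧ b ≠ d ∧ b ≠ e ∧ b ≠ f) ∧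
    (c ≠ d ∧ c ≠ e ∧ c ≠ f) ∧ (d ≠ e ∧ d ≠ f) ∧ e ≠ f)

theorem Six824.nd (h : Six824 a b c d e f) : [a, b, c, d, e, f].Nodup := by
  simp only [List.nodup_cons, List.mem_cons, List.not_mem_nil, or_false, not_or, List.nodup_nil,
    and_true, not_false_eq_true]
  exact h

theorem Six824.of_nd (h : [a, b, c, d, e, f].Nodup) : Six824 a b c d e f := by
  simp only [List.nodup_cons, List.mem_cons, List.not_mem_nil, or_false, not_or, List.nodup_nil,
    and_true, not_false_eq_true] at h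
  exact h

/-- exchange of the second and the third colour -/
theorem Six824.s23 (h : Six824 a b c d e f) : Six824 a c b d e f := by
  obtain ⟨⟨ab, ac, ad, ae, af⟩, ⟨bc, bd, be, bf⟩, ⟨cd, ce, cf⟩, ⟨de, df⟩, ef⟩ := h
  exact ⟨⟨ac, ab, ad, ae, af⟩, ⟨bc.symm, cd, ce, cf⟩, ⟨bd, be, bf⟩, ⟨de, df⟩, ef⟩

theorem Six824.s34 (h : Six824 a b c d e f) : Six824 a b d c e f := by
  obtain ⟨⟨ab, ac, ad, ae, af⟩, ⟨bc, bd, be, bf⟩, ⟨cd, ce, cf⟩, ⟨de, df⟩, ef⟩ := h
  exact ⟨⟨ab, ad, ac, ae, af⟩, ⟨bd, bc, be, bf⟩, ⟨cd.symm, de, df⟩, ⟨ce, cf⟩, ef⟩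

/-- exchange of the first and the second pair -/
theorem Six824.p12 (h : Six824 a b c d e f) : Six824 c d a b e f := by
  obtain ⟨⟨ab, ac, ad, ae, af⟩, ⟨bc, bd, be, bf⟩, ⟨cd, ce, cf⟩, ⟨de, df⟩, ef⟩ := h
  exact ⟨⟨cd, ac.symm, bc.symm, ce, cf⟩, ⟨ad.symm, bd.symm, de, df⟩, ⟨ab, ae, af⟩, ⟨be, bf⟩, ef⟩

/-- exchange of the second and the third pair -/
theorem Six824.p23 (h : Six824 a b c d e f) : Six824 a b e f c d := by
  obtain ⟨⟨ab, ac, ad, ae, af⟩, ⟨bc, bd, be, bf⟩, ⟨cd, ce, cf⟩, ⟨de, df⟩, ef⟩ := h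
  exact ⟨⟨ab, ae, af, ac, ad⟩, ⟨be, bf, bc, bd⟩, ⟨ef, ce.symm, de.symm⟩, ⟨cf.symm, df.symm⟩, cd⟩

/-- **the pairing of four colours** -/
theorem pairing824 (hD : DPt T z p q r s) (hT : T z = {x, y, u, v}) :
    DPt T z x y u v ∨ DPt T z x u y v ∨ DPt T z x v y u := by
  -- the first colour is `x`
  have h1 : ∃ q r s, DPt T z x q r s := by
    have hx : x ∈ T z := by rw [hT]; simp
    rw [hD.pal] at hx
    rcases hx with h | h | h | h
    · subst h; exact ⟨_, _, _, hD⟩
    · subst h; exact ⟨_, _, _, hD.swap12⟩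
    · subst h; exact ⟨_, _, _, hD.swap⟩
    · rw [mem_singleton_iff] at h
      subst h; exact ⟨_, _, _, hD.swap.swap12⟩
  obtain ⟨q, r, s, hD⟩ := h1
  have hq : q ∈ T z := by rw [hD.pal]; simp
  have hr : r ∈ T z := by rw [hD.pal]; simp
  have hs : s ∈ T z := by rw [hD.pal]; simp
  have k1 := hD.ab
  have k2 := hD.ac
  have k3 := hD.ad
  have k4 := hD.bc
  have k5 := hD.bd
  have k6 := hD.cd
  rw [hT] at hq hr hs
  simp only [mem_insert_iff, mem_singleton_iff] at hq hr hs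
  rcases hq with h | h | h | h
  · exact absurd h.symm k1
  · subst h
    rcases hr with h | h | h | h
    · exact absurd h.symm k2
    · exact absurd h.symm k4
    · subst h
      rcases hs with h | h | h | h
      · exact absurd h.symm k3
      · exact absurd h.symm k5
      · exact absurd h.symm k6
      · subst h; exact Or.inl hD
    · subst h
      rcases hs with h | h | h | h
      · exact absurd h.symm k3
      · exact absurd h.symm k5
      · subst h; exact Or.inl hD.swap34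
      · exact absurd h.symm k6
  · subst h
    rcases hr with h | h | h | h
    · exact absurd h.symm k2
    · subst h
      rcases hs with h | h | h | h
      · exact absurd h.symm k3
      · exact absurd h.symm k6
      · exact absurd h.symm k5
      · subst h; exact Or.inr (Or.inl hD)
    · exact absurd h.symm k4
    · subst h
      rcases hs with h | h | h | h
      · exact absurd h.symm k3
      · subst h; exact Or.inr (Or.inl hD.swap34)
      · exact absurd h.symm k5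
      · exact absurd h.symm k6
  · subst h
    rcases hr with h | h | h | h
    · exact absurd h.symm k2
    · subst h
      rcases hs with h | h | h | h
      · exact absurd h.symm k3
      · exact absurd h.symm k6
      · subst h; exact Or.inr (Or.inr hD)
      · exact absurd h.symm k5
    · subst h
      rcases hs with h | h | h | h
      · exact absurd h.symm k3
      · subst h; exact Or.inr (Or.inr hD.swap34)
      · exact absurd h.symm k6
      · exact absurd h.symm k5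
    · exact absurd h.symm k4

/-- a unit triangle of two-pair points, the first one an M point -/
structure Tri824 (U : Fin 6 → Set ℂ) (T : ℂ → Set (Fin 6)) (V y1 y2 : ℂ) : Prop where
  xc : XC U T
  md : ∃ a b c d e f, Md98 T V a b c d e f
  d1 : dist y1 V = 1
  d2 : dist y2 V = 1
  d12 : dist y1 y2 = 1
  t1 : ∃ p q r s, DPt T y1 p q r s
  t2 : ∃ p q r s, DPt T y2 p q r s

namespace Tri824

theorem swap (t : Tri824 U T V y1 y2) : Tri824 U T V y2 y1 :=
  ⟨t.xc, t.md, t.d2, t.d1, by rw [dist_comm]; exact t.d12, t.t2, t.t1⟩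

/-- the centre `y1` -/
theorem rot (t : Tri824 U T V y1 y2) : Tri824 U T y1 V y2 := by
  obtain ⟨a, b, c, d, e, f, M⟩ := t.md
  obtain ⟨p, q, r, s, h1⟩ := t.t1
  obtain ⟨p2, q2, r2, s2, h2⟩ := t.t2
  obtain ⟨⟨e', f', M1⟩, -⟩ := tri_norm273 t.xc M t.d1 t.d2 t.d12 h1 h2
  exact ⟨t.xc, ⟨_, _, _, _, _, _, M1⟩, by rw [dist_comm]; exact t.d1,
    by rw [dist_comm]; exact t.d12, by rw [dist_comm]; exact t.d2, ⟨_, _, _, _, M.dpt⟩,
    ⟨_, _, _, _, h2⟩⟩

theorem ne12 (t : Tri824 U T V y1 y2) : y1 ≠ y2 := by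
  intro h
  have := t.d12
  rw [h, dist_self] at this
  norm_num at this

theorem ne_anti (t : Tri824 U T V y1 y2) : y1 + y2 ≠ 2 * V := by
  intro h
  have h3 : dist y1 y2 = 2 * dist y1 V := by
    rw [dist_eq_norm, dist_eq_norm, show y1 - y2 = 2 * (y1 - V) by linear_combination - h,
      norm_mul]
    norm_num
  rw [t.d12, t.d1] at h3
  norm_num at h3

/-- the third point of order at least four does not exist -/
theorem three (t : Tri824 U T V y1 y2) {x : ℂ} (hx : dist x V = 1) (h1 : x ≠ y1) (h2 : x ≠ y2) :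
    (T x).ncard ≤ 3 := by
  by_contra hcon
  obtain ⟨a, b, c, d, e, f, M⟩ := t.md
  obtain ⟨p, q, r, s, k1⟩ := t.t1
  obtain ⟨p2, q2, r2, s2, k2⟩ := t.t2
  rcases t.xc.n3 V y1 y2 x M.dpt.ncard.ge t.d1 t.d2 hx k1.ncard.ge k2.ncard.ge (by omega)
    with h3 | h3 | h3
  · exact t.ne12 h3
  · exact h1 h3.symm
  · exact h2 h3.symm

/-- the outer apex of `V` and `y1` -/
theorem apex (t : Tri824 U T V y1 y2) : dist (V + y1 - y2) V = 1 ∧ dist (V + y1 - y2) y1 = 1 ∧
    (T (V + y1 - y2)).ncard ≤ 3 := by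
  have h1 : dist (V + y1 - y2) V = 1 := by
    rw [dist_eq_norm, show V + y1 - y2 - V = y1 - y2 by ring, ← dist_eq_norm]; exact t.d12
  have h2 : dist (V + y1 - y2) y1 = 1 := by
    rw [dist_eq_norm, show V + y1 - y2 - y1 = V - y2 by ring, ← dist_eq_norm, dist_comm]
    exact t.d2
  refine ⟨h1, h2, t.three h1 ?_ ?_⟩
  · intro h
    have h3 : V = y2 := by linear_combination h
    have := t.d2
    rw [h3, dist_self] at this
    norm_num at this
  · intro h
    exact t.swap.rot.ne_anti (by linear_combination h)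

/-- the centre is an M point, in all names -/
theorem isM (t : Tri824 U T V y1 y2) (hV : DPt T V a b c d) : IsM273 T V a b c d := by
  obtain ⟨a', b', c', d', e, f, M⟩ := t.rot.md
  obtain ⟨p2, q2, r2, s2, h2⟩ := t.t2
  exact (tri_norm273 t.xc M t.rot.d1 t.rot.d2 t.rot.d12 hV h2).1

/-- the colours outside the centre -/
theorem out (t : Tri824 U T V y1 y2) {i : Fin 6} (hi : i ∉ T V) : i ∈ T y1 ∧ i ∈ T y2 := by
  obtain ⟨a, b, c, d, e, f, M⟩ := t.md
  obtain ⟨p, q, r, s, h1⟩ := t.t1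
  obtain ⟨p2, q2, r2, s2, h2⟩ := t.t2
  exact (tri_norm273 t.xc M t.d1 t.d2 t.d12 h1 h2).2.2.1 i hi

end Tri824

/-- two colours outside a set of four colours -/
theorem two_compl824 {S : Set (Fin 6)} (hS : S.ncard = 4) : ∃ x y, x ≠ y ∧ Sᶜ = {x, y} := by
  apply Set.ncard_eq_two.1
  have h1 := Set.ncard_add_ncard_compl S
  rw [hS, Nat.card_eq_fintype_card, Fintype.card_fin] at h1
  omega

theorem four_eq824 {S : Set (Fin 6)} (hS : S.ncard ≤ 4) (h1 : x ∈ S) (h2 : y ∈ S) (h3 : u ∈ S)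
    (h4 : v ∈ S) (xy : x ≠ y) (xu : x ≠ u) (xv : x ≠ v) (yu : y ≠ u) (yv : y ≠ v) (uv : u ≠ v) :
    S = {x, y, u, v} := by
  symm
  refine Set.eq_of_subset_of_ncard_le ?_ ?_ (Set.toFinite _)
  · rintro i (rfl | rfl | rfl | rfl) <;> assumption
  · rw [Set.ncard_insert_of_notMem, Set.ncard_insert_of_notMem, Set.ncard_pair uv]
    · exact hS
    · simp only [mem_insert_iff, mem_singleton_iff, not_or]; exact ⟨yu, yv⟩
    · simp only [mem_insert_iff, mem_singleton_iff, not_or]; exact ⟨xy, xu, xv⟩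

/-- **the names** : `T V = P + Q`, `T y1 = P + R`, `T y2 = Q + R` -/
theorem Tri824.names (t : Tri824 U T V y1 y2) : ∃ a b c d e f, Six824 a b c d e f ∧
    T V = {a, b, c, d} ∧ T y1 = {a, b, e, f} ∧ T y2 = {c, d, e, f} := by
  obtain ⟨p0, q0, r0, s0, e0, f0, M⟩ := t.md
  obtain ⟨p1, q1, r1, s1, h1⟩ := t.t1
  obtain ⟨p2, q2, r2, s2, h2⟩ := t.t2
  have hV4 := M.dpt.ncard
  have h14 := h1.ncard
  have h24 := h2.ncard
  obtain ⟨e, f, ef, hR⟩ := two_compl824 hV4
  obtain ⟨c, d, cd, hQ⟩ := two_compl824 h14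
  obtain ⟨a, b, ab, hP⟩ := two_compl824 h24
  have eV : e ∉ T V := by
    have : e ∈ (T V)ᶜ := by rw [hR]; simp
    exact this
  have fV : f ∉ T V := by
    have : f ∈ (T V)ᶜ := by rw [hR]; simp
    exact this
  have c1 : c ∉ T y1 := by
    have : c ∈ (T y1)ᶜ := by rw [hQ]; simp
    exact this
  have d1 : d ∉ T y1 := by
    have : d ∈ (T y1)ᶜ := by rw [hQ]; simp
    exact this
  have a2 : a ∉ T y2 := by
    have : a ∈ (T y2)ᶜ := by rw [hP]; simp
    exact this
  have b2 : b ∉ T y2 := by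
    have : b ∈ (T y2)ᶜ := by rw [hP]; simp
    exact this
  obtain ⟨e1, e2⟩ := t.out eV
  obtain ⟨f1, f2⟩ := t.out fV
  obtain ⟨cV, c2⟩ := t.rot.out c1
  obtain ⟨dV, d2⟩ := t.rot.out d1
  obtain ⟨aV, a1⟩ := t.swap.rot.out a2
  obtain ⟨bV, b1⟩ := t.swap.rot.out b2
  have hS : Six824 a b c d e f :=
    ⟨⟨ab, fun h => a2 (h ▸ c2), fun h => a2 (h ▸ d2), fun h => a2 (h ▸ e2), fun h => a2 (h ▸ f2)⟩,
      ⟨fun h => b2 (h ▸ c2), fun h => b2 (h ▸ d2), fun h => b2 (h ▸ e2), fun h => b2 (h ▸ f2)⟩,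
      ⟨cd, fun h => c1 (h ▸ e1), fun h => c1 (h ▸ f1)⟩,
      ⟨fun h => d1 (h ▸ e1), fun h => d1 (h ▸ f1)⟩, ef⟩
  refine ⟨a, b, c, d, e, f, hS, ?_, ?_, ?_⟩
  · exact four_eq824 hV4.le aV bV cV dV hS.1.1 hS.1.2.1 hS.1.2.2.1 hS.2.1.1 hS.2.1.2.1 hS.2.2.1.1
  · exact four_eq824 h14.le a1 b1 e1 f1 hS.1.1 hS.1.2.2.2.1 hS.1.2.2.2.2 hS.2.1.2.2.1
      hS.2.1.2.2.2 hS.2.2.2.2
  · exact four_eq824 h24.le c2 d2 e2 f2 hS.2.2.1.1 hS.2.2.1.2.1 hS.2.2.1.2.2 hS.2.2.2.1.1
      hS.2.2.2.1.2 hS.2.2.2.2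

/-- `HS353.false` at an M point, the two free colours in any order -/
theorem hs824 {V y w : ℂ} (X : XC U T) (hS : Six824 a b c d e f) (mV : IsM273 T V a b c d)
    (hy : DPt T y a b e f) (hyV : dist y V = 1) (hwV : dist w V = 1)
    (hw : w ∈ closure (Ex T y {e, f})) : False := by
  obtain ⟨e', f', M⟩ := mV
  obtain ⟨⟨ab, ac, ad, ae, af⟩, ⟨bc, bd, be, bf⟩, ⟨cd, ce, cf⟩, ⟨de, df⟩, ef⟩ := hS
  obtain ⟨⟨ab', ac', ad', ae', af'⟩, ⟨bc', bd', be', bf'⟩, ⟨cd', ce', cf'⟩, ⟨de', df'⟩, ef'⟩ :=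
    nd_all353 M.nd
  have hA : ∀ x ∈ closure (Ex T V {a, b}), (T x).ncard ≤ 3 → f' ∉ T x := by
    intro x hx hx3
    rcases M.hA x hx hx3 with h7 | h7 <;> rw [h7] <;>
      simp only [mem_insert_iff, mem_singleton_iff, not_or]
    · exact ⟨Ne.symm af', Ne.symm bf'⟩
    · exact ⟨Ne.symm af', Ne.symm bf', Ne.symm ef'⟩
  have hC : ∀ x ∈ closure (Ex T V {c, d}), (T x).ncard ≤ 3 → f' ∉ T x := by
    intro x hx hx3
    rcases M.hC x hx hx3 with h7 | h7 <;> rw [h7] <;>
      simp only [mem_insert_iff, mem_singleton_iff, not_or]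
    · exact ⟨Ne.symm cf', Ne.symm df'⟩
    · exact ⟨Ne.symm cf', Ne.symm df', Ne.symm ef'⟩
  have key : (e = e' ∧ f = f') ∨ (e = f' ∧ f = e') := by
    have h1 : e = e' ∨ e = f' := by
      rcases M.all X e with h | h | h | h | h | h
      · exact absurd h.symm ae
      · exact absurd h.symm be
      · exact absurd h.symm ce
      · exact absurd h.symm de
      · exact Or.inl h
      · exact Or.inr h
    have h2 : f = e' ∨ f = f' := by
      rcases M.all X f with h | h | h | h | h | h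
      · exact absurd h.symm af
      · exact absurd h.symm bf
      · exact absurd h.symm cf
      · exact absurd h.symm df
      · exact Or.inl h
      · exact Or.inr h
    rcases h1 with h1 | h1 <;> rcases h2 with h2 | h2
    · exact absurd (h1.trans h2.symm) ef
    · exact Or.inl ⟨h1, h2⟩
    · exact Or.inr ⟨h1, h2⟩
    · exact absurd (h1.trans h2.symm) ef
  rcases key with ⟨h1, h2⟩ | ⟨h1, h2⟩
  · subst h1; subst h2
    exact H353.HS353.false (u := w) ⟨X.df.irr, X.df.mn, X.df.le4, M.dpt, hy, M.nd, hyV, hwV, hw,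
      X.n3, hA, hC⟩
  · subst h1; subst h2
    exact H353.HS353.false (u := w) ⟨X.df.irr, X.df.mn, X.df.le4, M.dpt, hy.swap34, M.nd, hyV,
      hwV, by rw [Set.pair_comm]; exact hw, X.n3, hA, hC⟩

namespace Tri824

/-- **two pure vertices** -/
theorem link (t : Tri824 U T V y1 y2) (hS : Six824 a b c d e f) (hV : DPt T V a b c d)
    (h1 : DPt T y1 a b e f) : False := by
  obtain ⟨pV, p1, p3⟩ := t.apex
  have heV : e ∉ T V := by
    rw [hV.pal]
    simp only [mem_insert_iff, mem_singleton_iff, not_or]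
    obtain ⟨⟨ab, ac, ad, ae, af⟩, ⟨bc, bd, be, bf⟩, ⟨cd, ce, cf⟩, ⟨de, df⟩, ef⟩ := hS
    exact ⟨Ne.symm ae, Ne.symm be, Ne.symm ce, Ne.symm de⟩
  have hfV : f ∉ T V := by
    rw [hV.pal]
    simp only [mem_insert_iff, mem_singleton_iff, not_or]
    obtain ⟨⟨ab, ac, ad, ae, af⟩, ⟨bc, bd, be, bf⟩, ⟨cd, ce, cf⟩, ⟨de, df⟩, ef⟩ := hS
    exact ⟨Ne.symm af, Ne.symm bf, Ne.symm cf, Ne.symm df⟩
  have dV1 : dist V y1 = 1 := t.rot.d1
  rcases H484.h_apex t.xc.df.irr hV h1 heV hfV dV1 pV p1 p3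
    with hw | hw
  · exact hs824 t.xc hS.p23 (t.rot.isM h1) hV dV1 p1 hw
  · exact hs824 t.xc hS (t.isM hV) h1 t.d1 pV hw

/-- the centre pure, the neighbours mixed -/
theorem two (t : Tri824 U T V y1 y2) (hS : Six824 a b c d e f)
    (hV : DPt T V a b c d) (h1 : DPt T y1 a e b f ∨ DPt T y1 a f b e)
    (h2 : DPt T y2 c e d f ∨ DPt T y2 c f d e) : False := by
  have hq := t.swap.apex.2.2
  exact H492.two492 t.xc.df.irr hS.nd hV h1 h2 t.d1 t.d2 t.d12 t.apex.2.2 hq

/-- all the three mixed -/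
theorem all_mixed (t : Tri824 U T V y1 y2) (hS : Six824 a b c d e f)
    (hV : DPt T V a c b d) (h1 : DPt T y1 a e b f ∨ DPt T y1 a f b e)
    (h2 : DPt T y2 c e d f ∨ DPt T y2 c f d e) : False :=
  H703.mix703 t.xc.df.irr hV hS.s23.nd t.d1 t.d2 t.ne12 t.ne_anti h1 h2

/-- **no such triangle** -/
theorem false (t : Tri824 U T V y1 y2) : False := by
  obtain ⟨a, b, c, d, e, f, hS, hV, h1, h2⟩ := t.names
  obtain ⟨a', b', c', d', e', f', M⟩ := t.md
  obtain ⟨p1, q1, r1, s1, D1⟩ := t.t1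
  obtain ⟨p2, q2, r2, s2, D2⟩ := t.t2
  have kV := pairing824 M.dpt hV
  have k1 := pairing824 D1 h1
  have k2 := pairing824 D2 h2
  rcases kV with kV | kV
  · rcases k1 with k1 | k1
    · exact t.link hS kV k1
    · rcases k2 with k2 | k2
      · exact t.swap.link hS.p12 kV.swap k2
      · exact t.two hS kV k1 k2
  · rcases k1 with k1 | k1
    · rcases k2 with k2 | k2
      · -- `y1`, `y2` pure
        exact t.rot.swap.link (a := e) (b := f) (c := a) (d := b) (e := c) (f := d)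
          hS.p23.p12 k1.swap k2.swap
      · -- `y1` pure, the others mixed
        refine t.rot.two (a := a) (b := b) (c := e) (d := f) (e := c) (f := d) hS.p23 k1 kV ?_
        rcases k2 with k2 | k2
        · exact Or.inl k2.swap12.swap34
        · exact Or.inr k2.swap.swap12.swap34
    · rcases k2 with k2 | k2
      · -- `y2` pure, the others mixed
        refine t.swap.rot.two (a := c) (b := d) (c := e) (d := f) (e := a) (f := b)
          hS.p12.p23 k2 ?_ ?_
        · rcases kV with kV | kV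
          · exact Or.inl kV.swap12.swap34
          · exact Or.inr kV.swap.swap12.swap34
        · rcases k1 with k1 | k1
          · exact Or.inl k1.swap12.swap34
          · exact Or.inr k1.swap.swap12.swap34
      · rcases kV with kV | kV
        · exact t.all_mixed hS kV k1 k2
        · exact t.all_mixed hS.s34 kV k1 (by
            rcases k2 with k2 | k2
            · exact Or.inr k2.swap
            · exact Or.inl k2.swap)

end Tri824

/-- **row T** -/
theorem rowTri824 (hH : RowHarm98) : RowTri98 := by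
  intro U T X V a b c d e f M y1 y2 d1 d2 d12 h14 h24
  have key : ∀ y, dist y V = 1 → 4 ≤ (T y).ncard → ∃ p q r s, DPt T y p q r s := by
    intro y hy h4
    rcases X.df.harm_or h4 with ⟨A, hA⟩ | h1
    · exact (hH U T X V a b c d e f M y hy A hA).elim
    · exact h1
  exact Tri824.false ⟨X, ⟨_, _, _, _, _, _, M⟩, d1, d2, d12, key y1 d1 h14, key y2 d2 h24⟩

end Vale.Agent.P032.H824
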