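import Vale.Agent.P032.H824.Cone

/-!
# P032: the zones of a two-pair point

`v` a two-pair point with the pairs `ab | cd`.  `Dir824 T v P`: the directions (modulo `π`) of the
points of `S(v)` with palette `P`.

`Zn824 U T v a b c d x1 x2 y1 y2` : modulo `π` all directions of `{a, b}` are in `(x1, x2)`, all
directions of `{c, d}` are in `(y1, y2)`, `x1 < x2 ≤ y1 < y2 ≤ x1 + π`; the ends are limits of such
directions; the sides are constant on the half circles.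

`Irr.exists_zones824` : **the zone theorem**.
`Zn824.germ1` .. `Zn824.germ4` : the germ at `v` of every unit circle `S(z)` through `v`.
`Zn824.noY`, `Zn824.noX` : the palettes inside the zones.
-/

open Set Filter Topology Metric

noncomputable section

namespace Vale.Agent.P032.Six

variable {k : ℕ} {U : Fin k → Set ℂ} {T : ℂ → Set (Fin k)}

/-- the directions modulo `π` of the points of `S(v)` with palette `P` -/
def Dir824 (T : ℂ → Set (Fin k)) (v : ℂ) (P : Set (Fin k)) : Set ℝ :=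
  {θ | T (v + cis θ) = P ∨ T (v - cis θ) = P}

theorem cis_add_pi824 (θ : ℝ) : cis (θ + Real.pi) = -cis θ := by
  apply Complex.ext
  · rw [cis_re, Real.cos_add_pi, Complex.neg_re, cis_re]
  · rw [cis_im, Real.sin_add_pi, Complex.neg_im, cis_im]

theorem cis_sub_pi824 (θ : ℝ) : cis (θ - Real.pi) = -cis θ := by
  have := cis_add_pi824 (θ - Real.pi)
  rw [sub_add_cancel] at this
  rw [this, neg_neg]

theorem Dir_add824 {v : ℂ} {P : Set (Fin k)} {θ : ℝ} (h : θ ∈ Dir824 T v P) :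
    θ + Real.pi ∈ Dir824 T v P := by
  show T (v + cis (θ + Real.pi)) = P ∨ T (v - cis (θ + Real.pi)) = P
  rw [cis_add_pi824, sub_neg_eq_add, ← sub_eq_add_neg]
  exact Or.symm h

theorem Dir_sub824 {v : ℂ} {P : Set (Fin k)} {θ : ℝ} (h : θ ∈ Dir824 T v P) :
    θ - Real.pi ∈ Dir824 T v P := by
  show T (v + cis (θ - Real.pi)) = P ∨ T (v - cis (θ - Real.pi)) = P
  rw [cis_sub_pi824, sub_neg_eq_add, ← sub_eq_add_neg]
  exact Or.symm h

theorem Dir_int824 {v : ℂ} {P : Set (Fin k)} {θ : ℝ} (h : θ ∈ Dir824 T v P) (n : ℤ) :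
    θ + n * Real.pi ∈ Dir824 T v P := by
  induction n using Int.induction_on with
  | zero => simpa using h
  | succ i ih =>
    have := Dir_add824 ih
    have e : θ + ((i : ℤ) : ℝ) * Real.pi + Real.pi = θ + (((i : ℤ) + 1 : ℤ) : ℝ) * Real.pi := by
      push_cast; ring
    rwa [e] at this
  | pred i ih =>
    have := Dir_sub824 ih
    have e : θ + ((-(i : ℤ) : ℤ) : ℝ) * Real.pi - Real.pi =
        θ + ((-(i : ℤ) - 1 : ℤ) : ℝ) * Real.pi := by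
      push_cast; ring
    rwa [e] at this

theorem dist_sub_cis824 (v : ℂ) (θ : ℝ) : dist (v - cis θ) v = 1 := by
  rw [dist_eq_norm, show v - cis θ - v = -cis θ by ring, norm_neg, norm_cis]

theorem cr_cis824 (η θ : ℝ) : cr (cis η) (cis θ) = Real.sin (θ - η) := by
  unfold cr
  rw [cis_re, cis_re, cis_im, cis_im, Real.sin_sub]; ring

/-- the direction of an exact pair inside `T v` is an open condition -/
theorem Irr.Dir_open824 (h : Irr U T) {v : ℂ} {a b : Fin k} (hab : a ≠ b) (ha : a ∈ T v)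
    (hb : b ∈ T v) : IsOpen (Dir824 T v {a, b}) := by
  rw [isOpen_iff_mem_nhds]
  have key : ∀ θ : ℝ, T (v + cis θ) = {a, b} → ∀ᶠ t in 𝓝 θ, T (v + cis t) = {a, b} := by
    intro θ hθ
    obtain ⟨η, hη, hJ⟩ := (h.arc_of_eq hab ha hb (dist_add_cis v θ) hθ).exists_eta
    filter_upwards [Metric.ball_mem_nhds θ hη] with t ht
    exact hJ t (by rwa [Metric.mem_ball, Real.dist_eq] at ht)
  rintro θ (hθ | hθ)
  · filter_upwards [key θ hθ] with t ht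
    exact Or.inl ht
  · have h1 : T (v + cis (θ + Real.pi)) = {a, b} := by
      rw [cis_add_pi824, ← sub_eq_add_neg]; exact hθ
    have h2 : Tendsto (fun t : ℝ => t + Real.pi) (𝓝 θ) (𝓝 (θ + Real.pi)) :=
      (continuous_id.add continuous_const).tendsto θ
    filter_upwards [h2.eventually (key _ h1)] with t ht
    right
    rwa [cis_add_pi824, ← sub_eq_add_neg] at ht

/-- **the sides of the pair `ab`, seen from a direction of `cd`** -/
theorem Irr.side_sign824 (h : Irr U T) {v : ℂ} {a b c d : Fin k} (hv : DPt T v a b c d) {η : ℝ}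
    (hη : η ∈ Dir824 T v {c, d}) : ∃ s : ℝ, (s = 1 ∨ s = -1) ∧ ∀ θ : ℝ,
      (0 < s * Real.sin (θ - η) → Sd U v (v + cis θ) a b) ∧
      (s * Real.sin (θ - η) < 0 → Sd U v (v + cis θ) b a) := by
  have key : ∀ η : ℝ, T (v + cis η) = {c, d} → ∃ s : ℝ, (s = 1 ∨ s = -1) ∧ ∀ θ : ℝ,
      (0 < s * Real.sin (θ - η) → Sd U v (v + cis θ) a b) ∧
      (s * Real.sin (θ - η) < 0 → Sd U v (v + cis θ) b a) := by
    intro η hη
    have hA : Arc T v (v + cis η) {c, d} :=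
      h.arc_of_eq hv.cd (by rw [hv.pal]; simp) (by rw [hv.pal]; simp) (dist_add_cis v η) hη
    have e : ∀ θ : ℝ, ip (Complex.I * (v + cis η - v)) (v + cis θ - v) = Real.sin (θ - η) := by
      intro θ
      rw [add_sub_cancel_left, add_sub_cancel_left, ip_I, cr_cis824]
    rcases h.d0 hv hA with ⟨h1, h2⟩ | ⟨h1, h2⟩
    · refine ⟨1, Or.inl rfl, fun θ => ⟨fun hs => ?_, fun hs => ?_⟩⟩
      · exact h.mx.sd_of_rays h1 h2 (dist_add_cis v θ) (by rw [e]; linarith)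
      · exact h.mx.sd_of_rays' h1 h2 (dist_add_cis v θ) (by rw [e]; linarith)
    · refine ⟨-1, Or.inr rfl, fun θ => ⟨fun hs => ?_, fun hs => ?_⟩⟩
      · exact h.mx.sd_of_rays' h1 h2 (dist_add_cis v θ) (by rw [e]; linarith)
      · exact h.mx.sd_of_rays h1 h2 (dist_add_cis v θ) (by rw [e]; linarith)
  rcases hη with hη | hη
  · exact key η hη
  · obtain ⟨s, hs, hF⟩ := key (η + Real.pi) (by rw [cis_add_pi824, ← sub_eq_add_neg]; exact hη)
    refine ⟨-s, ?_, fun θ => ?_⟩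
    · rcases hs with rfl | rfl
      · exact Or.inr rfl
      · exact Or.inl (by norm_num)
    · have e : -s * Real.sin (θ - η) = s * Real.sin (θ - (η + Real.pi)) := by
        rw [show θ - (η + Real.pi) = θ - η - Real.pi by ring, Real.sin_sub_pi]; ring
      rw [e]
      exact hF θ

/-- a direction of `ab` is not a direction of `cd` -/
theorem Irr.sin_ne824 (h : Irr U T) {v : ℂ} {a b c d : Fin k} (hv : DPt T v a b c d) {θ η : ℝ}
    (hθ : θ ∈ Dir824 T v {a, b}) (hη : η ∈ Dir824 T v {c, d}) : Real.sin (θ - η) ≠ 0 := by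
  intro h0
  have hne : ({a, b} : Set (Fin k)) ≠ {c, d} := by
    intro e
    have : a ∈ ({c, d} : Set (Fin k)) := by rw [← e]; simp
    rcases this with h1 | h1
    · exact hv.ac h1
    · exact hv.ad h1
  have hanti : ∀ V : ℂ, dist V v = 1 → T V = {a, b} → T (2 * v - V) = {c, d} → False := by
    intro V hV h1 h2
    exact h.anti hv hV (h.sub _ (by rw [h1]; simp)) (h.sub _ (by rw [h1]; simp))
      (h.sub _ (by rw [h2]; simp)) (h.sub _ (by rw [h2]; simp))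
  rw [← cr_cis824] at h0
  rcases cr_zero (norm_cis η) (norm_cis θ) h0 with h1 | h1
  · rw [Dir824, mem_ofPred_eq, ← h1] at hθ
    rcases hθ with hθ | hθ <;> rcases hη with hη | hη
    · exact hne (hθ.symm.trans hη)
    · exact hanti _ (dist_add_cis v η) hθ (by
        rw [show 2 * v - (v + cis η) = v - cis η by ring]; exact hη)
    · exact hanti _ (dist_sub_cis824 v η) hθ (by
        rw [show 2 * v - (v - cis η) = v + cis η by ring]; exact hη)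
    · exact hne (hθ.symm.trans hη)
  · have h2 : cis θ = -cis η := by rw [h1, neg_neg]
    rw [Dir824, mem_ofPred_eq, h2, ← sub_eq_add_neg, sub_neg_eq_add] at hθ
    rcases hθ with hθ | hθ <;> rcases hη with hη | hη
    · exact hanti _ (dist_sub_cis824 v η) hθ (by
        rw [show 2 * v - (v - cis η) = v + cis η by ring]; exact hη)
    · exact hne (hθ.symm.trans hη)
    · exact hne (hθ.symm.trans hη)
    · exact hanti _ (dist_add_cis v η) hθ (by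
        rw [show 2 * v - (v + cis η) = v - cis η by ring]; exact hη)

/-- the sign of a direction of `ab` is the same from two directions of `cd` -/
theorem Irr.sign_eq824 (h : Irr U T) {v : ℂ} {a b c d : Fin k} (hv : DPt T v a b c d)
    {θ η η' s s' : ℝ} (hθ : θ ∈ Dir824 T v {a, b}) (hη' : η' ∈ Dir824 T v {c, d})
    (hs' : s' = 1 ∨ s' = -1)
    (hF : ∀ θ : ℝ, (0 < s * Real.sin (θ - η) → Sd U v (v + cis θ) a b) ∧
      (s * Real.sin (θ - η) < 0 → Sd U v (v + cis θ) b a))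
    (hF' : ∀ θ : ℝ, (0 < s' * Real.sin (θ - η') → Sd U v (v + cis θ) a b) ∧
      (s' * Real.sin (θ - η') < 0 → Sd U v (v + cis θ) b a))
    (hpos : 0 < s * Real.sin (θ - η)) : 0 < s' * Real.sin (θ - η') := by
  by_contra hcon
  have hne : s' * Real.sin (θ - η') ≠ 0 := by
    refine mul_ne_zero ?_ (h.sin_ne824 hv hθ hη')
    rcases hs' with rfl | rfl <;> norm_num
  have hneg : s' * Real.sin (θ - η') < 0 := lt_of_le_of_ne (not_lt.1 hcon) hne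
  rcases hθ with hθ | hθ
  · exact h.sd_unique (a := a) (b := b) (by rw [hθ]; simp) ((hF θ).1 hpos) ((hF' θ).2 hneg)
  · have e1 : s * Real.sin (θ + Real.pi - η) = -(s * Real.sin (θ - η)) := by
      rw [show θ + Real.pi - η = θ - η + Real.pi by ring, Real.sin_add_pi]; ring
    have e2 : s' * Real.sin (θ + Real.pi - η') = -(s' * Real.sin (θ - η')) := by
      rw [show θ + Real.pi - η' = θ - η' + Real.pi by ring, Real.sin_add_pi]; ring
    have hθ' : T (v + cis (θ + Real.pi)) = {a, b} := by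
      rw [cis_add_pi824, ← sub_eq_add_neg]; exact hθ
    exact h.sd_unique (a := a) (b := b) (by rw [hθ']; simp)
      ((hF' (θ + Real.pi)).1 (by rw [e2]; linarith)) ((hF (θ + Real.pi)).2 (by rw [e1]; linarith))

/-- hull of a bounded nonempty open set of reals -/
theorem hull824 {A : Set ℝ} {l u : ℝ} (ho : IsOpen A) (hne : A.Nonempty) (hb : A ⊆ Ioo l u) :
    ∃ x1 x2 : ℝ, x1 < x2 ∧ l ≤ x1 ∧ x2 ≤ u ∧ A ⊆ Ioo x1 x2 ∧
      ∀ s ∈ Ioo x1 x2, (∃ θ ∈ A, θ ∈ Ioo x1 s) ∧ ∃ θ ∈ A, θ ∈ Ioo s x2 := by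
  have hbb : BddBelow A := ⟨l, fun x hx => (hb hx).1.le⟩
  have hba : BddAbove A := ⟨u, fun x hx => (hb hx).2.le⟩
  have hlt : ∀ x ∈ A, sInf A < x ∧ x < sSup A := by
    intro x hx
    obtain ⟨ε, hε, hball⟩ := Metric.isOpen_iff.1 ho x hx
    have h1 : x - ε / 2 ∈ A := hball (by
      rw [Metric.mem_ball, Real.dist_eq, abs_lt]; constructor <;> linarith)
    have h2 : x + ε / 2 ∈ A := hball (by
      rw [Metric.mem_ball, Real.dist_eq, abs_lt]; constructor <;> linarith)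
    exact ⟨lt_of_le_of_lt (csInf_le hbb h1) (by linarith),
      lt_of_lt_of_le (by linarith) (le_csSup hba h2)⟩
  obtain ⟨x, hx⟩ := hne
  refine ⟨sInf A, sSup A, (hlt x hx).1.trans (hlt x hx).2, le_csInf ⟨x, hx⟩ fun y hy => (hb hy).1.le,
    csSup_le ⟨x, hx⟩ fun y hy => (hb hy).2.le, fun y hy => hlt y hy, fun s hs => ⟨?_, ?_⟩⟩
  · obtain ⟨y, hy, hys⟩ := exists_lt_of_csInf_lt ⟨x, hx⟩ hs.1
    exact ⟨y, hy, (hlt y hy).1, hys⟩
  · obtain ⟨y, hy, hys⟩ := exists_lt_of_lt_csSup ⟨x, hx⟩ hs.2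
    exact ⟨y, hy, hys, (hlt y hy).2⟩

/-- the zones of a two-pair point -/
structure Zn824 (U : Fin k → Set ℂ) (T : ℂ → Set (Fin k)) (v : ℂ) (a b c d : Fin k)
    (x1 x2 y1 y2 : ℝ) : Prop where
  dpt : DPt T v a b c d
  x12 : x1 < x2
  xy : x2 ≤ y1
  y12 : y1 < y2
  yx : y2 ≤ x1 + Real.pi
  dX : ∀ θ ∈ Dir824 T v {a, b}, ∃ n : ℤ, θ + n * Real.pi ∈ Ioo x1 x2
  dY : ∀ θ ∈ Dir824 T v {c, d}, ∃ n : ℤ, θ + n * Real.pi ∈ Ioo y1 y2
  tX : ∀ s ∈ Ioo x1 x2, (∃ θ ∈ Dir824 T v {a, b}, θ ∈ Ioo x1 s) ∧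
    ∃ θ ∈ Dir824 T v {a, b}, θ ∈ Ioo s x2
  tY : ∀ s ∈ Ioo y1 y2, (∃ θ ∈ Dir824 T v {c, d}, θ ∈ Ioo y1 s) ∧
    ∃ θ ∈ Dir824 T v {c, d}, θ ∈ Ioo s y2
  sX : ∀ θ ∈ Ioo (y1 - Real.pi) y2, Sd U v (v + cis θ) a b ∧ Sd U v (v - cis θ) b a
  sY : ∀ θ ∈ Ioo x1 (x2 + Real.pi), Sd U v (v + cis θ) c d ∧ Sd U v (v - cis θ) d c

theorem exists_int824 (θ l : ℝ) : ∃ n : ℤ, θ + n * Real.pi ∈ Ico l (l + Real.pi) := by
  obtain ⟨n, hn, -⟩ := existsUnique_add_zsmul_mem_Ico Real.pi_pos θ l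
  exact ⟨n, by simpa [zsmul_eq_mul] using hn⟩

/-- the zone theorem up to the names of `c`, `d` -/
theorem Irr.zones_aux824 (h : Irr U T) {v : ℂ} {a b c d : Fin k} (hv : DPt T v a b c d) {η0 : ℝ}
    (hη0 : η0 ∈ Dir824 T v {c, d})
    (hF0 : ∀ θ : ℝ, (0 < 1 * Real.sin (θ - η0) → Sd U v (v + cis θ) a b) ∧
      (1 * Real.sin (θ - η0) < 0 → Sd U v (v + cis θ) b a)) :
    ∃ x1 x2 y1 y2, Zn824 U T v a b c d x1 x2 y1 y2 ∨ Zn824 U T v a b d c x1 x2 y1 y2 := by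
  have hpi := Real.pi_pos
  have hma : a ∈ T v := by rw [hv.pal]; simp
  have hmb : b ∈ T v := by rw [hv.pal]; simp
  have hmc : c ∈ T v := by rw [hv.pal]; simp
  have hmd : d ∈ T v := by rw [hv.pal]; simp
  have hoX := h.Dir_open824 hv.ab hma hmb
  have hoY := h.Dir_open824 hv.cd hmc hmd
  have hdis : ∀ θ, θ ∈ Dir824 T v {a, b} → θ ∈ Dir824 T v {c, d} → False := by
    intro θ h1 h2
    have := h.sin_ne824 hv h1 h2
    rw [sub_self, Real.sin_zero] at this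
    exact this rfl
  -- the set `A`
  set A : Set ℝ := Dir824 T v {a, b} ∩ Ioo η0 (η0 + Real.pi) with hA
  have hAo : IsOpen A := hoX.inter isOpen_Ioo
  have hinA : ∀ θ ∈ Dir824 T v {a, b}, ∃ n : ℤ, θ + n * Real.pi ∈ A := by
    intro θ hθ
    obtain ⟨n, hn⟩ := exists_int824 θ η0
    have h1 := Dir_int824 hθ n
    refine ⟨n, h1, lt_of_le_of_ne hn.1 ?_, hn.2⟩
    intro h2
    exact hdis η0 (h2 ▸ h1) hη0
  have hAne : A.Nonempty := by
    obtain ⟨p, hp⟩ := hv.arc1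
    obtain ⟨t, ht⟩ := exists_cis (u := p - v) (by rw [← dist_eq_norm]; exact hp.1)
    have hpt : v + cis t = p := by rw [← ht]; ring
    obtain ⟨n, hn⟩ := hinA t (Or.inl (by rw [hpt]; exact hp.mem))
    exact ⟨_, hn⟩
  obtain ⟨x1, x2, x12, hlx, hxu, hAx, tA⟩ := hull824 hAo hAne inter_subset_right
  -- signs at the directions of `cd` over the hull
  have hsgn : ∀ η ∈ Dir824 T v {c, d}, η ∈ Ico x1 (x1 + Real.pi) → x2 ≤ η ∧ x1 < η ∧
      ∀ θ : ℝ, (0 < (-1) * Real.sin (θ - η) → Sd U v (v + cis θ) a b) ∧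
        ((-1) * Real.sin (θ - η) < 0 → Sd U v (v + cis θ) b a) := by
    intro η hη hmem
    obtain ⟨s, hs, hF⟩ := h.side_sign824 hv hη
    have hall : ∀ θ ∈ A, 0 < s * Real.sin (θ - η) := by
      intro θ hθ
      refine h.sign_eq824 hv hθ.1 hη hs hF0 hF ?_
      rw [one_mul]
      exact Real.sin_pos_of_pos_of_lt_pi (by linarith [hθ.2.1]) (by linarith [hθ.2.2])
    have hx1 : x1 ≠ η := by
      rintro rfl
      obtain ⟨ε, hε, hball⟩ := Metric.isOpen_iff.1 hoY x1 hη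
      have hs2 : min (x1 + ε) x2 > x1 := lt_min (by linarith) x12
      obtain ⟨⟨θ, hθ, hθ2⟩, -⟩ := tA ((x1 + min (x1 + ε) x2) / 2)
        ⟨by linarith, by linarith [min_le_right (x1 + ε) x2]⟩
      refine hdis θ hθ.1 (hball ?_)
      rw [Metric.mem_ball, Real.dist_eq, abs_lt]
      constructor
      · linarith [hθ2.1]
      · linarith [hθ2.2, min_le_left (x1 + ε) x2]
    have hx1' : x1 < η := lt_of_le_of_ne hmem.1 hx1
    have hx2 : x2 ≤ η := by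
      by_contra hcon
      push Not at hcon
      obtain ⟨⟨θ1, hθ1, h1⟩, θ2, hθ2, h2⟩ := tA η ⟨hx1', hcon⟩
      have k1 := hall θ1 hθ1
      have k2 := hall θ2 hθ2
      have n1 : Real.sin (θ1 - η) < 0 := by
        have : 0 < Real.sin (η - θ1) := Real.sin_pos_of_pos_of_lt_pi (by linarith [h1.2])
          (by linarith [h1.1, hmem.2])
        rw [show θ1 - η = -(η - θ1) by ring, Real.sin_neg]; linarith
      have n2 : 0 < Real.sin (θ2 - η) := Real.sin_pos_of_pos_of_lt_pi (by linarith [h2.1])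
        (by linarith [h2.2, hmem.1])
      rcases hs with rfl | rfl
      · linarith
      · linarith
    refine ⟨hx2, hx1', ?_⟩
    obtain ⟨θ, hθ⟩ := hAne
    have k1 := hall θ hθ
    have h1 := hAx hθ
    have n1 : Real.sin (θ - η) < 0 := by
      have : 0 < Real.sin (η - θ) := Real.sin_pos_of_pos_of_lt_pi (by linarith [h1.2])
        (by linarith [h1.1, hmem.2])
      rw [show θ - η = -(η - θ) by ring, Real.sin_neg]; linarith
    rcases hs with rfl | rfl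
    · linarith
    · exact hF
  -- the set `B`
  set B : Set ℝ := Dir824 T v {c, d} ∩ Ioo x1 (x1 + Real.pi) with hB
  have hBo : IsOpen B := hoY.inter isOpen_Ioo
  have hinB : ∀ θ ∈ Dir824 T v {c, d}, ∃ n : ℤ, θ + n * Real.pi ∈ B := by
    intro θ hθ
    obtain ⟨n, hn⟩ := exists_int824 θ x1
    have h1 := Dir_int824 hθ n
    exact ⟨n, h1, (hsgn _ h1 hn).2.1, hn.2⟩
  have hBne : B.Nonempty := by
    obtain ⟨n, hn⟩ := hinB η0 hη0
    exact ⟨_, hn⟩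
  have hB2 : B ⊆ Ioo x2 (x1 + Real.pi) := by
    have hle : ∀ η ∈ B, x2 ≤ η := fun η hη => (hsgn η hη.1 ⟨hη.2.1.le, hη.2.2⟩).1
    intro η hη
    refine ⟨lt_of_le_of_ne (hle η hη) ?_, hη.2.2⟩
    rintro rfl
    obtain ⟨ε, hε, hball⟩ := Metric.isOpen_iff.1 hBo x2 hη
    have h1 : x2 - ε / 2 ∈ B := hball (by
      rw [Metric.mem_ball, Real.dist_eq, abs_lt]; constructor <;> linarith)
    linarith [hle _ h1]
  obtain ⟨y1, y2, y12, hly, hyu, hBy, tB⟩ := hull824 hBo hBne hB2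
  have tX : ∀ s ∈ Ioo x1 x2, (∃ θ ∈ Dir824 T v {a, b}, θ ∈ Ioo x1 s) ∧
      ∃ θ ∈ Dir824 T v {a, b}, θ ∈ Ioo s x2 := by
    intro s hs
    obtain ⟨⟨θ, h1, h2⟩, θ', h3, h4⟩ := tA s hs
    exact ⟨⟨θ, h1.1, h2⟩, θ', h3.1, h4⟩
  have tY : ∀ s ∈ Ioo y1 y2, (∃ θ ∈ Dir824 T v {c, d}, θ ∈ Ioo y1 s) ∧
      ∃ θ ∈ Dir824 T v {c, d}, θ ∈ Ioo s y2 := by
    intro s hs
    obtain ⟨⟨θ, h1, h2⟩, θ', h3, h4⟩ := tB s hs
    exact ⟨⟨θ, h1.1, h2⟩, θ', h3.1, h4⟩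
  -- between
  have between : ∀ (C : Set ℝ) (u1 u2 : ℝ), u1 < u2 → u2 ≤ u1 + Real.pi → C.Nonempty →
      C ⊆ Ioo u1 u2 → (∀ s ∈ Ioo u1 u2, (∃ θ ∈ C, θ ∈ Ioo u1 s) ∧ ∃ θ ∈ C, θ ∈ Ioo s u2) →
      ∀ θ ∈ Ioo (u1 - Real.pi) u2, ∃ η ∈ C, θ < η ∧ η < θ + Real.pi := by
    intro C u1 u2 hu hu' hne hC ht θ hθ
    rcases le_or_gt θ u1 with h1 | h1
    · have h2 : u1 < min (θ + Real.pi) u2 := lt_min (by linarith [hθ.1]) hu
      obtain ⟨⟨η, hη, h3⟩, -⟩ := ht ((u1 + min (θ + Real.pi) u2) / 2)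
        ⟨by linarith, by linarith [min_le_right (θ + Real.pi) u2]⟩
      exact ⟨η, hη, by linarith [h3.1], by linarith [h3.2, min_le_left (θ + Real.pi) u2]⟩
    · obtain ⟨-, η, hη, h3⟩ := ht θ ⟨h1, hθ.2⟩
      exact ⟨η, hη, h3.1, by linarith [h3.2]⟩
  have sX : ∀ θ ∈ Ioo (y1 - Real.pi) y2, Sd U v (v + cis θ) a b ∧ Sd U v (v - cis θ) b a := by
    intro θ hθ
    obtain ⟨η, hη, h1, h2⟩ := between B y1 y2 y12 (by linarith) hBne hBy tB θ hθ
    have hF := (hsgn η hη.1 ⟨hη.2.1.le, hη.2.2⟩).2.2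
    have hs : 0 < Real.sin (η - θ) :=
      Real.sin_pos_of_pos_of_lt_pi (by linarith) (by linarith)
    constructor
    · refine (hF θ).1 ?_
      rw [show θ - η = -(η - θ) by ring, Real.sin_neg]; linarith
    · have h3 := (hF (θ + Real.pi)).2 (by
        rw [show θ + Real.pi - η = -(η - θ) + Real.pi by ring, Real.sin_add_pi, Real.sin_neg]
        linarith)
      rwa [cis_add_pi824, ← sub_eq_add_neg] at h3
  have dX : ∀ θ ∈ Dir824 T v {a, b}, ∃ n : ℤ, θ + n * Real.pi ∈ Ioo x1 x2 := by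
    intro θ hθ
    obtain ⟨n, hn⟩ := hinA θ hθ
    exact ⟨n, hAx hn⟩
  have dY : ∀ θ ∈ Dir824 T v {c, d}, ∃ n : ℤ, θ + n * Real.pi ∈ Ioo y1 y2 := by
    intro θ hθ
    obtain ⟨n, hn⟩ := hinB θ hθ
    exact ⟨n, hBy hn⟩
  -- the sides of the pair `cd`
  obtain ⟨θ0, hθ0⟩ := hAne
  obtain ⟨η1, hη1⟩ := hBne
  obtain ⟨r, hr, hG0⟩ := h.side_sign824 hv.swap hθ0.1
  have hApos : ∀ θ ∈ A, 0 < Real.sin (η1 - θ) := fun θ hθ =>
    Real.sin_pos_of_pos_of_lt_pi (by linarith [(hAx hθ).2, (hB2 hη1).1])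
      (by linarith [(hAx hθ).1, hη1.2.2])
  have hGall : ∀ θ ∈ A, ∀ ψ : ℝ, (0 < r * Real.sin (ψ - θ) → Sd U v (v + cis ψ) c d) ∧
      (r * Real.sin (ψ - θ) < 0 → Sd U v (v + cis ψ) d c) := by
    intro θ hθ
    obtain ⟨r', hr', hG⟩ := h.side_sign824 hv.swap hθ.1
    have hrr : r' = r := by
      have p0 := hApos θ0 hθ0
      have p1 := hApos θ hθ
      rcases hr with rfl | rfl <;> rcases hr' with rfl | rfl
      · rfl
      · have := h.sign_eq824 hv.swap hη1.1 hθ.1 (Or.inr rfl) hG0 hG (by linarith)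
        linarith
      · have := h.sign_eq824 hv.swap hη1.1 hθ0.1 (Or.inr rfl) hG hG0 (by linarith)
        linarith
      · rfl
    rw [hrr] at hG
    exact hG
  have sY : ∀ ψ ∈ Ioo x1 (x2 + Real.pi), (r = 1 → Sd U v (v + cis ψ) c d ∧ Sd U v (v - cis ψ) d c) ∧
      (r = -1 → Sd U v (v + cis ψ) d c ∧ Sd U v (v - cis ψ) c d) := by
    intro ψ hψ
    obtain ⟨θ, hθ, h1, h2⟩ := between A x1 x2 x12 (by linarith) ⟨θ0, hθ0⟩ hAx tA (ψ - Real.pi)
      ⟨by linarith [hψ.1], by linarith [hψ.2]⟩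
    have hs : 0 < Real.sin (ψ - θ) :=
      Real.sin_pos_of_pos_of_lt_pi (by linarith) (by linarith)
    have hs' : Real.sin (ψ + Real.pi - θ) = -Real.sin (ψ - θ) := by
      rw [show ψ + Real.pi - θ = ψ - θ + Real.pi by ring, Real.sin_add_pi]
    have hG := hGall θ hθ
    constructor
    · rintro rfl
      refine ⟨(hG ψ).1 (by linarith), ?_⟩
      have h3 := (hG (ψ + Real.pi)).2 (by rw [hs']; linarith)
      rwa [cis_add_pi824, ← sub_eq_add_neg] at h3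
    · rintro rfl
      refine ⟨(hG ψ).2 (by linarith), ?_⟩
      have h3 := (hG (ψ + Real.pi)).1 (by rw [hs']; linarith)
      rwa [cis_add_pi824, ← sub_eq_add_neg] at h3
  refine ⟨x1, x2, y1, y2, ?_⟩
  rcases hr with hr | hr
  · exact Or.inl ⟨hv, x12, hly, y12, hyu, dX, dY, tX, tY, sX, fun ψ hψ => (sY ψ hψ).1 hr⟩
  · right
    have e : ({d, c} : Set (Fin k)) = {c, d} := pair_comm d c
    exact ⟨hv.swap34, x12, hly, y12, hyu, dX, by rw [e]; exact dY, tX, by rw [e]; exact tY, sX,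
      fun ψ hψ => (sY ψ hψ).2 hr⟩

/-- **The zone theorem.** -/
theorem Irr.exists_zones824 (h : Irr U T) {v : ℂ} {a b c d : Fin k} (hv : DPt T v a b c d) :
    ∃ x1 x2 y1 y2, Zn824 U T v a b c d x1 x2 y1 y2 ∨ Zn824 U T v a b d c x1 x2 y1 y2 ∨
      Zn824 U T v b a c d x1 x2 y1 y2 ∨ Zn824 U T v b a d c x1 x2 y1 y2 := by
  obtain ⟨p, hp⟩ := hv.arc2
  obtain ⟨t, ht⟩ := exists_cis (u := p - v) (by rw [← dist_eq_norm]; exact hp.1)
  have hpt : v + cis t = p := by rw [← ht]; ring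
  have hη : t ∈ Dir824 T v {c, d} := Or.inl (by rw [hpt]; exact hp.mem)
  obtain ⟨s, hs, hF⟩ := h.side_sign824 hv hη
  rcases hs with rfl | rfl
  · obtain ⟨x1, x2, y1, y2, h1 | h1⟩ := h.zones_aux824 hv hη hF
    · exact ⟨x1, x2, y1, y2, Or.inl h1⟩
    · exact ⟨x1, x2, y1, y2, Or.inr (Or.inl h1)⟩
  · obtain ⟨x1, x2, y1, y2, h1 | h1⟩ := h.zones_aux824 hv.swap12 hη (fun θ =>
      ⟨fun hs => (hF θ).2 (by linarith), fun hs => (hF θ).1 (by linarith)⟩)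
    · exact ⟨x1, x2, y1, y2, Or.inr (Or.inr (Or.inl h1))⟩
    · exact ⟨x1, x2, y1, y2, Or.inr (Or.inr (Or.inr h1))⟩

namespace Zn824

variable {v : ℂ} {a b c d : Fin k} {x1 x2 y1 y2 : ℝ}

/-- rotation: the second pair becomes the first one -/
theorem rot (Z : Zn824 U T v a b c d x1 x2 y1 y2) :
    Zn824 U T v c d b a y1 y2 (x1 + Real.pi) (x2 + Real.pi) := by
  have e : ({b, a} : Set (Fin k)) = {a, b} := pair_comm b a
  refine ⟨Z.dpt.swap.swap34, Z.y12, Z.yx, by linarith [Z.x12], by linarith [Z.xy], Z.dY,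
    fun θ hθ => ?_, Z.tY, fun s hs => ?_, fun θ hθ => ?_, fun θ hθ => ?_⟩
  · rw [e] at hθ
    obtain ⟨n, hn⟩ := Z.dX θ hθ
    refine ⟨n + 1, ?_⟩
    have e2 : θ + ((n + 1 : ℤ) : ℝ) * Real.pi = θ + n * Real.pi + Real.pi := by push_cast; ring
    rw [e2]
    exact ⟨by linarith [hn.1], by linarith [hn.2]⟩
  · obtain ⟨⟨θ, h1, h2⟩, θ', h3, h4⟩ := Z.tX (s - Real.pi) ⟨by linarith [hs.1], by linarith [hs.2]⟩
    rw [e]
    exact ⟨⟨θ + Real.pi, Dir_add824 h1, by linarith [h2.1], by linarith [h2.2]⟩,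
      θ' + Real.pi, Dir_add824 h3, by linarith [h4.1], by linarith [h4.2]⟩
  · exact Z.sY θ ⟨by linarith [hθ.1], hθ.2⟩
  · have h1 := Z.sX (θ - Real.pi) ⟨by linarith [hθ.1], by linarith [hθ.2]⟩
    rw [cis_sub_pi824, ← sub_eq_add_neg, sub_neg_eq_add] at h1
    exact ⟨h1.2, h1.1⟩

/-- the half turn -/
theorem half (Z : Zn824 U T v a b c d x1 x2 y1 y2) :
    Zn824 U T v b a d c (x1 + Real.pi) (x2 + Real.pi) (y1 + Real.pi) (y2 + Real.pi) := Z.rot.rot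

/-- the names do not matter -/
theorem pal (Z : Zn824 U T v a b c d x1 x2 y1 y2) : T v = {a, b, c, d} := Z.dpt.pal

/-- **the points of `S(v)` over the first zone have none of the colours of the second pair** -/
theorem noY (Z : Zn824 U T v a b c d x1 x2 y1 y2) (h : Mx U) {θ : ℝ} (hθ : θ ∈ Ioo x1 x2) :
    c ∉ Pal U (v + cis θ) ∧ d ∉ Pal U (v + cis θ) ∧ c ∉ Pal U (v - cis θ) ∧
      d ∉ Pal U (v - cis θ) := by
  have hpi := Real.pi_pos
  obtain ⟨h1, h2⟩ := Z.sY θ ⟨hθ.1, by linarith [hθ.2]⟩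
  obtain ⟨h3, h4⟩ := Z.sY (θ + Real.pi) ⟨by linarith [hθ.1], by linarith [hθ.2]⟩
  rw [cis_add_pi824, ← sub_eq_add_neg] at h3
  rw [cis_add_pi824, sub_neg_eq_add] at h4
  refine ⟨fun hc => ?_, fun hd => ?_, fun hc => ?_, fun hd => ?_⟩
  · exact h.excl_col824 hc (h1.mono fun x hx => hx.1) (h4.mono fun x hx => hx.2)
  · exact h.excl_col824 hd (h4.mono fun x hx => hx.1) (h1.mono fun x hx => hx.2)
  · exact h.excl_col824 hc (h3.mono fun x hx => hx.1) (h2.mono fun x hx => hx.2)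
  · exact h.excl_col824 hd (h2.mono fun x hx => hx.1) (h3.mono fun x hx => hx.2)

/-- **the points of `S(v)` over the second zone have none of the colours of the first pair** -/
theorem noX (Z : Zn824 U T v a b c d x1 x2 y1 y2) (h : Mx U) {θ : ℝ} (hθ : θ ∈ Ioo y1 y2) :
    a ∉ Pal U (v + cis θ) ∧ b ∉ Pal U (v + cis θ) ∧ a ∉ Pal U (v - cis θ) ∧
      b ∉ Pal U (v - cis θ) := by
  obtain ⟨h1, h2, h3, h4⟩ := Z.rot.noY h hθ
  exact ⟨h2, h1, h4, h3⟩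

/-! ### The germ at `v` of the unit circle about `v + cis φ` -/

theorem sg_cis (v : ℂ) (φ θ : ℝ) : sg (v + cis φ) v (v + cis θ) = Real.sin (θ - φ) := by
  unfold sg cr
  simp only [Complex.sub_re, Complex.add_re, Complex.sub_im, Complex.add_im, cis_re, cis_im,
    Real.sin_sub]
  ring

theorem sg_cis_neg (v : ℂ) (φ θ : ℝ) :
    sg (v + cis φ) v (v - cis θ) = -Real.sin (θ - φ) := by
  unfold sg cr
  simp only [Complex.sub_re, Complex.add_re, Complex.sub_im, Complex.add_im, cis_re, cis_im,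
    Real.sin_sub]
  ring

theorem germ_dir (h : Irr U T) {v : ℂ} {a b : Fin k} (hab : a ≠ b) (ha : a ∈ T v) (hb' : b ∈ T v)
    {θ : ℝ} (hθ : θ ∈ Dir824 T v {a, b})
    (hs : Sd U v (v + cis θ) a b ∧ Sd U v (v - cis θ) b a) (φ : ℝ) :
    (0 < Real.sin (θ - φ) → (∀ᶠ t : ℝ in 𝓝[>] 0, b ∉ Pal U (hb (v + cis φ) v (-1) t)) ∧
      ∀ᶠ t : ℝ in 𝓝[>] 0, a ∉ Pal U (hb (v + cis φ) v 1 t)) ∧
    (Real.sin (θ - φ) < 0 → (∀ᶠ t : ℝ in 𝓝[>] 0, a ∉ Pal U (hb (v + cis φ) v (-1) t)) ∧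
      ∀ᶠ t : ℝ in 𝓝[>] 0, b ∉ Pal U (hb (v + cis φ) v 1 t)) := by
  rcases hθ with hθ | hθ
  · have hA := h.arc_of_eq hab ha hb' (dist_add_cis v θ) hθ
    obtain ⟨g1, g2⟩ := h.germ_sd (z := v + cis φ) hA hs.1
    rw [sg_cis] at g1 g2
    exact ⟨fun h1 => ⟨g1 (-1) (by linarith), g2 1 (by linarith)⟩,
      fun h1 => ⟨g2 (-1) (by linarith), g1 1 (by linarith)⟩⟩
  · have hA := h.arc_of_eq hab.symm hb' ha (dist_sub_cis824 v θ) (by rw [hθ, pair_comm])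
    obtain ⟨g1, g2⟩ := h.germ_sd (z := v + cis φ) hA hs.2
    rw [sg_cis_neg] at g1 g2
    exact ⟨fun h1 => ⟨g2 (-1) (by linarith), g1 1 (by linarith)⟩,
      fun h1 => ⟨g1 (-1) (by linarith), g2 1 (by linarith)⟩⟩

/-- `φ ∈ (x1 - π, x2)`: before `v` no `b`, after `v` no `a` -/
theorem gX1 (Z : Zn824 U T v a b c d x1 x2 y1 y2) (h : Irr U T) {φ : ℝ}
    (hφ : φ ∈ Ioo (x1 - Real.pi) x2) :
    (∀ᶠ t : ℝ in 𝓝[>] 0, b ∉ Pal U (hb (v + cis φ) v (-1) t)) ∧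
      ∀ᶠ t : ℝ in 𝓝[>] 0, a ∉ Pal U (hb (v + cis φ) v 1 t) := by
  have ha : a ∈ T v := by rw [Z.pal]; simp
  have hb' : b ∈ T v := by rw [Z.pal]; simp
  obtain ⟨θ, hθ, h1, h2, h3⟩ : ∃ θ ∈ Dir824 T v {a, b}, θ ∈ Ioo x1 x2 ∧ φ < θ ∧
      θ < φ + Real.pi := by
    rcases le_or_gt φ x1 with k1 | k1
    · have k2 : x1 < min (φ + Real.pi) x2 := lt_min (by linarith [hφ.1]) Z.x12
      obtain ⟨⟨θ, hθ, k3⟩, -⟩ := Z.tX ((x1 + min (φ + Real.pi) x2) / 2)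
        ⟨by linarith, by linarith [min_le_right (φ + Real.pi) x2]⟩
      have k4 : θ < min (φ + Real.pi) x2 := by linarith [k3.2]
      exact ⟨θ, hθ, ⟨k3.1, k4.trans_le (min_le_right _ _)⟩, by linarith [k3.1],
        k4.trans_le (min_le_left _ _)⟩
    · obtain ⟨-, θ, hθ, k3⟩ := Z.tX φ ⟨k1, hφ.2⟩
      exact ⟨θ, hθ, ⟨by linarith [k3.1], k3.2⟩, k3.1, by linarith [k3.2, Z.xy, Z.y12, Z.yx]⟩
  refine (germ_dir h Z.dpt.ab ha hb' hθ (Z.sX θ ⟨?_, ?_⟩) φ).1 ?_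
  · linarith [h1.1, Z.y12, Z.yx]
  · linarith [h1.2, Z.xy, Z.y12]
  · exact Real.sin_pos_of_pos_of_lt_pi (by linarith) (by linarith)

/-- `φ ∈ (x1, x2 + π)`: before `v` no `a`, after `v` no `b` -/
theorem gX2 (Z : Zn824 U T v a b c d x1 x2 y1 y2) (h : Irr U T) {φ : ℝ}
    (hφ : φ ∈ Ioo x1 (x2 + Real.pi)) :
    (∀ᶠ t : ℝ in 𝓝[>] 0, a ∉ Pal U (hb (v + cis φ) v (-1) t)) ∧
      ∀ᶠ t : ℝ in 𝓝[>] 0, b ∉ Pal U (hb (v + cis φ) v 1 t) := by
  have ha : a ∈ T v := by rw [Z.pal]; simp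
  have hb' : b ∈ T v := by rw [Z.pal]; simp
  obtain ⟨θ, hθ, h1, h2, h3⟩ : ∃ θ ∈ Dir824 T v {a, b}, θ ∈ Ioo x1 x2 ∧ θ < φ ∧
      φ < θ + Real.pi := by
    rcases le_or_gt x2 φ with k1 | k1
    · have k2 : max (φ - Real.pi) x1 < x2 := max_lt (by linarith [hφ.2]) Z.x12
      obtain ⟨-, θ, hθ, k3⟩ := Z.tX ((x2 + max (φ - Real.pi) x1) / 2)
        ⟨by linarith [le_max_right (φ - Real.pi) x1], by linarith⟩
      have k4 : max (φ - Real.pi) x1 < θ := by linarith [k3.1]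
      exact ⟨θ, hθ, ⟨(le_max_right _ _).trans_lt k4, k3.2⟩, by linarith [k3.2],
        by linarith [(le_max_left (φ - Real.pi) x1).trans_lt k4]⟩
    · obtain ⟨⟨θ, hθ, k3⟩, -⟩ := Z.tX φ ⟨hφ.1, k1⟩
      exact ⟨θ, hθ, ⟨k3.1, by linarith [k3.2]⟩, k3.2, by linarith [k3.1, Z.xy, Z.y12, Z.yx]⟩
  refine (germ_dir h Z.dpt.ab ha hb' hθ (Z.sX θ ⟨?_, ?_⟩) φ).2 ?_
  · linarith [h1.1, Z.y12, Z.yx]
  · linarith [h1.2, Z.xy, Z.y12]
  · rw [show θ - φ = -(φ - θ) by ring, Real.sin_neg]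
    have : 0 < Real.sin (φ - θ) := Real.sin_pos_of_pos_of_lt_pi (by linarith) (by linarith)
    linarith

/-- `φ ∈ (y1 - π, y2)`: before `v` no `d`, after `v` no `c` -/
theorem gY1 (Z : Zn824 U T v a b c d x1 x2 y1 y2) (h : Irr U T) {φ : ℝ}
    (hφ : φ ∈ Ioo (y1 - Real.pi) y2) :
    (∀ᶠ t : ℝ in 𝓝[>] 0, d ∉ Pal U (hb (v + cis φ) v (-1) t)) ∧
      ∀ᶠ t : ℝ in 𝓝[>] 0, c ∉ Pal U (hb (v + cis φ) v 1 t) := Z.rot.gX1 h hφ

/-- `φ ∈ (y1, y2 + π)`: before `v` no `c`, after `v` no `d` -/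
theorem gY2 (Z : Zn824 U T v a b c d x1 x2 y1 y2) (h : Irr U T) {φ : ℝ}
    (hφ : φ ∈ Ioo y1 (y2 + Real.pi)) :
    (∀ᶠ t : ℝ in 𝓝[>] 0, c ∉ Pal U (hb (v + cis φ) v (-1) t)) ∧
      ∀ᶠ t : ℝ in 𝓝[>] 0, d ∉ Pal U (hb (v + cis φ) v 1 t) := Z.rot.gX2 h hφ

/-- a half branch without two colours of `T v` -/
theorem sub_two (h : Irr U T) {z v : ℂ} {τ : ℝ} {a b c d : Fin k} (hv : T v ⊆ {a, b, c, d})
    (h1 : ∀ᶠ t : ℝ in 𝓝[>] 0, c ∉ Pal U (hb z v τ t))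
    (h2 : ∀ᶠ t : ℝ in 𝓝[>] 0, d ∉ Pal U (hb z v τ t)) :
    ∀ᶠ t : ℝ in 𝓝[>] 0, T (hb z v τ t) ⊆ {a, b} := by
  filter_upwards [h1, h2, (tendsto_hb z v τ).eventually (h.nhd v)] with t h3 h4 h5
  intro i hi
  rcases hv (h5 hi) with rfl | rfl | rfl | h7
  · simp
  · simp
  · exact absurd (h.sub _ hi) h3
  · rw [mem_singleton_iff] at h7
    subst h7
    exact absurd (h.sub _ hi) h4

/-- a half branch without three colours of `T v` -/
theorem eq_one (h : Irr U T) {z v : ℂ} {τ : ℝ} {a b c d : Fin k} (hv : T v ⊆ {a, b, c, d})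
    (h0 : ∀ᶠ t : ℝ in 𝓝[>] 0, b ∉ Pal U (hb z v τ t))
    (h1 : ∀ᶠ t : ℝ in 𝓝[>] 0, c ∉ Pal U (hb z v τ t))
    (h2 : ∀ᶠ t : ℝ in 𝓝[>] 0, d ∉ Pal U (hb z v τ t)) :
    ∀ᶠ t : ℝ in 𝓝[>] 0, T (hb z v τ t) = {a} := by
  filter_upwards [h0, h1, h2, (tendsto_hb z v τ).eventually (h.nhd v)] with t h3 h4 h5 h6
  have h7 : T (hb z v τ t) ⊆ {a} := by
    intro i hi
    rcases hv (h6 hi) with rfl | rfl | rfl | h7
    · rfl
    · exact absurd (h.sub _ hi) h3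
    · exact absurd (h.sub _ hi) h4
    · rw [mem_singleton_iff] at h7
      subst h7
      exact absurd (h.sub _ hi) h5
  obtain ⟨i, hi⟩ := h.ne (hb z v τ t)
  have h8 : i = a := h7 hi
  exact Subset.antisymm h7 (singleton_subset_iff.2 (h8 ▸ hi))

/-- **germ, `φ ∈ [y2 - π, x1]`**: `{a, c}` before, `{b, d}` after -/
theorem germ1 (Z : Zn824 U T v a b c d x1 x2 y1 y2) (h : Irr U T) {φ : ℝ}
    (hφ : φ ∈ Icc (y2 - Real.pi) x1) :
    (∀ᶠ t : ℝ in 𝓝[>] 0, T (hb (v + cis φ) v (-1) t) ⊆ {a, c}) ∧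
      ∀ᶠ t : ℝ in 𝓝[>] 0, T (hb (v + cis φ) v 1 t) ⊆ {b, d} := by
  have k1 := Z.gX1 h (φ := φ) ⟨by linarith [hφ.1, Z.x12, Z.xy, Z.y12], by linarith [hφ.2, Z.x12]⟩
  have k2 := Z.gY1 h (φ := φ)
    ⟨by linarith [hφ.1, Z.y12], by linarith [hφ.2, Z.x12, Z.xy, Z.y12]⟩
  constructor
  · refine sub_two (c := b) (d := d) h ?_ k1.1 k2.1
    rw [Z.pal]; intro i; simp only [mem_insert_iff, mem_singleton_iff]; tauto
  · refine sub_two (c := a) (d := c) h ?_ k1.2 k2.2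
    rw [Z.pal]; intro i; simp only [mem_insert_iff, mem_singleton_iff]; tauto

/-- **germ, `φ ∈ (x1, x2)`**: `{c}` before, `{d}` after -/
theorem germ2 (Z : Zn824 U T v a b c d x1 x2 y1 y2) (h : Irr U T) {φ : ℝ}
    (hφ : φ ∈ Ioo x1 x2) :
    (∀ᶠ t : ℝ in 𝓝[>] 0, T (hb (v + cis φ) v (-1) t) = {c}) ∧
      ∀ᶠ t : ℝ in 𝓝[>] 0, T (hb (v + cis φ) v 1 t) = {d} := by
  have hpi := Real.pi_pos
  have k1 := Z.gX1 h (φ := φ) ⟨by linarith [hφ.1], hφ.2⟩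
  have k3 := Z.gX2 h (φ := φ) ⟨hφ.1, by linarith [hφ.2]⟩
  have k2 := Z.gY1 h (φ := φ)
    ⟨by linarith [hφ.1, Z.y12, Z.yx], by linarith [hφ.2, Z.xy, Z.y12]⟩
  constructor
  · refine eq_one (b := a) (c := b) (d := d) h ?_ k3.1 k1.1 k2.1
    rw [Z.pal]; intro i; simp only [mem_insert_iff, mem_singleton_iff]; tauto
  · refine eq_one (b := a) (c := b) (d := c) h ?_ k1.2 k3.2 k2.2
    rw [Z.pal]; intro i; simp only [mem_insert_iff, mem_singleton_iff]; tauto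

/-- **germ, `φ ∈ [x2, y1]`**: `{b, c}` before, `{a, d}` after -/
theorem germ3 (Z : Zn824 U T v a b c d x1 x2 y1 y2) (h : Irr U T) {φ : ℝ}
    (hφ : φ ∈ Icc x2 y1) :
    (∀ᶠ t : ℝ in 𝓝[>] 0, T (hb (v + cis φ) v (-1) t) ⊆ {b, c}) ∧
      ∀ᶠ t : ℝ in 𝓝[>] 0, T (hb (v + cis φ) v 1 t) ⊆ {a, d} := by
  obtain ⟨k1, k2⟩ := Z.rot.germ1 h (φ := φ) ⟨by linarith [hφ.1], hφ.2⟩
  exact ⟨by rw [pair_comm]; exact k1, by rw [pair_comm]; exact k2⟩

/-- **germ, `φ ∈ (y1, y2)`**: `{b}` before, `{a}` after -/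
theorem germ4 (Z : Zn824 U T v a b c d x1 x2 y1 y2) (h : Irr U T) {φ : ℝ}
    (hφ : φ ∈ Ioo y1 y2) :
    (∀ᶠ t : ℝ in 𝓝[>] 0, T (hb (v + cis φ) v (-1) t) = {b}) ∧
      ∀ᶠ t : ℝ in 𝓝[>] 0, T (hb (v + cis φ) v 1 t) = {a} := Z.rot.germ2 h hφ

end Zn824

end Vale.Agent.P032.Six
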