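import Vale.Agent.P032.H824.Zone
import Vale.Agent.P032.H780.Special

/-!
# P032: zones and germs in the angle coordinate

`pt z s₀` a two-pair point of the circle `S(z)` with zones `x1 < x2 ≤ y1 < y2 ≤ x1 + π`.
`germ_one824` .. `germ_four824` : the palettes on `S(z)` before and after it, by the direction `φ` of `z`.
`germ_split824` : all the eight cases.
`zone_pt824` : the palettes of the circle about a two-pair point, by zones.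
-/

open Set Filter Topology Metric

noncomputable section

namespace Vale.Agent.P032.Six

open Vale.Agent.P032.S5.H767 Vale.Agent.P032.S5.H122 Vale.Agent.P032.Sweep
open Vale.Agent.P032.H780

variable {U : Fin 6 → Set ℂ} {T : ℂ → Set (Fin 6)} {z v : ℂ} {a b c d : Fin 6}
  {x1 x2 y1 y2 s₀ : ℝ}

/-- `X` is a bound for the palettes on `S(z)` just before the angle `s₀`, `Y` just after it -/
def Gs824 (T : ℂ → Set (Fin 6)) (z : ℂ) (s₀ : ℝ) (X Y : Set (Fin 6)) : Prop :=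
  (∀ᶠ w in 𝓝[<] s₀, T (pt z w) ⊆ X) ∧ ∀ᶠ w in 𝓝[>] s₀, T (pt z w) ⊆ Y

theorem gs_of824 {X Y : Set (Fin 6)} {φ : ℝ} (he : pt z s₀ + cis φ = z)
    (h1 : ∀ᶠ t : ℝ in 𝓝[>] 0, T (hb (pt z s₀ + cis φ) (pt z s₀) (-1) t) ⊆ X)
    (h2 : ∀ᶠ t : ℝ in 𝓝[>] 0, T (hb (pt z s₀ + cis φ) (pt z s₀) 1 t) ⊆ Y) :
    Gs824 T z s₀ X Y := by
  rw [he] at h1 h2
  exact ⟨br_left h1, br_right h2⟩

/-- the eight cases of the germ of `S(z)` at the two-pair point `pt z s₀`, by the direction `φ`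
of `z` -/
theorem germ_split824 (h : Irr U T) (Z : Zn824 U T (pt z s₀) a b c d x1 x2 y1 y2) :
    ∃ φ ∈ Ico (y2 - Real.pi) (y2 + Real.pi), pt z s₀ + cis φ = z ∧
      ((φ ≤ x1 ∧ Gs824 T z s₀ {a, c} {b, d}) ∨
      (x1 < φ ∧ φ < x2 ∧ Gs824 T z s₀ {c} {d}) ∨
      (x2 ≤ φ ∧ φ ≤ y1 ∧ Gs824 T z s₀ {b, c} {a, d}) ∨
      (y1 < φ ∧ φ < y2 ∧ Gs824 T z s₀ {b} {a}) ∨
      (y2 ≤ φ ∧ φ ≤ x1 + Real.pi ∧ Gs824 T z s₀ {b, d} {a, c}) ∨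
      (x1 + Real.pi < φ ∧ φ < x2 + Real.pi ∧ Gs824 T z s₀ {d} {c}) ∨
      (x2 + Real.pi ≤ φ ∧ φ ≤ y1 + Real.pi ∧ Gs824 T z s₀ {a, d} {b, c}) ∨
      (y1 + Real.pi < φ ∧ Gs824 T z s₀ {a} {b})) := by
  obtain ⟨t, ht⟩ := exists_cis (u := z - pt z s₀) (by
    rw [← dist_eq_norm, dist_comm]; exact dist_pt z s₀)
  obtain ⟨n, hn, -⟩ := existsUnique_add_zsmul_mem_Ico (show (0 : ℝ) < 2 * Real.pi by positivity) t
    (y2 - Real.pi)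
  have hn' : t + n • (2 * Real.pi) < y2 + Real.pi := by linarith [hn.2]
  have hc : cis (t + n • (2 * Real.pi)) = cis t := by
    apply Complex.ext
    · rw [cis_re, cis_re, zsmul_eq_mul, Real.cos_add_int_mul_two_pi]
    · rw [cis_im, cis_im, zsmul_eq_mul, Real.sin_add_int_mul_two_pi]
  set φ := t + n • (2 * Real.pi) with hφ
  have he : pt z s₀ + cis φ = z := by rw [hc, ← ht]; ring
  have hsub : ∀ {τ : ℝ} {i : Fin 6},
      (∀ᶠ t : ℝ in 𝓝[>] 0, T (hb (pt z s₀ + cis φ) (pt z s₀) τ t) = {i}) →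
      ∀ᶠ t : ℝ in 𝓝[>] 0, T (hb (pt z s₀ + cis φ) (pt z s₀) τ t) ⊆ {i} :=
    fun h1 => h1.mono fun t ht => ht.subset
  refine ⟨φ, ⟨hn.1, hn'⟩, he, ?_⟩
  rcases le_or_gt φ x1 with h1 | h1
  · obtain ⟨k1, k2⟩ := Z.germ1 h ⟨hn.1, h1⟩
    exact Or.inl ⟨h1, gs_of824 he k1 k2⟩
  rcases lt_or_ge φ x2 with h2 | h2
  · obtain ⟨k1, k2⟩ := Z.germ2 h ⟨h1, h2⟩
    exact Or.inr (Or.inl ⟨h1, h2, gs_of824 he (hsub k1) (hsub k2)⟩)
  rcases le_or_gt φ y1 with h3 | h3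
  · obtain ⟨k1, k2⟩ := Z.germ3 h ⟨h2, h3⟩
    exact Or.inr (Or.inr (Or.inl ⟨h2, h3, gs_of824 he k1 k2⟩))
  rcases lt_or_ge φ y2 with h4 | h4
  · obtain ⟨k1, k2⟩ := Z.germ4 h ⟨h3, h4⟩
    exact Or.inr (Or.inr (Or.inr (Or.inl ⟨h3, h4, gs_of824 he (hsub k1) (hsub k2)⟩)))
  rcases le_or_gt φ (x1 + Real.pi) with h5 | h5
  · obtain ⟨k1, k2⟩ := Z.half.germ1 h (φ := φ) ⟨by linarith, h5⟩
    exact Or.inr (Or.inr (Or.inr (Or.inr (Or.inl ⟨h4, h5, gs_of824 he k1 k2⟩))))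
  rcases lt_or_ge φ (x2 + Real.pi) with h6 | h6
  · obtain ⟨k1, k2⟩ := Z.half.germ2 h ⟨h5, h6⟩
    exact Or.inr (Or.inr (Or.inr (Or.inr (Or.inr (Or.inl
      ⟨h5, h6, gs_of824 he (hsub k1) (hsub k2)⟩)))))
  rcases le_or_gt φ (y1 + Real.pi) with h7 | h7
  · obtain ⟨k1, k2⟩ := Z.half.germ3 h ⟨h6, h7⟩
    exact Or.inr (Or.inr (Or.inr (Or.inr (Or.inr (Or.inr (Or.inl
      ⟨h6, h7, gs_of824 he k1 k2⟩))))))
  · obtain ⟨k1, k2⟩ := Z.half.germ4 h ⟨h7, hn'⟩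
    exact Or.inr (Or.inr (Or.inr (Or.inr (Or.inr (Or.inr (Or.inr
      ⟨h7, gs_of824 he (hsub k1) (hsub k2)⟩))))))

/-- the germ for a given direction `φ` of `z`: `φ ∈ [y2 - π, x1]` -/
theorem germ_one824 (h : Irr U T) (Z : Zn824 U T (pt z s₀) a b c d x1 x2 y1 y2) {φ : ℝ}
    (he : pt z s₀ + cis φ = z) (hφ : φ ∈ Icc (y2 - Real.pi) x1) : Gs824 T z s₀ {a, c} {b, d} := by
  obtain ⟨k1, k2⟩ := Z.germ1 h hφ
  exact gs_of824 he k1 k2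

/-- `φ ∈ (x1, x2)` -/
theorem germ_two824 (h : Irr U T) (Z : Zn824 U T (pt z s₀) a b c d x1 x2 y1 y2) {φ : ℝ}
    (he : pt z s₀ + cis φ = z) (hφ : φ ∈ Ioo x1 x2) : Gs824 T z s₀ {c} {d} := by
  obtain ⟨k1, k2⟩ := Z.germ2 h hφ
  exact gs_of824 he (k1.mono fun t ht => ht.subset) (k2.mono fun t ht => ht.subset)

/-- `φ ∈ [x2, y1]` -/
theorem germ_three824 (h : Irr U T) (Z : Zn824 U T (pt z s₀) a b c d x1 x2 y1 y2) {φ : ℝ}
    (he : pt z s₀ + cis φ = z) (hφ : φ ∈ Icc x2 y1) : Gs824 T z s₀ {b, c} {a, d} := by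
  obtain ⟨k1, k2⟩ := Z.germ3 h hφ
  exact gs_of824 he k1 k2

/-- `φ ∈ (y1, y2)` -/
theorem germ_four824 (h : Irr U T) (Z : Zn824 U T (pt z s₀) a b c d x1 x2 y1 y2) {φ : ℝ}
    (he : pt z s₀ + cis φ = z) (hφ : φ ∈ Ioo y1 y2) : Gs824 T z s₀ {b} {a} := by
  obtain ⟨k1, k2⟩ := Z.germ4 h hφ
  exact gs_of824 he (k1.mono fun t ht => ht.subset) (k2.mono fun t ht => ht.subset)

/-- the direction of the centre `z`, seen from the point `pt z s₀` -/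
theorem dir_center824 (z : ℂ) (s₀ : ℝ) :
    pt z s₀ + cis (s₀ * (Real.pi / 3) + Real.pi) = z := by
  rw [cis_add_pi824]; unfold pt; ring

/-- the point `pt v s` is a point of the zones of `v` -/
theorem zone_pt824 (h : Mx U) (Z : Zn824 U T v a b c d x1 x2 y1 y2) {s : ℝ}
    (hs : s * (Real.pi / 3) ∈ Ioo x1 x2) :
    c ∉ Pal U (pt v s) ∧ d ∉ Pal U (pt v s) ∧ c ∉ Pal U (pt v (s + 3)) ∧
      d ∉ Pal U (pt v (s + 3)) := by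
  have e : pt v (s + 3) = v - cis (s * (Real.pi / 3)) := by
    unfold pt
    rw [show (s + 3) * (Real.pi / 3) = s * (Real.pi / 3) + Real.pi by ring, cis_add_pi824]; ring
  rw [e]
  exact Z.noY h hs

/-- limit columns: the letters just before and just after a two-pair point with a known germ -/
theorem gs_col824 {κ Λ : Type} {zz : κ → ℂ} {φ u : ℝ} {lt : κ → Set (Fin 6) → Λ} {k : κ}
    {j : Fin 6} {X Y : Set (Fin 6)} (hG : Gs824 T (zz k) (φ + u + (j.val : ℝ)) X Y) :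
    (∀ g ∈ LC (Xl T zz φ lt) u, ∃ P, lt k P = g (k, j) ∧ P ⊆ X) ∧
      ∀ g ∈ RC (Xl T zz φ lt) u, ∃ P, lt k P = g (k, j) ∧ P ⊆ Y := by
  refine ⟨fun g hg => ?_, fun g hg => ?_⟩
  · obtain ⟨P, hP, hS⟩ := LC_pal hg (k, j)
    exact ⟨P, hP, hS.sub hG.1⟩
  · obtain ⟨P, hP, hS⟩ := RC_pal hg (k, j)
    exact ⟨P, hP, hS.sub hG.2⟩

end Vale.Agent.P032.Six
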